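import Mathlib

/-!
Potentials from cyclical monotonicity (Rockafellar's construction), phrased for sequences.
-/

open Finset

namespace Vale.Agent.Lib.P074

variable {E : Type*} [NormedAddCommGroup E] [InnerProductSpace ℝ E]

/-- The sum along a walk of `⟪T (x i), x (i+1) - x i⟫` for `i < n`. -/
noncomputable def walk (T : E → E) (x : ℕ → E) (n : ℕ) : ℝ :=
  ∑ i ∈ range n, inner ℝ (T (x i)) (x (i + 1) - x i)

lemma walk_succ (T : E → E) (x : ℕ → E) (n : ℕ) :
    walk T x (n + 1) = walk T x n + inner ℝ (T (x n)) (x (n + 1) - x n) := by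
  simp [walk, sum_range_succ]

lemma walk_congr {T : E → E} {x y : ℕ → E} {n : ℕ} (h : ∀ i ≤ n, x i = y i) :
    walk T x n = walk T y n := by
  unfold walk
  apply sum_congr rfl
  intro i hi
  have hi' := mem_range.1 hi
  rw [h i (by omega), h (i + 1) (by omega)]

/-- Closed walks decompose when a vertex repeats. -/
lemma closed_walk_of_simple {T : E → E} {G : Set E}
    (hsimple : ∀ (n : ℕ) (x : ℕ → E), 0 < n → (∀ i, x i ∈ G) → x n = x 0 →
      Set.InjOn x (Set.Iio n) → walk T x n ≤ 0) :
    ∀ (n : ℕ) (x : ℕ → E), (∀ i, x i ∈ G) → x n = x 0 → walk T x n ≤ 0 := by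
  intro n
  induction n using Nat.strong_induction_on with
  | _ n ih =>
    intro x hx hclosed
    rcases Nat.eq_zero_or_pos n with rfl | hn
    · simp [walk]
    by_cases hinj : Set.InjOn x (Set.Iio n)
    · exact hsimple n x hn hx hclosed hinj
    -- two equal vertices
    have : ∃ i j, i < j ∧ j < n ∧ x i = x j := by
      unfold Set.InjOn at hinj
      push Not at hinj
      obtain ⟨a, ha, b, hb, hab, hne⟩ := hinj
      rcases lt_or_gt_of_ne hne with h | h
      · exact ⟨a, b, h, hb, hab⟩
      · exact ⟨b, a, h, ha, hab.symm⟩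
    obtain ⟨i, j, hij, hjn, hxij⟩ := this
    set y : ℕ → E := fun k => x (i + k) with hy
    set z : ℕ → E := fun k => if k ≤ i then x k else x (k + (j - i)) with hz
    have hy1 : walk T y (j - i) ≤ 0 := by
      apply ih (j - i) (by omega) y (fun k => hx _)
      simp only [hy]
      rw [Nat.add_sub_cancel' hij.le, add_zero, hxij]
    have hzG : ∀ k, z k ∈ G := by
      intro k
      simp only [hz]
      split_ifs
      · exact hx _
      · exact hx _
    have hz1 : walk T z (n - (j - i)) ≤ 0 := by
      apply ih (n - (j - i)) (by omega) z hzG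
      have h1 : ¬ (n - (j - i) ≤ i) := by omega
      have h2 : n - (j - i) + (j - i) = n := by omega
      simp only [hz, h1, if_false, h2]
      simp [hclosed]
    -- the sums
    have hzval : ∀ k, i ≤ k → z k = x (k + (j - i)) := by
      intro k hk
      simp only [hz]
      split_ifs with h
      · have : k = i := le_antisymm h hk
        subst this
        rw [Nat.add_sub_cancel' hij.le]
        exact hxij
      · rfl
    have hzval' : ∀ k, k ≤ i → z k = x k := by
      intro k hk
      simp only [hz, hk, if_true]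
    have e1 : walk T y (j - i) = ∑ m ∈ Ico i j, inner ℝ (T (x m)) (x (m + 1) - x m) := by
      rw [sum_Ico_eq_sum_range]
      apply sum_congr rfl
      intro k _
      simp only [hy]
      rw [Nat.add_assoc]
    have e2 : walk T z (n - (j - i)) = ∑ m ∈ range i, inner ℝ (T (x m)) (x (m + 1) - x m)
        + ∑ m ∈ Ico j n, inner ℝ (T (x m)) (x (m + 1) - x m) := by
      have hi_le : i ≤ n - (j - i) := by omega
      unfold walk
      rw [← sum_range_add_sum_Ico _ hi_le]
      congr 1
      · apply sum_congr rfl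
        intro k hk
        have hk' := mem_range.1 hk
        rw [hzval' k (by omega), hzval' (k + 1) (by omega)]
      · have h5 : i + (j - i) = j := by omega
        have h6 : n - (j - i) + (j - i) = n := by omega
        have key := sum_Ico_add' (fun m => inner ℝ (T (x m)) (x (m + 1) - x m))
          i (n - (j - i)) (j - i)
        rw [h5, h6] at key
        rw [← key]
        apply sum_congr rfl
        intro k hk
        have hk' := mem_Ico.1 hk
        rw [hzval k hk'.1, hzval (k + 1) (by omega)]
        congr 3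
        omega
    have e3 : walk T x n = ∑ m ∈ range i, inner ℝ (T (x m)) (x (m + 1) - x m)
        + ∑ m ∈ Ico i j, inner ℝ (T (x m)) (x (m + 1) - x m)
        + ∑ m ∈ Ico j n, inner ℝ (T (x m)) (x (m + 1) - x m) := by
      unfold walk
      rw [sum_range_add_sum_Ico _ hij.le, sum_range_add_sum_Ico _ hjn.le]
    rw [e1] at hy1
    rw [e2] at hz1
    rw [e3]
    linarith

section Potential

variable {T : E → E} {G : Set E} {M : ℝ}

/-- The index type of chains based at `x₀`. -/
def Chain (G : Set E) (x₀ : E) : Type _ :=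
  {p : ℕ × (ℕ → E) // p.2 0 = x₀ ∧ ∀ i, p.2 i ∈ G}

/-- The affine function attached to a chain. -/
noncomputable def chainVal (T : E → E) {x₀ : E} (c : Chain G x₀) (z : E) : ℝ :=
  walk T c.1.2 c.1.1 + inner ℝ (T (c.1.2 c.1.1)) (z - c.1.2 c.1.1)

lemma chainVal_lip (hM : ∀ x ∈ G, ‖T x‖ ≤ M) {x₀ : E} (c : Chain G x₀) (z z' : E) :
    chainVal T c z ≤ chainVal T c z' + M * ‖z - z'‖ := by
  unfold chainVal
  have h1 : inner ℝ (T (c.1.2 c.1.1)) (z - c.1.2 c.1.1)
      = inner ℝ (T (c.1.2 c.1.1)) (z' - c.1.2 c.1.1) + inner ℝ (T (c.1.2 c.1.1)) (z - z') := by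
    rw [← inner_add_right]; congr 1; abel
  have h2 : inner ℝ (T (c.1.2 c.1.1)) (z - z') ≤ M * ‖z - z'‖ := by
    calc _ ≤ ‖T (c.1.2 c.1.1)‖ * ‖z - z'‖ := real_inner_le_norm _ _
      _ ≤ _ := by gcongr; exact hM _ (c.2.2 _)
  linarith

lemma chainVal_base (hcyc : ∀ (n : ℕ) (x : ℕ → E), (∀ i, x i ∈ G) → x n = x 0 → walk T x n ≤ 0)
    {x₀ : E} (c : Chain G x₀) : chainVal T c x₀ ≤ 0 := by
  set y : ℕ → E := Function.update c.1.2 (c.1.1 + 1) x₀ with hy
  have hyG : ∀ i, y i ∈ G := by
    intro i
    simp only [hy, Function.update_apply]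
    split_ifs
    · rw [← c.2.1]; exact c.2.2 0
    · exact c.2.2 i
  have hy0 : y 0 = x₀ := by
    rw [hy, Function.update_of_ne (by omega)]
    exact c.2.1
  have hyn : y (c.1.1 + 1) = x₀ := by simp [hy]
  have := hcyc (c.1.1 + 1) y hyG (by rw [hyn, hy0])
  rw [walk_succ, hyn] at this
  have e1 : walk T y c.1.1 = walk T c.1.2 c.1.1 := by
    apply walk_congr
    intro i hi
    simp only [hy, Function.update_apply]
    rw [if_neg (by omega)]
  have e2 : y c.1.1 = c.1.2 c.1.1 := by
    simp only [hy, Function.update_apply]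
    rw [if_neg (by omega)]
  rw [e1, e2] at this
  exact this

/-- Existence of a potential. -/
theorem exists_potential (hM : ∀ x ∈ G, ‖T x‖ ≤ M) (hM0 : 0 ≤ M) (hG : G.Nonempty)
    (hcyc : ∀ (n : ℕ) (x : ℕ → E), (∀ i, x i ∈ G) → x n = x 0 → walk T x n ≤ 0) :
    ∃ φ : E → ℝ, LipschitzWith M.toNNReal φ ∧ ∀ x ∈ G, ∀ z, φ x + inner ℝ (T x) (z - x) ≤ φ z := by
  obtain ⟨x₀, hx₀⟩ := hG
  let c₀ : Chain G x₀ := ⟨(0, fun _ => x₀), rfl, fun _ => hx₀⟩
  haveI : Nonempty (Chain G x₀) := ⟨c₀⟩
  have hbdd : ∀ z, BddAbove (Set.range fun c : Chain G x₀ => chainVal T c z) := by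
    intro z
    refine ⟨M * ‖z - x₀‖, ?_⟩
    rintro _ ⟨c, rfl⟩
    have h1 := chainVal_lip hM c z x₀
    have h2 := chainVal_base hcyc c
    simp only
    linarith
  refine ⟨fun z => ⨆ c : Chain G x₀, chainVal T c z, ?_, ?_⟩
  · apply LipschitzWith.of_le_add_mul
    intro z z'
    apply ciSup_le
    intro c
    have h1 := chainVal_lip hM c z z'
    have h2 : chainVal T c z' ≤ ⨆ c : Chain G x₀, chainVal T c z' := le_ciSup (hbdd z') c
    rw [Real.coe_toNNReal _ hM0, dist_eq_norm]
    linarith
  · intro x hx z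
    simp only
    rw [← le_sub_iff_add_le]
    apply ciSup_le
    intro c
    rw [le_sub_iff_add_le]
    -- extend the chain by `x`
    set y : ℕ → E := Function.update c.1.2 (c.1.1 + 1) x with hy
    have hyG : ∀ i, y i ∈ G := by
      intro i
      simp only [hy, Function.update_apply]
      split_ifs
      · exact hx
      · exact c.2.2 i
    have hy0 : y 0 = x₀ := by
      rw [hy, Function.update_of_ne (by omega)]
      exact c.2.1
    let c' : Chain G x₀ := ⟨(c.1.1 + 1, y), hy0, hyG⟩
    have hval : chainVal T c' z = chainVal T c x + inner ℝ (T x) (z - x) := by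
      unfold chainVal
      simp only [c']
      have hyn : y (c.1.1 + 1) = x := by simp [hy]
      rw [walk_succ, hyn]
      have e1 : walk T y c.1.1 = walk T c.1.2 c.1.1 := by
        apply walk_congr
        intro i hi
        simp only [hy, Function.update_apply]
        rw [if_neg (by omega)]
      have e2 : y c.1.1 = c.1.2 c.1.1 := by
        simp only [hy, Function.update_apply]
        rw [if_neg (by omega)]
      rw [e1, e2]
    rw [← hval]
    exact le_ciSup (hbdd z) c'

end Potential

end Vale.Agent.Lib.P074
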