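import Vale.Agent.Lib.P074.Swap
import Vale.Agent.Lib.P074.Rockafellar

/-!
An optimal map from a uniform source on a convex body is a subgradient of a Lipschitz potential.
-/

open MeasureTheory ENNReal NNReal Set Metric Filter Topology

namespace Vale.Agent.Lib.P074

variable {d : ℕ}

/-- The set of interior Lebesgue points of `T`. -/
def lebPts (K : Set (Eu d)) (T : Eu d → Eu d) : Set (Eu d) :=
  {x | x ∈ interior K ∧ Tendsto (fun r => ⨍ y in closedBall x r, T y) (𝓝[>] 0) (𝓝 (T x))}

lemma ae_mem_lebPts {K : Set (Eu d)} (hKm : MeasurableSet K) (hKconv : Convex ℝ K)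
    (hKcl : IsClosed K) {T : Eu d → Eu d} (hTm : Measurable T) {M : ℝ} (hM : ∀ z, ‖T z‖ ≤ M) :
    ∀ᵐ x ∂(volume.restrict K), x ∈ lebPts K T := by
  have hLI : LocallyIntegrable T (volume : Measure (Eu d)) := by
    refine (locallyIntegrable_const (M : ℝ)).mono hTm.aestronglyMeasurable ?_
    refine Eventually.of_forall fun z => ?_
    have hM0 : 0 ≤ M := (norm_nonneg _).trans (hM 0)
    rw [Real.norm_eq_abs, abs_of_nonneg hM0]
    exact hM z
  have h1 := IsUnifLocDoublingMeasure.ae_tendsto_average (μ := (volume : Measure (Eu d))) hLI 1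
  have h2 : volume (frontier K) = 0 := hKconv.addHaar_frontier volume
  have h3 : ∀ᵐ x ∂(volume : Measure (Eu d)), x ∉ frontier K := measure_eq_zero_iff_ae_notMem.1 h2
  filter_upwards [ae_restrict_mem hKm, ae_restrict_of_ae h1, ae_restrict_of_ae h3] with x hxK hx hxf
  refine ⟨?_, ?_⟩
  · by_contra hni
    apply hxf
    rw [frontier, hKcl.closure_eq]
    exact ⟨hxK, hni⟩
  · have := hx (ι := ℝ) (l := 𝓝[>] (0 : ℝ)) (fun _ => x) (fun r => r) tendsto_id ?_
    · exact this
    · filter_upwards [self_mem_nhdsWithin] with r hr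
      simp only [one_mul, mem_closedBall, dist_self]
      exact le_of_lt hr

/-- The cycle inequality at Lebesgue points, for injective families. -/
lemma cycle_ineq {K : Set (Eu d)} (hKc : IsCompact K) (hK0 : volume K ≠ 0)
    {μ : Measure (Eu d)} {T : Eu d → Eu d} (hopt : IsOTMap (unif K) μ T) {M : ℝ}
    (hM : ∀ z, ‖T z‖ ≤ M) {ι : Type*} [Fintype ι] [DecidableEq ι] (x : ι → Eu d)
    (hinj : Function.Injective x) (hG : ∀ i, x i ∈ lebPts K T) (σ : Equiv.Perm ι) :
    ∑ i, inner ℝ (x (σ i) - x i) (T (x i)) ≤ 0 := by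
  have hsmall : ∀ᶠ r in 𝓝[>] (0 : ℝ), (∀ i, closedBall (x i) r ⊆ K) ∧
      Pairwise fun i j => Disjoint (closedBall (x i) r) (closedBall (x j) r) := by
    have h1 : ∀ᶠ r in 𝓝[>] (0 : ℝ), ∀ i, closedBall (x i) r ⊆ K := by
      rw [eventually_all]
      intro i
      have := (hG i).1
      rw [mem_interior_iff_mem_nhds, Metric.nhds_basis_closedBall.mem_iff] at this
      obtain ⟨ρ, hρ, hsub⟩ := this
      filter_upwards [Ioo_mem_nhdsGT hρ] with r hr
      exact (closedBall_subset_closedBall hr.2.le).trans hsub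
    have h2 : ∀ᶠ r in 𝓝[>] (0 : ℝ), ∀ i j, i ≠ j →
        Disjoint (closedBall (x i) r) (closedBall (x j) r) := by
      rw [eventually_all]
      intro i
      rw [eventually_all]
      intro j
      by_cases hij : i = j
      · simp [hij]
      · have hpos : 0 < dist (x i) (x j) / 3 := by
          have := dist_pos.2 (fun h => hij (hinj h))
          positivity
        filter_upwards [Ioo_mem_nhdsGT hpos] with r hr _
        apply closedBall_disjoint_closedBall
        have := hr.2
        linarith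
    filter_upwards [h1, h2] with r h h'
    exact ⟨h, fun i j hij => h' i j hij⟩
  have hlim : Tendsto (fun r => ∑ i, inner ℝ (x (σ i) - x i) (⨍ y in closedBall (x i) r, T y))
      (𝓝[>] 0) (𝓝 (∑ i, inner ℝ (x (σ i) - x i) (T (x i)))) := by
    apply tendsto_finsetSum
    intro i _
    exact Tendsto.inner tendsto_const_nhds (hG i).2
  refine le_of_tendsto hlim ?_
  filter_upwards [hsmall, self_mem_nhdsWithin] with r hr hrpos
  have hint := cycle_integral (σ := σ) hKc hK0 hopt hM hr.1 hr.2
  have hr' : (0 : ℝ) < r := hrpos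
  have hvol : ∀ i, (volume (closedBall (x i) r)).toReal = (volume (closedBall (0 : Eu d) r)).toReal := by
    intro i
    rw [Measure.addHaar_closedBall_center]
  set v := (volume (closedBall (0 : Eu d) r)).toReal with hv
  have hv0 : 0 < v := by
    refine ENNReal.toReal_pos ?_ (isCompact_closedBall _ _).measure_lt_top.ne
    exact (measure_closedBall_pos volume _ hr').ne'
  have e : ∀ i, inner ℝ (x (σ i) - x i) (⨍ y in closedBall (x i) r, T y)
      = v⁻¹ * inner ℝ (x (σ i) - x i) (∫ y in closedBall (x i) r, T y) := by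
    intro i
    rw [setAverage_eq, inner_smul_right]
    congr 2
    rw [Measure.real, hvol i]
  simp only [e]
  rw [← Finset.mul_sum]
  exact mul_nonpos_of_nonneg_of_nonpos (inv_nonneg.2 hv0.le) hint

/-- Simple closed walks. -/
lemma simple_walk {K : Set (Eu d)} (hKc : IsCompact K) (hK0 : volume K ≠ 0)
    {μ : Measure (Eu d)} {T : Eu d → Eu d} (hopt : IsOTMap (unif K) μ T) {M : ℝ}
    (hM : ∀ z, ‖T z‖ ≤ M) (n : ℕ) (x : ℕ → Eu d) (hn : 0 < n) (hx : ∀ i, x i ∈ lebPts K T)
    (hclosed : x n = x 0) (hinj : Set.InjOn x (Set.Iio n)) : walk T x n ≤ 0 := by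
  obtain ⟨m, rfl⟩ : ∃ m, n = m + 1 := ⟨n - 1, by omega⟩
  set x' : Fin (m + 1) → Eu d := fun i => x i with hx'
  have hinj' : Function.Injective x' := by
    intro i j hij
    apply Fin.ext
    exact hinj (Set.mem_Iio.2 i.2) (Set.mem_Iio.2 j.2) hij
  have key := cycle_ineq hKc hK0 hopt hM x' hinj' (fun i => hx _) (finRotate (m + 1))
  have hrot : ∀ i : Fin (m + 1), x' (finRotate (m + 1) i) = x ((i : ℕ) + 1) := by
    intro i
    rw [finRotate_apply]
    simp only [hx']
    rw [Fin.val_add_one]
    split_ifs with h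
    · rw [h]
      simp [hclosed]
    · rfl
  simp only [hrot] at key
  have e := Fin.sum_univ_eq_sum_range
    (fun k => inner ℝ (x (k + 1) - x k) (T (x k))) (m + 1)
  have e2 : ∑ i : Fin (m + 1), inner ℝ (x ((i : ℕ) + 1) - x' i) (T (x' i))
      = ∑ i : Fin (m + 1), (fun k : ℕ => inner ℝ (x (k + 1) - x k) (T (x k))) (i : ℕ) := rfl
  rw [e2, e] at key
  unfold walk
  refine le_trans (le_of_eq ?_) key
  apply Finset.sum_congr rfl
  intro k _
  rw [real_inner_comm]

/-- The potential of an optimal map bounded by `M`. -/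
theorem exists_potential_of_opt {K : Set (Eu d)} (hKc : IsCompact K) (hKconv : Convex ℝ K)
    (hKint : (interior K).Nonempty) {μ : Measure (Eu d)} {T : Eu d → Eu d}
    (hopt : IsOTMap (unif K) μ T) {M : ℝ} (hM : ∀ z, ‖T z‖ ≤ M) :
    ∃ φ : Eu d → ℝ, LipschitzWith M.toNNReal φ ∧
      ∀ᵐ x ∂(volume.restrict K), ∀ z, φ x + inner ℝ (T x) (z - x) ≤ φ z := by
  have hKm : MeasurableSet K := hKc.measurableSet
  have hKpos : 0 < volume K := by
    obtain ⟨c, hc⟩ := hKint
    have : volume (interior K) ≠ 0 :=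
      (isOpen_interior.measure_pos volume ⟨c, hc⟩).ne'
    exact lt_of_lt_of_le (pos_iff_ne_zero.2 this) (measure_mono interior_subset)
  have hK0 : volume K ≠ 0 := hKpos.ne'
  have hae := ae_mem_lebPts hKm hKconv hKc.isClosed hopt.1 hM
  have hne : (volume.restrict K : Measure (Eu d)) ≠ 0 := by
    intro h
    apply hK0
    have := congrArg (fun m : Measure (Eu d) => m univ) h
    simpa using this
  haveI : (ae (volume.restrict K : Measure (Eu d))).NeBot := ae_neBot.2 hne
  have hGne : (lebPts K T).Nonempty := hae.exists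
  have hM0 : 0 ≤ M := (norm_nonneg _).trans (hM 0)
  have hcyc := closed_walk_of_simple (T := T) (G := lebPts K T)
    (fun n x hn hx hcl hinj => simple_walk hKc hK0 hopt hM n x hn hx hcl hinj)
  obtain ⟨φ, hφ, hsub⟩ := exists_potential (fun x _ => hM x) hM0 hGne hcyc
  refine ⟨φ, hφ, ?_⟩
  filter_upwards [hae] with x hx z using hsub x hx z

end Vale.Agent.Lib.P074
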