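import Vale.Agent.Lib.P074.PL

/-!
The one-cell inequality, a consequence of the Prékopa–Leindler inequality.
-/

open MeasureTheory ENNReal NNReal Set Metric Filter Topology

namespace Vale.Agent.Lib.P074

variable {d : ℕ}

/-- The Gaussian weight. -/
noncomputable def wgt (R : ℝ) (x : Eu d) : ℝ := Real.exp (-(‖x‖ ^ 2 / (16 * R ^ 2)))

/-- The inverse of the Gaussian weight. -/
noncomputable def wgti (R : ℝ) (x : Eu d) : ℝ := Real.exp (‖x‖ ^ 2 / (16 * R ^ 2))

lemma wgt_mul_wgti (R : ℝ) (x : Eu d) : wgt R x * wgti R x = 1 := by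
  unfold wgt wgti
  rw [← Real.exp_add]
  simp

lemma continuous_wgt (R : ℝ) : Continuous (wgt R : Eu d → ℝ) := by
  unfold wgt
  fun_prop

lemma continuous_wgti (R : ℝ) : Continuous (wgti R : Eu d → ℝ) := by
  unfold wgti
  fun_prop

lemma wgt_pos (R : ℝ) (x : Eu d) : 0 < wgt R x := Real.exp_pos _

lemma wgti_pos (R : ℝ) (x : Eu d) : 0 < wgti R x := Real.exp_pos _

lemma wgt_le_one {R : ℝ} (x : Eu d) : wgt R x ≤ 1 := by
  unfold wgt
  rw [Real.exp_le_one_iff]
  have : 0 ≤ ‖x‖ ^ 2 / (16 * R ^ 2) := by positivity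
  linarith

lemma exponent_le {R : ℝ} (hR : 0 < R) {x : Eu d} (hx : ‖x‖ ≤ R) :
    ‖x‖ ^ 2 / (16 * R ^ 2) ≤ 1 / 16 := by
  rw [div_le_iff₀ (by positivity)]
  have : ‖x‖ ^ 2 ≤ R ^ 2 := by gcongr
  linarith

lemma wgt_ge {R : ℝ} (hR : 0 < R) {x : Eu d} (hx : ‖x‖ ≤ R) : 15 / 16 ≤ wgt R x := by
  unfold wgt
  have h1 := Real.add_one_le_exp (-(‖x‖ ^ 2 / (16 * R ^ 2)))
  have h2 := exponent_le hR hx
  linarith

lemma exp_one_sixteenth_sq : Real.exp (1 / 16) ^ 2 ≤ 8 / 7 := by
  have e : Real.exp (1 / 16) ^ 2 = Real.exp (1 / 8) := by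
    rw [sq, ← Real.exp_add]; norm_num
  rw [e]
  have h1 := Real.add_one_le_exp (-(1 / 8 : ℝ))
  have h2 : Real.exp (-(1 / 8 : ℝ)) * Real.exp (1 / 8) = 1 := by
    rw [← Real.exp_add]; simp
  have h3 := Real.exp_pos (1 / 8 : ℝ)
  nlinarith

lemma wgti_le {R : ℝ} (hR : 0 < R) {x : Eu d} (hx : ‖x‖ ≤ R) : wgti R x ≤ Real.exp (1 / 16) := by
  unfold wgti
  exact Real.exp_le_exp.2 (exponent_le hR hx)

/-- Lipschitz bound for the inverse weight. -/
lemma wgti_lip {R : ℝ} (hR : 0 < R) {x y : Eu d} (hx : ‖x‖ ≤ R) (hy : ‖y‖ ≤ R) :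
    |wgti R x - wgti R y| ≤ Real.exp (1 / 16) * (‖x - y‖ / (8 * R)) := by
  wlog hxy : ‖y‖ ≤ ‖x‖ generalizing x y
  · have := this hy hx (le_of_not_ge hxy)
    rwa [abs_sub_comm, norm_sub_rev] at this
  unfold wgti
  set u := ‖x‖ ^ 2 / (16 * R ^ 2) with hu
  set w := ‖y‖ ^ 2 / (16 * R ^ 2) with hw
  have huw : w ≤ u := by
    rw [hu, hw]
    gcongr
  have h1 : Real.exp u - Real.exp w ≤ Real.exp u * (u - w) := by
    have h2 := Real.add_one_le_exp (w - u)
    have h3 : Real.exp (w - u) * Real.exp u = Real.exp w := by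
      rw [← Real.exp_add]; ring_nf
    have h4 := Real.exp_pos u
    nlinarith
  have h5 : 0 ≤ Real.exp u - Real.exp w := by
    have := Real.exp_le_exp.2 huw
    linarith
  rw [abs_of_nonneg h5]
  refine h1.trans ?_
  have h6 : u - w ≤ ‖x - y‖ / (8 * R) := by
    have e0 : u - w = (‖x‖ ^ 2 - ‖y‖ ^ 2) / (16 * R ^ 2) := by
      rw [hu, hw]; ring
    rw [e0, div_le_div_iff₀ (by positivity) (by positivity)]
    have h7 : ‖x‖ ^ 2 - ‖y‖ ^ 2 ≤ 2 * R * ‖x - y‖ := by
      have h8 : ‖x‖ ≤ ‖y‖ + ‖x - y‖ := by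
        have := norm_add_le y (x - y)
        simpa using this
      have h9 : 0 ≤ ‖y‖ := norm_nonneg y
      have h10 : 0 ≤ ‖x‖ := norm_nonneg x
      have h11 : ‖x‖ - ‖y‖ ≤ ‖x - y‖ := by linarith
      nlinarith
    have h12 : 0 < R := hR
    nlinarith [mul_pos h12 h12]
  have h13 : Real.exp u ≤ Real.exp (1 / 16) := Real.exp_le_exp.2 (exponent_le hR hx)
  have h14 : 0 ≤ u - w := by linarith
  calc Real.exp u * (u - w) ≤ Real.exp (1 / 16) * (u - w) := by gcongr
    _ ≤ _ := by gcongr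

/-- The exponential mean inequality (Jensen). -/
lemma exp_mean_le {s : Set (Eu d)} (hs : MeasurableSet s) {W F : Eu d → ℝ} (hW : ∀ x ∈ s, 0 ≤ W x)
    (hγ : 0 < ∫ x in s, W x) (hWi : IntegrableOn W s) (hFi : IntegrableOn (fun x => F x * W x) s)
    (hEi : IntegrableOn (fun x => Real.exp (F x) * W x) s) :
    (∫ x in s, W x) * Real.exp ((∫ x in s, F x * W x) / ∫ x in s, W x)
      ≤ ∫ x in s, Real.exp (F x) * W x := by
  set γ := ∫ x in s, W x with hγdef
  set Fb := (∫ x in s, F x * W x) / γ with hFb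
  have h1 : ∫ x in s, Real.exp Fb * ((1 - Fb) * W x + F x * W x)
      = Real.exp Fb * γ := by
    rw [integral_const_mul, integral_add (hWi.const_mul _) hFi, integral_const_mul, ← hγdef]
    congr 1
    rw [hFb]
    field_simp
    ring
  calc γ * Real.exp Fb = ∫ x in s, Real.exp Fb * ((1 - Fb) * W x + F x * W x) := by
        rw [h1, mul_comm]
    _ ≤ ∫ x in s, Real.exp (F x) * W x := by
        apply setIntegral_mono_on
        · exact ((hWi.const_mul _).add hFi).const_mul _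
        · exact hEi
        · exact hs
        · intro x hx
          have h2 := Real.add_one_le_exp (F x - Fb)
          have h3 : Real.exp (F x - Fb) * Real.exp Fb = Real.exp (F x) := by
            rw [← Real.exp_add]; ring_nf
          have h4 := Real.exp_pos Fb
          have h5 : Real.exp Fb * (F x - Fb + 1) ≤ Real.exp (F x) := by
            rw [← h3]
            nlinarith
          have h6 := hW x hx
          calc Real.exp Fb * ((1 - Fb) * W x + F x * W x)
              = (Real.exp Fb * (F x - Fb + 1)) * W x := by ring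
            _ ≤ _ := by gcongr

/-- The algebraic core of the one-cell inequality. -/
lemma cell_alg {m p q e L Λ D2 R : ℝ} (hm : 0 < m) (hp : 0 < p) (hq : 0 < q) (hpm : p ^ 2 ≤ m)
    (hqm : q ^ 2 ≤ m) (hq' : 15 / 16 * m ≤ q ^ 2) (hL : L ^ 2 ≤ q ^ 2 * Λ) (hD2 : 0 ≤ D2)
    (hR : 0 < R)
    (he : p * q * (1 + (7 / (800 * R ^ 2) * (m / p ^ 2) ^ 2 * D2
        + 7 / 8 * (m / p ^ 2 - m / q ^ 2) ^ 2 - L / q ^ 2) / 2) ≤ e) :
    63 / (8000 * R ^ 2) * m * D2 ≤ 2 * e - p ^ 2 - q ^ 2 + L + Λ / 10 := by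
  set A := m / p ^ 2 with hA
  have hA1 : 1 ≤ A := by
    rw [hA, one_le_div (by positivity)]
    exact hpm
  have hAp : A * p ^ 2 = m := by
    rw [hA]; field_simp
  have h1 : 9 / 10 * m ≤ p * q * A ^ 2 := by
    have h2 : (9 / 10 * m) ^ 2 ≤ (p * q * A ^ 2) ^ 2 := by
      have e1 : (p * q * A ^ 2) ^ 2 = (A * p ^ 2) * A ^ 3 * q ^ 2 := by ring
      rw [e1, hAp]
      have h3 : 1 ≤ A ^ 3 := one_le_pow₀ hA1
      have h4 : m * (15 / 16 * m) ≤ m * A ^ 3 * q ^ 2 := by
        have h5 : 0 ≤ q ^ 2 := by positivity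
        have h6 : q ^ 2 ≤ A ^ 3 * q ^ 2 := by nlinarith
        nlinarith
      nlinarith [mul_pos hm hm]
    exact (pow_le_pow_iff_left₀ (by positivity) (by positivity) (by norm_num)).1 h2
  have h2 : 4 * (p - q) ^ 2 ≤ p * q * (A - m / q ^ 2) ^ 2 := by
    have key : 4 * (p - q) ^ 2 * (p ^ 3 * q ^ 3) ≤ m ^ 2 * (q ^ 2 - p ^ 2) ^ 2 := by
      have hmm : p ^ 2 * q ^ 2 ≤ m ^ 2 := by
        have := mul_le_mul hpm hqm (by positivity) hm.le
        nlinarith
      have hpq : 4 * (p * q) ≤ (p + q) ^ 2 := by nlinarith [sq_nonneg (p - q)]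
      have h3 : (p ^ 2 * q ^ 2) * (4 * (p * q)) ≤ m ^ 2 * (p + q) ^ 2 := by
        apply mul_le_mul hmm hpq (by positivity) (by positivity)
      calc 4 * (p - q) ^ 2 * (p ^ 3 * q ^ 3) = (p - q) ^ 2 * ((p ^ 2 * q ^ 2) * (4 * (p * q))) := by
            ring
        _ ≤ (p - q) ^ 2 * (m ^ 2 * (p + q) ^ 2) := by gcongr
        _ = _ := by ring
    have e1 : p * q * (A - m / q ^ 2) ^ 2 = m ^ 2 * (q ^ 2 - p ^ 2) ^ 2 / (p ^ 3 * q ^ 3) := by
      rw [hA]
      field_simp
    rw [e1, le_div_iff₀ (by positivity)]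
    exact key
  set r := L / q with hr
  have hrq : r * q = L := by
    rw [hr]; field_simp
  have hr2 : r ^ 2 ≤ Λ := by
    have e1 : L ^ 2 = r ^ 2 * q ^ 2 := by
      rw [← hrq]; ring
    rw [e1] at hL
    have h3 : 0 < q ^ 2 := by positivity
    nlinarith
  have e3 : p * q * (L / q ^ 2) = p * r := by
    rw [hr]; field_simp
  have h4 : p * r ≤ L + 5 / 2 * (p - q) ^ 2 + Λ / 10 := by
    rw [← hrq]
    nlinarith [sq_nonneg (5 * (p - q) - r)]
  have h5 : 63 / (8000 * R ^ 2) * m * D2 ≤ p * q * (7 / (800 * R ^ 2) * A ^ 2 * D2) := by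
    have e2 : p * q * (7 / (800 * R ^ 2) * A ^ 2 * D2)
        = 7 / (800 * R ^ 2) * (p * q * A ^ 2) * D2 := by ring
    have e4 : 63 / (8000 * R ^ 2) * m * D2 = 7 / (800 * R ^ 2) * (9 / 10 * m) * D2 := by
      field_simp
      ring
    rw [e2, e4]
    gcongr
  have h6 : 2 * e ≥ 2 * (p * q) + p * q * (7 / (800 * R ^ 2) * A ^ 2 * D2)
      + 7 / 8 * (p * q * (A - m / q ^ 2) ^ 2) - p * r := by
    have e5 : p * q * (1 + (7 / (800 * R ^ 2) * A ^ 2 * D2
        + 7 / 8 * (A - m / q ^ 2) ^ 2 - L / q ^ 2) / 2)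
        = (2 * (p * q) + p * q * (7 / (800 * R ^ 2) * A ^ 2 * D2)
          + 7 / 8 * (p * q * (A - m / q ^ 2) ^ 2) - p * q * (L / q ^ 2)) / 2 := by ring
    rw [e5, e3] at he
    linarith
  nlinarith [sq_nonneg (p - q)]

lemma intOn_real {K s : Set (Eu d)} (hKtop : volume K ≠ ⊤) (hs : s ⊆ K) (hsm : MeasurableSet s)
    {F : Eu d → ℝ} (hF : Measurable F) {B : ℝ} (hB : ∀ x ∈ K, |F x| ≤ B) : IntegrableOn F s := by
  apply Measure.integrableOn_of_bounded (M := B) (measure_lt_top_of_subset hs hKtop).ne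
    hF.aestronglyMeasurable
  filter_upwards [ae_restrict_mem hsm] with x hx
  simpa using hB x (hs hx)

lemma intOn_vec {K s : Set (Eu d)} (hKtop : volume K ≠ ⊤) (hs : s ⊆ K) (hsm : MeasurableSet s)
    {F : Eu d → Eu d} (hF : Measurable F) {B : ℝ} (hB : ∀ x ∈ K, ‖F x‖ ≤ B) : IntegrableOn F s := by
  apply Measure.integrableOn_of_bounded (M := B) (measure_lt_top_of_subset hs hKtop).ne
    hF.aestronglyMeasurable
  filter_upwards [ae_restrict_mem hsm] with x hx
  exact hB x (hs hx)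

lemma abs_wgt_le (R : ℝ) (x : Eu d) : |wgt R x| ≤ 1 := by
  rw [abs_of_pos (wgt_pos R x)]
  exact wgt_le_one x

/-- The Prékopa–Leindler step. -/
theorem cell_pl {K C C' D : Set (Eu d)} {R : ℝ} (hR : 0 < R) (hKtop : volume K ≠ ⊤) (hCK : C ⊆ K)
    (hC'K : C' ⊆ K) (hDK : D ⊆ K) (hCm : MeasurableSet C) (hC'm : MeasurableSet C')
    (hDm : MeasurableSet D) (hmid : ∀ x ∈ C, ∀ y ∈ C', (1 / 2 : ℝ) • (x + y) ∈ D)
    {f : Eu d → ℝ} (hfc : Continuous f) {Bf : ℝ} (hfb : ∀ x ∈ K, |f x| ≤ Bf) {P cc : ℝ}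
    (hlip : ∀ x ∈ K, ∀ y ∈ K, f x - f y ≤ P * ‖x - y‖) (hcc : cc = 8 * R ^ 2 * P ^ 2) :
    (∫ x in C, Real.exp (f x) * wgt R x) * (∫ x in C', Real.exp (-f x - cc) * wgt R x)
      ≤ (∫ x in D, wgt R x) ^ 2 := by
  have hcc0 : 0 ≤ cc := by rw [hcc]; positivity
  have hωm : Measurable (wgt R : Eu d → ℝ) := (continuous_wgt R).measurable
  have hexpm : Measurable fun x => Real.exp (f x) * wgt R x :=
    (Real.continuous_exp.comp hfc).measurable.mul hωm
  have hexpm' : Measurable fun x => Real.exp (-f x - cc) * wgt R x :=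
    (Real.continuous_exp.comp ((hfc.neg).sub continuous_const)).measurable.mul hωm
  have ifexp : IntegrableOn (fun x => Real.exp (f x) * wgt R x) C :=
    intOn_real hKtop hCK hCm hexpm (B := Real.exp Bf) (fun x hx => by
      rw [abs_of_pos (mul_pos (Real.exp_pos _) (wgt_pos R x))]
      have h1 : Real.exp (f x) ≤ Real.exp Bf := Real.exp_le_exp.2 ((le_abs_self _).trans (hfb x hx))
      have h2 := wgt_le_one (R := R) x
      have h3 := wgt_pos R x
      have h4 := Real.exp_pos (f x)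
      nlinarith)
  have ifexp' : IntegrableOn (fun x => Real.exp (-f x - cc) * wgt R x) C' :=
    intOn_real hKtop hC'K hC'm hexpm' (B := Real.exp Bf) (fun x hx => by
      rw [abs_of_pos (mul_pos (Real.exp_pos _) (wgt_pos R x))]
      have h1 : Real.exp (-f x - cc) ≤ Real.exp Bf := by
        apply Real.exp_le_exp.2
        have := (neg_le_abs (f x)).trans (hfb x hx)
        linarith
      have h2 := wgt_le_one (R := R) x
      have h3 := wgt_pos R x
      have h4 := Real.exp_pos (-f x - cc)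
      nlinarith)
  have iω : IntegrableOn (wgt R) D := intOn_real hKtop hDK hDm hωm (fun x _ => abs_wgt_le R x)
  have := pl_real (a := C.indicator fun x => Real.exp (f x) * wgt R x)
    (b := C'.indicator fun x => Real.exp (-f x - cc) * wgt R x)
    (c := D.indicator (wgt R)) (hexpm.indicator hCm) (hexpm'.indicator hC'm)
    (hωm.indicator hDm)
    (fun x => indicator_nonneg (fun x _ => (mul_pos (Real.exp_pos _) (wgt_pos R x)).le) x)
    (fun x => indicator_nonneg (fun x _ => (mul_pos (Real.exp_pos _) (wgt_pos R x)).le) x)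
    (fun x => indicator_nonneg (fun x _ => (wgt_pos R x).le) x)
    (ifexp.integrable_indicator hCm) (ifexp'.integrable_indicator hC'm)
    (iω.integrable_indicator hDm)
    (fun x y => by
      by_cases hx : x ∈ C
      · by_cases hy : y ∈ C'
        · rw [indicator_of_mem hx, indicator_of_mem hy, indicator_of_mem (hmid x hx y hy)]
          have hd := hlip x (hCK hx) y (hC'K hy)
          set dn := ‖x - y‖ with hdn
          have hpar := parallelogram_law_with_norm ℝ x y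
          have hmidn : ‖(1 / 2 : ℝ) • (x + y)‖ ^ 2 = ‖x + y‖ ^ 2 / 4 := by
            rw [norm_smul]
            norm_num
            ring
          have hR2 : 0 < R ^ 2 := by positivity
          have hAM : P * dn ≤ cc + dn ^ 2 / (32 * R ^ 2) := by
            have e : cc + dn ^ 2 / (32 * R ^ 2) - P * dn = 8 * R ^ 2 * (P - dn / (16 * R ^ 2)) ^ 2 := by
              rw [hcc]
              field_simp
              ring
            have : 0 ≤ 8 * R ^ 2 * (P - dn / (16 * R ^ 2)) ^ 2 := by positivity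
            linarith
          have hexpo : f x - f y - cc ≤ dn ^ 2 / (32 * R ^ 2) := by linarith
          unfold wgt
          rw [hmidn, ← Real.exp_nat_mul]
          rw [show Real.exp (f x) * Real.exp (-(‖x‖ ^ 2 / (16 * R ^ 2))) *
              (Real.exp (-f y - cc) * Real.exp (-(‖y‖ ^ 2 / (16 * R ^ 2))))
              = Real.exp (f x + -(‖x‖ ^ 2 / (16 * R ^ 2)) + ((-f y - cc) + -(‖y‖ ^ 2 / (16 * R ^ 2)))) by
            rw [Real.exp_add, Real.exp_add, Real.exp_add]]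
          apply Real.exp_le_exp.2
          have e : dn ^ 2 = 2 * (‖x‖ ^ 2 + ‖y‖ ^ 2) - ‖x + y‖ ^ 2 := by
            rw [hdn]
            nlinarith
          rw [e] at hexpo
          have e2 : (2 * (‖x‖ ^ 2 + ‖y‖ ^ 2) - ‖x + y‖ ^ 2) / (32 * R ^ 2)
              = (‖x‖ ^ 2 / (16 * R ^ 2) + ‖y‖ ^ 2 / (16 * R ^ 2))
                - ‖x + y‖ ^ 2 / (32 * R ^ 2) := by
            field_simp
            ring
          have e3 : ((2 : ℕ) : ℝ) * -(‖x + y‖ ^ 2 / 4 / (16 * R ^ 2))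
              = - (‖x + y‖ ^ 2 / (32 * R ^ 2)) := by
            push_cast
            field_simp
            ring
          rw [e3]
          rw [e2] at hexpo
          linarith
        · rw [indicator_of_notMem hy, mul_zero]
          positivity
      · rw [indicator_of_notMem hx, zero_mul]
        positivity)
  rwa [integral_indicator hCm, integral_indicator hC'm, integral_indicator hDm] at this

/-- Bound of the cost constant. -/
lemma cc_bound {R hE nv t A D2 a : ℝ} (hR : 0 < R) (hE2 : hE ^ 2 ≤ 8 / 7)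
    (hnv : nv ^ 2 = (7 / (400 * R ^ 2) * A) ^ 2 * D2) (ht : t = 7 / 4 * a) :
    8 * R ^ 2 * (hE * (5 / 4 * nv + |t| / (8 * R))) ^ 2
      ≤ 7 / (800 * R ^ 2) * A ^ 2 * D2 + 7 / 8 * a ^ 2 := by
  have h2 : (5 / 4 * nv + |t| / (8 * R)) ^ 2 ≤ 2 * (25 / 16 * nv ^ 2 + t ^ 2 / (64 * R ^ 2)) := by
    have e2 : t ^ 2 / (64 * R ^ 2) = (|t| / (8 * R)) ^ 2 := by
      rw [div_pow, sq_abs]
      ring
    rw [e2]
    nlinarith [sq_nonneg (5 / 4 * nv - |t| / (8 * R))]
  have h3 : 8 * R ^ 2 * (hE * (5 / 4 * nv + |t| / (8 * R))) ^ 2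
      ≤ 8 * R ^ 2 * (8 / 7 * (2 * (25 / 16 * nv ^ 2 + t ^ 2 / (64 * R ^ 2)))) := by
    rw [mul_pow]
    gcongr
  refine h3.trans (le_of_eq ?_)
  rw [hnv, ht]
  field_simp
  ring

/-- The Lipschitz bound for the test function. -/
lemma test_lip {K : Set (Eu d)} {R : ℝ} (hR : 0 < R) (hKR : ∀ x ∈ K, ‖x‖ ≤ R) {v b' : Eu d} {t : ℝ}
    (hb' : ‖b'‖ ≤ R) {x y : Eu d} (hx : x ∈ K) (hy : y ∈ K) :
    (inner ℝ v (x - b') + t) * wgti R x - (inner ℝ v (y - b') + t) * wgti R y
      ≤ Real.exp (1 / 16) * (5 / 4 * ‖v‖ + |t| / (8 * R)) * ‖x - y‖ := by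
  set hE := Real.exp (1 / 16) with hhE
  have hE0 : 0 < hE := Real.exp_pos _
  have h1 : (inner ℝ v (x - b') + t) - (inner ℝ v (y - b') + t) = inner ℝ v (x - y) := by
    rw [inner_sub_right, inner_sub_right, inner_sub_right]
    ring
  have h2 : |inner ℝ v (x - y)| ≤ ‖v‖ * ‖x - y‖ := abs_real_inner_le_norm _ _
  have h3 := wgti_pos R x
  have h4 : wgti R x ≤ hE := wgti_le hR (hKR x hx)
  have h5 : |wgti R x - wgti R y| ≤ hE * (‖x - y‖ / (8 * R)) :=
    wgti_lip hR (hKR x hx) (hKR y hy)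
  have h6 : |inner ℝ v (y - b') + t| ≤ 2 * R * ‖v‖ + |t| := by
    have h1 : |inner ℝ v (y - b')| ≤ ‖v‖ * ‖y - b'‖ := abs_real_inner_le_norm _ _
    have h2 : ‖y - b'‖ ≤ 2 * R := by
      have := norm_sub_le y b'
      have := hKR y hy
      linarith
    have h3 : ‖v‖ * ‖y - b'‖ ≤ ‖v‖ * (2 * R) := by gcongr
    calc |inner ℝ v (y - b') + t| ≤ |inner ℝ v (y - b')| + |t| := abs_add_le _ _
      _ ≤ _ := by linarith
  have e1 : (inner ℝ v (x - b') + t) * wgti R x - (inner ℝ v (y - b') + t) * wgti R y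
      = ((inner ℝ v (x - b') + t) - (inner ℝ v (y - b') + t)) * wgti R x
        + (inner ℝ v (y - b') + t) * (wgti R x - wgti R y) := by ring
  have h7 : ((inner ℝ v (x - b') + t) - (inner ℝ v (y - b') + t)) * wgti R x
      ≤ ‖v‖ * ‖x - y‖ * hE := by
    rw [h1]
    have h8 := (abs_le.1 h2).2
    calc inner ℝ v (x - y) * wgti R x ≤ ‖v‖ * ‖x - y‖ * wgti R x := by gcongr
      _ ≤ _ := by gcongr
  have h9 : (inner ℝ v (y - b') + t) * (wgti R x - wgti R y)
      ≤ (2 * R * ‖v‖ + |t|) * (hE * (‖x - y‖ / (8 * R))) := by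
    calc (inner ℝ v (y - b') + t) * (wgti R x - wgti R y)
        ≤ |(inner ℝ v (y - b') + t) * (wgti R x - wgti R y)| := le_abs_self _
      _ = |inner ℝ v (y - b') + t| * |wgti R x - wgti R y| := abs_mul _ _
      _ ≤ _ := by gcongr
  have e2 : hE * (5 / 4 * ‖v‖ + |t| / (8 * R)) * ‖x - y‖ = ‖v‖ * ‖x - y‖ * hE
      + (2 * R * ‖v‖ + |t|) * (hE * (‖x - y‖ / (8 * R))) := by
    field_simp
    ring
  rw [e1, e2]
  linarith

/-- Boundedness of the test function. -/
lemma test_bound {K : Set (Eu d)} {R : ℝ} (hR : 0 < R) (hKR : ∀ x ∈ K, ‖x‖ ≤ R) {v b' : Eu d} {t : ℝ}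
    (hb' : ‖b'‖ ≤ R) {x : Eu d} (hx : x ∈ K) :
    |(inner ℝ v (x - b') + t) * wgti R x| ≤ (2 * R * ‖v‖ + |t|) * Real.exp (1 / 16) := by
  rw [abs_mul, abs_of_pos (wgti_pos R x)]
  have h6 : |inner ℝ v (x - b') + t| ≤ 2 * R * ‖v‖ + |t| := by
    have h1 : |inner ℝ v (x - b')| ≤ ‖v‖ * ‖x - b'‖ := abs_real_inner_le_norm _ _
    have h2 : ‖x - b'‖ ≤ 2 * R := by
      have := norm_sub_le x b'
      have := hKR x hx
      linarith
    have h3 : ‖v‖ * ‖x - b'‖ ≤ ‖v‖ * (2 * R) := by gcongr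
    calc |inner ℝ v (x - b') + t| ≤ |inner ℝ v (x - b')| + |t| := abs_add_le _ _
      _ ≤ _ := by linarith
  have h7 : wgti R x ≤ Real.exp (1 / 16) := wgti_le hR (hKR x hx)
  have h8 := wgti_pos R x
  gcongr

/-- First Jensen step. -/
lemma jensen_one {K C : Set (Eu d)} {R : ℝ} (hKtop : volume K ≠ ⊤) (hCK : C ⊆ K)
    (hCm : MeasurableSet C) (hγ : 0 < ∫ x in C, wgt R x) {ℓ : Eu d → ℝ} (hℓ : Continuous ℓ)
    {Bf : ℝ} (hfb : ∀ x ∈ K, |ℓ x * wgti R x| ≤ Bf) :
    (∫ x in C, wgt R x) * Real.exp ((∫ x in C, ℓ x) / ∫ x in C, wgt R x)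
      ≤ ∫ x in C, Real.exp (ℓ x * wgti R x) * wgt R x := by
  have hωm : Measurable (wgt R : Eu d → ℝ) := (continuous_wgt R).measurable
  have hfc : Continuous fun x => ℓ x * wgti R x := hℓ.mul (continuous_wgti R)
  have e : ∀ x, ℓ x * wgti R x * wgt R x = ℓ x := fun x => by
    rw [mul_assoc, mul_comm (wgti R x), wgt_mul_wgti, mul_one]
  have := exp_mean_le hCm (W := wgt R) (F := fun x => ℓ x * wgti R x)
    (fun x _ => (wgt_pos R x).le) hγ (intOn_real hKtop hCK hCm hωm (fun x _ => abs_wgt_le R x))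
    (by
      refine intOn_real hKtop hCK hCm (hfc.measurable.mul hωm) (B := Bf * 1) (fun x hx => ?_)
      rw [abs_mul]
      have h1 := hfb x hx
      have h2 := abs_wgt_le R x
      have h3 := abs_nonneg (ℓ x * wgti R x)
      have h4 := abs_nonneg (wgt R x)
      nlinarith)
    (by
      refine intOn_real hKtop hCK hCm ((Real.continuous_exp.comp hfc).measurable.mul hωm)
        (B := Real.exp Bf) (fun x hx => ?_)
      rw [abs_of_pos (mul_pos (Real.exp_pos _) (wgt_pos R x))]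
      have h1 : Real.exp (ℓ x * wgti R x) ≤ Real.exp Bf :=
        Real.exp_le_exp.2 ((le_abs_self _).trans (hfb x hx))
      have h2 := wgt_le_one (R := R) x
      have h3 := wgt_pos R x
      have h4 := Real.exp_pos (ℓ x * wgti R x)
      nlinarith)
  simpa only [e] using this

/-- Second Jensen step. -/
lemma jensen_two {K C' : Set (Eu d)} {R : ℝ} (hKtop : volume K ≠ ⊤) (hC'K : C' ⊆ K)
    (hC'm : MeasurableSet C') {g : Eu d → ℝ} (hgm : Measurable g)
    (hg1 : ∀ x ∈ K, 1 / 2 ≤ g x) (hg2 : ∀ x ∈ K, g x ≤ 2)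
    (hγ : 0 < ∫ x in C', g x * wgt R x) {ℓ : Eu d → ℝ} (hℓ : Continuous ℓ)
    {Bf : ℝ} (hfb : ∀ x ∈ K, |ℓ x * wgti R x| ≤ Bf) {cc : ℝ} (hcc : 0 ≤ cc)
    (hlog : ∀ x ∈ K, |Real.log (g x)| ≤ 1)
    (iL : IntegrableOn (fun x => g x * wgt R x * Real.log (g x)) C') :
    (∫ x in C', g x * wgt R x)
        * Real.exp ((-(∫ x in C', ℓ x * g x) - cc * (∫ x in C', g x * wgt R x)
          - ∫ x in C', g x * wgt R x * Real.log (g x)) / ∫ x in C', g x * wgt R x)
      ≤ ∫ x in C', Real.exp (-(ℓ x * wgti R x) - cc) * wgt R x := by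
  have hωm : Measurable (wgt R : Eu d → ℝ) := (continuous_wgt R).measurable
  have hfc : Continuous fun x => ℓ x * wgti R x := hℓ.mul (continuous_wgti R)
  have hg0 : ∀ x ∈ K, 0 < g x := fun x hx => by linarith [hg1 x hx]
  have hlm : Measurable fun x => Real.log (g x) := Real.measurable_log.comp hgm
  have hgωm : Measurable fun x => g x * wgt R x := hgm.mul hωm
  have hgωb : ∀ x ∈ K, |g x * wgt R x| ≤ 2 := fun x hx => by
    rw [abs_mul, abs_of_pos (hg0 x hx)]
    have h1 := abs_wgt_le R x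
    have h2 := hg2 x hx
    have h3 := hg0 x hx
    have h4 := abs_nonneg (wgt R x)
    nlinarith
  have iW : IntegrableOn (fun x => g x * wgt R x) C' := intOn_real hKtop hC'K hC'm hgωm hgωb
  set F : Eu d → ℝ := fun x => -(ℓ x * wgti R x) - cc - Real.log (g x) with hF
  have hFm : Measurable F := ((hfc.neg).sub continuous_const).measurable.sub hlm
  have hFb : ∀ x ∈ K, |F x| ≤ Bf + cc + 1 := fun x hx => by
    have h1 := hfb x hx
    have h2 := hlog x hx
    have h3 : |F x| ≤ |-(ℓ x * wgti R x) - cc| + |Real.log (g x)| := abs_sub _ _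
    have h4 : |-(ℓ x * wgti R x) - cc| ≤ |-(ℓ x * wgti R x)| + |cc| := abs_sub _ _
    rw [abs_neg, abs_of_nonneg hcc] at h4
    linarith
  have e1 : ∀ x ∈ C', Real.exp (F x) * (g x * wgt R x) = Real.exp (-(ℓ x * wgti R x) - cc) * wgt R x := by
    intro x hx
    have hg := hg0 x (hC'K hx)
    simp only [hF]
    rw [Real.exp_sub _ (Real.log (g x)), Real.exp_log hg]
    field_simp
  have iE : IntegrableOn (fun x => Real.exp (F x) * (g x * wgt R x)) C' := by
    refine intOn_real hKtop hC'K hC'm ((Real.measurable_exp.comp hFm).mul hgωm)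
      (B := Real.exp (Bf + cc + 1) * 2) (fun x hx => ?_)
    rw [abs_mul, abs_of_pos (Real.exp_pos _)]
    have h1 : Real.exp (F x) ≤ Real.exp (Bf + cc + 1) :=
      Real.exp_le_exp.2 ((le_abs_self _).trans (hFb x hx))
    have h2 := hgωb x hx
    have h3 := abs_nonneg (g x * wgt R x)
    have h4 := Real.exp_pos (F x)
    exact mul_le_mul h1 h2 h3 (Real.exp_pos _).le
  have iFW : IntegrableOn (fun x => F x * (g x * wgt R x)) C' := by
    refine intOn_real hKtop hC'K hC'm (hFm.mul hgωm) (B := (Bf + cc + 1) * 2) (fun x hx => ?_)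
    rw [abs_mul]
    have h1 := hFb x hx
    have h2 := hgωb x hx
    have h3 := abs_nonneg (g x * wgt R x)
    have h4 := abs_nonneg (F x)
    exact mul_le_mul h1 h2 h3 (h4.trans h1)
  have key := exp_mean_le hC'm (W := fun x => g x * wgt R x) (F := F)
    (fun x hx => mul_nonneg (hg0 x (hC'K hx)).le (wgt_pos R x).le) hγ iW iFW iE
  rw [setIntegral_congr_fun hC'm e1] at key
  have e2 : ∫ x in C', F x * (g x * wgt R x)
      = -(∫ x in C', ℓ x * g x) - cc * (∫ x in C', g x * wgt R x)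
        - ∫ x in C', g x * wgt R x * Real.log (g x) := by
    have e3 : ∀ x, F x * (g x * wgt R x) = -(ℓ x * g x) - cc * (g x * wgt R x)
        - g x * wgt R x * Real.log (g x) := by
      intro x
      simp only [hF]
      have := wgt_mul_wgti R x
      calc (-(ℓ x * wgti R x) - cc - Real.log (g x)) * (g x * wgt R x)
          = -(ℓ x * g x * (wgt R x * wgti R x)) - cc * (g x * wgt R x)
            - g x * wgt R x * Real.log (g x) := by ring
        _ = _ := by rw [this, mul_one]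
    simp only [e3]
    have i1 : IntegrableOn (fun x => ℓ x * g x) C' := by
      have : IntegrableOn (fun x => (ℓ x * wgti R x * wgt R x) * (g x)) C' := by
        refine intOn_real hKtop hC'K hC'm ((hfc.measurable.mul hωm).mul hgm)
          (B := Bf * 1 * 2) (fun x hx => ?_)
        rw [abs_mul, abs_mul]
        have h1 := hfb x hx
        have h2 := abs_wgt_le R x
        have h3 := abs_nonneg (ℓ x * wgti R x)
        have h4 := abs_nonneg (wgt R x)
        have h5 : |g x| ≤ 2 := by rw [abs_of_pos (hg0 x hx)]; exact hg2 x hx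
        have h6 : 0 ≤ Bf := h3.trans h1
        exact mul_le_mul (mul_le_mul h1 h2 h4 h6) h5 (abs_nonneg _) (by positivity)
      refine this.congr_fun (fun x _ => ?_) hC'm
      simp only
      rw [mul_assoc (ℓ x), mul_comm (wgti R x), wgt_mul_wgti, mul_one]
    have i2 : IntegrableOn (fun x => -(ℓ x * g x) - cc * (g x * wgt R x)) C' :=
      i1.neg.sub (iW.const_mul _)
    rw [integral_sub i2 iL]
    have e6 : ∫ x in C', -(ℓ x * g x) - cc * (g x * wgt R x)
        = -(∫ x in C', ℓ x * g x) - cc * ∫ x in C', g x * wgt R x := by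
      have := integral_sub (μ := volume.restrict C') (f := fun x => -(ℓ x * g x))
        (g := fun x => cc * (g x * wgt R x)) i1.neg (iW.const_mul _)
      rw [this, integral_neg, integral_const_mul]
    rw [e6]
  rw [e2] at key
  exact key

end Vale.Agent.Lib.P074
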