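import Vale.Agent.Lib.P074.Cell

/-!
The one-cell inequality.
-/

open MeasureTheory ENNReal NNReal Set Metric Filter Topology

namespace Vale.Agent.Lib.P074

variable {d : ℕ}

/-- Cauchy–Schwarz inequality for a nonnegative weight. -/
lemma weighted_cs {s : Set (Eu d)} (hs : MeasurableSet s) {W F : Eu d → ℝ} (hW : ∀ x ∈ s, 0 ≤ W x)
    (hγ : 0 < ∫ x in s, W x) (hWi : IntegrableOn W s) (hFi : IntegrableOn (fun x => W x * F x) s)
    (hF2 : IntegrableOn (fun x => W x * F x ^ 2) s) :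
    (∫ x in s, W x * F x) ^ 2 ≤ (∫ x in s, W x) * ∫ x in s, W x * F x ^ 2 := by
  set γ := ∫ x in s, W x with hγd
  set L := ∫ x in s, W x * F x with hLd
  set Λ := ∫ x in s, W x * F x ^ 2 with hΛd
  have h0 : 0 ≤ ∫ x in s, W x * (F x - L / γ) ^ 2 :=
    setIntegral_nonneg hs (fun x hx => mul_nonneg (hW x hx) (sq_nonneg _))
  have e : ∫ x in s, W x * (F x - L / γ) ^ 2 = Λ - 2 * (L / γ) * L + (L / γ) ^ 2 * γ := by
    have e1 : ∀ x, W x * (F x - L / γ) ^ 2
        = W x * F x ^ 2 - 2 * (L / γ) * (W x * F x) + (L / γ) ^ 2 * W x := by intro x; ring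
    simp only [e1]
    have i1 : IntegrableOn (fun x => W x * F x ^ 2 - 2 * (L / γ) * (W x * F x)) s :=
      hF2.sub (hFi.const_mul _)
    rw [integral_add i1 (hWi.const_mul _),
      integral_sub hF2 (hFi.const_mul _), integral_const_mul, integral_const_mul]
  rw [e] at h0
  have e2 : Λ - 2 * (L / γ) * L + (L / γ) ^ 2 * γ = Λ - L ^ 2 / γ := by
    field_simp
    ring
  rw [e2] at h0
  have h1 : L ^ 2 / γ ≤ Λ := by linarith
  rw [div_le_iff₀ hγ] at h1
  linarith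

/-- The integral of an affine function against a bounded weight. -/
lemma int_affine {K s : Set (Eu d)} {R : ℝ} (hKR : ∀ x ∈ K, ‖x‖ ≤ R) (hKtop : volume K ≠ ⊤)
    (hs : s ⊆ K) (hsm : MeasurableSet s) {W : Eu d → ℝ} (hWm : Measurable W) {BW : ℝ}
    (hWb : ∀ x ∈ K, |W x| ≤ BW) (v b' : Eu d) (t : ℝ) :
    ∫ x in s, (inner ℝ v (x - b') + t) * W x
      = inner ℝ v ((∫ x in s, W x • x) - (∫ x in s, W x) • b') + t * ∫ x in s, W x := by
  have iW : IntegrableOn W s := intOn_real hKtop hs hsm hWm hWb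
  have iWx : IntegrableOn (fun x => W x • x) s :=
    intOn_vec hKtop hs hsm (hWm.smul measurable_id) (B := BW * R) (fun x hx => by
      rw [norm_smul, Real.norm_eq_abs]
      exact mul_le_mul (hWb x hx) (hKR x hx) (norm_nonneg _) ((abs_nonneg _).trans (hWb x hx)))
  have e : ∀ x, (inner ℝ v (x - b') + t) * W x
      = inner ℝ v (W x • x) + (t - inner ℝ v b') * W x := by
    intro x
    rw [inner_sub_right, real_inner_smul_right]
    ring
  simp only [e]
  rw [integral_add ?_ (iW.const_mul _), integral_const_mul, integral_inner iWx,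
    inner_sub_right, real_inner_smul_right]
  · ring
  · exact iWx.const_inner v

/-- The combination of the Prékopa–Leindler and Jensen steps. -/
lemma cell_core {K C C' D : Set (Eu d)} {R : ℝ} (hR : 0 < R) (hKR : ∀ x ∈ K, ‖x‖ ≤ R)
    (hKtop : volume K ≠ ⊤) (hCK : C ⊆ K) (hC'K : C' ⊆ K) (hDK : D ⊆ K)
    (hCm : MeasurableSet C) (hC'm : MeasurableSet C') (hDm : MeasurableSet D)
    (hmid : ∀ x ∈ C, ∀ y ∈ C', (1 / 2 : ℝ) • (x + y) ∈ D)
    {g : Eu d → ℝ} (hgm : Measurable g) (hg1 : ∀ x ∈ K, 1 / 2 ≤ g x) (hg2 : ∀ x ∈ K, g x ≤ 2)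
    (hlog : ∀ x ∈ K, |Real.log (g x)| ≤ 1)
    (iL : IntegrableOn (fun x => g x * wgt R x * Real.log (g x)) C')
    (hγ : 0 < ∫ x in C, wgt R x) (hγ' : 0 < ∫ x in C', g x * wgt R x)
    (v b' : Eu d) (t : ℝ) (hb' : ‖b'‖ ≤ R) {cc : ℝ}
    (hcc : cc = 8 * R ^ 2 * (Real.exp (1 / 16) * (5 / 4 * ‖v‖ + |t| / (8 * R))) ^ 2) :
    (∫ x in C, wgt R x) * (∫ x in C', g x * wgt R x) *
      Real.exp ((∫ x in C, inner ℝ v (x - b') + t) / (∫ x in C, wgt R x)
        + (-(∫ x in C', (inner ℝ v (x - b') + t) * g x)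
            - cc * (∫ x in C', g x * wgt R x)
            - ∫ x in C', g x * wgt R x * Real.log (g x)) / ∫ x in C', g x * wgt R x)
      ≤ (∫ x in D, wgt R x) ^ 2 := by
  have hℓ : Continuous fun x : Eu d => inner ℝ v (x - b') + t := by fun_prop
  set ℓ : Eu d → ℝ := fun x => inner ℝ v (x - b') + t with hℓd
  have hfc : Continuous fun x => ℓ x * wgti R x := hℓ.mul (continuous_wgti R)
  have hfb : ∀ x ∈ K, |ℓ x * wgti R x| ≤ (2 * R * ‖v‖ + |t|) * Real.exp (1 / 16) :=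
    fun x hx => test_bound hR hKR hb' hx
  have hlip : ∀ x ∈ K, ∀ y ∈ K, ℓ x * wgti R x - ℓ y * wgti R y
      ≤ (Real.exp (1 / 16) * (5 / 4 * ‖v‖ + |t| / (8 * R))) * ‖x - y‖ :=
    fun x hx y hy => test_lip hR hKR hb' hx hy
  have hpl := cell_pl hR hKtop hCK hC'K hDK hCm hC'm hDm hmid hfc hfb hlip hcc
  have hcc0 : 0 ≤ cc := by rw [hcc]; positivity
  have hj1 := jensen_one hKtop hCK hCm hγ hℓ hfb
  have hj2 := jensen_two hKtop hC'K hC'm hgm hg1 hg2 hγ' hℓ hfb hcc0 hlog iL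
  rw [Real.exp_add]
  have e : ∀ a b c d : ℝ, a * b * (c * d) = (a * c) * (b * d) := fun a b c d => by ring
  rw [e]
  refine le_trans (mul_le_mul hj1 hj2 ?_ ?_) hpl
  · exact mul_nonneg hγ'.le (Real.exp_pos _).le
  · exact setIntegral_nonneg hCm (fun x _ => mul_nonneg (Real.exp_pos _).le (wgt_pos R x).le)

/-- The algebra of the one-cell inequality. -/
lemma cell_final_alg {m γ γ' dd L Λ D2 R cc X : ℝ} (hm : 0 < m) (hγ : 0 < γ) (hγ' : 0 < γ')
    (hγm : γ ≤ m) (hγ'm : γ' ≤ m) (hγ'l : 15 / 16 * m ≤ γ') (hL : L ^ 2 ≤ γ' * Λ) (hD2 : 0 ≤ D2)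
    (hR : 0 < R) (hdd : 0 ≤ dd)
    (hcc : cc ≤ 7 / (800 * R ^ 2) * (m / γ) ^ 2 * D2 + 7 / 8 * (m / γ - m / γ') ^ 2)
    (hX : X = 7 / (400 * R ^ 2) * (m / γ) ^ 2 * D2 + 7 / 4 * (m / γ - m / γ') ^ 2 - cc - L / γ')
    (hmain : γ * γ' * Real.exp X ≤ dd ^ 2) :
    63 / (8000 * R ^ 2) * m * D2 ≤ 2 * dd - γ - γ' + L + Λ / 10 := by
  set p := Real.sqrt γ with hp
  set q := Real.sqrt γ' with hq
  have hp0 : 0 < p := Real.sqrt_pos.2 hγ
  have hq0 : 0 < q := Real.sqrt_pos.2 hγ'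
  have hp2 : p ^ 2 = γ := Real.sq_sqrt hγ.le
  have hq2 : q ^ 2 = γ' := Real.sq_sqrt hγ'.le
  have key := cell_alg (m := m) (p := p) (q := q) (e := dd) (L := L) (Λ := Λ) (D2 := D2) (R := R)
    hm hp0 hq0 (by rwa [hp2]) (by rwa [hq2]) (by rwa [hq2]) (by rwa [hq2]) hD2 hR (by
      rw [hp2, hq2]
      set Y := (7 / (800 * R ^ 2) * (m / γ) ^ 2 * D2 + 7 / 8 * (m / γ - m / γ') ^ 2 - L / γ') / 2
        with hY
      have hXY : 2 * Y ≤ X := by
        have e0 : 7 / (400 * R ^ 2) = 2 * (7 / (800 * R ^ 2)) := by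
          field_simp
          norm_num
        rw [hX, hY, e0]
        linarith
      have h1 : (p * q * Real.exp Y) ^ 2 ≤ dd ^ 2 := by
        have e1 : (p * q * Real.exp Y) ^ 2 = γ * γ' * Real.exp (2 * Y) := by
          rw [mul_pow, mul_pow, hp2, hq2, ← Real.exp_nat_mul]
          norm_num
        rw [e1]
        refine le_trans ?_ hmain
        have := Real.exp_le_exp.2 hXY
        gcongr
      have h2 : p * q * Real.exp Y ≤ dd :=
        (pow_le_pow_iff_left₀ (by positivity) hdd (by norm_num)).1 h1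
      have h3 := Real.add_one_le_exp Y
      have h4 : p * q * (Y + 1) ≤ p * q * Real.exp Y := by gcongr
      linarith)
  rwa [hp2, hq2] at key

/-- Bounds on the weight integrals. -/
lemma wgt_int_bounds {K s : Set (Eu d)} {R : ℝ} (hR : 0 < R) (hKR : ∀ x ∈ K, ‖x‖ ≤ R)
    (hKtop : volume K ≠ ⊤) (hs : s ⊆ K) (hsm : MeasurableSet s) {W : Eu d → ℝ} (hWm : Measurable W)
    (hW0 : ∀ x ∈ K, 0 ≤ W x) {BW : ℝ} (hWb : ∀ x ∈ K, W x ≤ BW) :
    15 / 16 * (∫ x in s, W x) ≤ ∫ x in s, W x * wgt R x ∧ ∫ x in s, W x * wgt R x ≤ ∫ x in s, W x := by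
  have hWb' : ∀ x ∈ K, |W x| ≤ BW := fun x hx => by
    rw [abs_of_nonneg (hW0 x hx)]; exact hWb x hx
  have iW : IntegrableOn W s := intOn_real hKtop hs hsm hWm hWb'
  have iWω : IntegrableOn (fun x => W x * wgt R x) s :=
    intOn_real hKtop hs hsm (hWm.mul (continuous_wgt R).measurable) (B := BW * 1) (fun x hx => by
      rw [abs_mul]
      exact mul_le_mul (hWb' x hx) (abs_wgt_le R x) (abs_nonneg _) ((abs_nonneg _).trans (hWb' x hx)))
  constructor
  · rw [← integral_const_mul]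
    apply setIntegral_mono_on (iW.const_mul _) iWω hsm
    intro x hx
    have h1 := wgt_ge hR (hKR x (hs hx))
    have h2 := hW0 x (hs hx)
    nlinarith
  · apply setIntegral_mono_on iWω iW hsm
    intro x hx
    have h1 := wgt_le_one (R := R) x
    have h2 := hW0 x (hs hx)
    nlinarith

lemma abs_log_le_one {g : ℝ} (h1 : 1 / 2 ≤ g) (h2 : g ≤ 2) : |Real.log g| ≤ 1 := by
  have h0 : 0 < g := by linarith
  rw [abs_le]
  constructor
  · have h3 := Real.one_sub_inv_le_log_of_pos h0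
    have h4 : g⁻¹ ≤ 2 := by
      rw [inv_le_comm₀ h0 (by norm_num)]
      linarith
    linarith
  · have h3 := Real.log_le_sub_one_of_pos h0
    linarith

/-- Bound on the barycenter. -/
lemma bary_bound {K s : Set (Eu d)} {R m : ℝ} (hKR : ∀ x ∈ K, ‖x‖ ≤ R)
    (hKtop : volume K ≠ ⊤) (hs : s ⊆ K) (hsm : MeasurableSet s) {W : Eu d → ℝ} (hWm : Measurable W)
    (hW0 : ∀ x ∈ K, 0 ≤ W x) {BW : ℝ} (hWb : ∀ x ∈ K, W x ≤ BW) (hm : 0 < m)
    (hWm' : ∫ x in s, W x = m) : ‖m⁻¹ • ∫ x in s, W x • x‖ ≤ R := by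
  have hWb' : ∀ x ∈ K, |W x| ≤ BW := fun x hx => by
    rw [abs_of_nonneg (hW0 x hx)]; exact hWb x hx
  have iW : IntegrableOn W s := intOn_real hKtop hs hsm hWm hWb'
  have h1 : ‖∫ x in s, W x • x‖ ≤ ∫ x in s, W x * R := by
    apply norm_integral_le_of_norm_le (iW.mul_const R)
    filter_upwards [ae_restrict_mem hsm] with x hx
    rw [norm_smul, Real.norm_eq_abs, abs_of_nonneg (hW0 x (hs hx))]
    exact mul_le_mul_of_nonneg_left (hKR x (hs hx)) (hW0 x (hs hx))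
  rw [integral_mul_const, hWm'] at h1
  rw [norm_smul, norm_inv, Real.norm_eq_abs, abs_of_pos hm, inv_mul_le_iff₀ hm]
  exact h1

/-- The one-cell inequality. -/
theorem cell_ineq {K C C' D : Set (Eu d)} {R m : ℝ} (hR : 0 < R) (hKR : ∀ x ∈ K, ‖x‖ ≤ R)
    (hKtop : volume K ≠ ⊤) (hCK : C ⊆ K) (hC'K : C' ⊆ K) (hDK : D ⊆ K)
    (hCm : MeasurableSet C) (hC'm : MeasurableSet C') (hDm : MeasurableSet D)
    (hmid : ∀ x ∈ C, ∀ y ∈ C', (1 / 2 : ℝ) • (x + y) ∈ D)
    {g : Eu d → ℝ} (hgm : Measurable g) (hg1 : ∀ x ∈ K, 1 / 2 ≤ g x) (hg2 : ∀ x ∈ K, g x ≤ 2)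
    (hm : 0 < m) (hCv : (volume C).toReal = m) (hC'v : ∫ x in C', g x = m) :
    63 / (8000 * R ^ 2) * m * ‖m⁻¹ • (∫ x in C, x) - m⁻¹ • ∫ x in C', g x • x‖ ^ 2
      ≤ 2 * (∫ x in D, wgt R x) - (∫ x in C, wgt R x) - (∫ x in C', g x * wgt R x)
        + (∫ x in C', g x * wgt R x * Real.log (g x))
        + (∫ x in C', g x * wgt R x * Real.log (g x) ^ 2) / 10 := by
  have hlog : ∀ x ∈ K, |Real.log (g x)| ≤ 1 := fun x hx => abs_log_le_one (hg1 x hx) (hg2 x hx)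
  have hg0 : ∀ x ∈ K, 0 ≤ g x := fun x hx => by linarith [hg1 x hx]
  have hlm : Measurable fun x => Real.log (g x) := Real.measurable_log.comp hgm
  have hωm : Measurable (wgt R : Eu d → ℝ) := (continuous_wgt R).measurable
  have hgωb : ∀ x ∈ K, |g x * wgt R x| ≤ 2 * 1 := fun x hx => by
    rw [abs_mul, abs_of_nonneg (hg0 x hx)]
    exact mul_le_mul (hg2 x hx) (abs_wgt_le R x) (abs_nonneg _) (by norm_num)
  have iW : IntegrableOn (fun x => g x * wgt R x) C' :=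
    intOn_real hKtop hC'K hC'm (hgm.mul hωm) hgωb
  have iL : IntegrableOn (fun x => g x * wgt R x * Real.log (g x)) C' :=
    intOn_real hKtop hC'K hC'm ((hgm.mul hωm).mul hlm) (B := 2 * 1 * 1) (fun x hx => by
      rw [abs_mul]
      exact mul_le_mul (hgωb x hx) (hlog x hx) (abs_nonneg _) (by norm_num))
  have iΛ : IntegrableOn (fun x => g x * wgt R x * Real.log (g x) ^ 2) C' :=
    intOn_real hKtop hC'K hC'm ((hgm.mul hωm).mul (hlm.pow_const 2)) (B := 2 * 1 * 1) (fun x hx => by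
      rw [abs_mul, abs_pow]
      refine mul_le_mul (hgωb x hx) ?_ (by positivity) (by norm_num)
      have := hlog x hx
      have h0 := abs_nonneg (Real.log (g x))
      nlinarith)
  have hCone : ∫ x in C, (1 : ℝ) = m := by
    simpa [Measure.real] using hCv
  obtain ⟨hγl, hγu⟩ := wgt_int_bounds (W := fun _ => (1 : ℝ)) hR hKR hKtop hCK hCm measurable_const
    (fun _ _ => zero_le_one) (fun _ _ => le_rfl)
  obtain ⟨hγ'l, hγ'u⟩ := wgt_int_bounds hR hKR hKtop hC'K hC'm hgm hg0 hg2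
  simp only [one_mul] at hγl hγu
  rw [hCone] at hγl hγu
  rw [hC'v] at hγ'l hγ'u
  have hγ : 0 < ∫ x in C, wgt R x := by
    have : 0 < 15 / 16 * m := by positivity
    linarith
  have hγ' : 0 < ∫ x in C', g x * wgt R x := by
    have : 0 < 15 / 16 * m := by positivity
    linarith
  have hbC : ∫ x in C, x = ∫ x in C, (1 : ℝ) • x := by simp
  have hb' : ‖m⁻¹ • ∫ x in C', g x • x‖ ≤ R :=
    bary_bound hKR hKtop hC'K hC'm hgm hg0 hg2 hm hC'v
  set γ := ∫ x in C, wgt R x with hγd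
  set γ' := ∫ x in C', g x * wgt R x with hγ'd
  set L := ∫ x in C', g x * wgt R x * Real.log (g x) with hLd
  set Λ := ∫ x in C', g x * wgt R x * Real.log (g x) ^ 2 with hΛd
  have hL : L ^ 2 ≤ γ' * Λ := by
    refine weighted_cs hC'm (W := fun x => g x * wgt R x) (F := fun x => Real.log (g x))
      (fun x hx => mul_nonneg (hg0 x (hC'K hx)) (wgt_pos R x).le) hγ' iW iL iΛ
  set b := m⁻¹ • ∫ x in C, x with hbd
  set b' := m⁻¹ • ∫ x in C', g x • x with hb'd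
  have hmb : ∫ x in C, x = m • b := by
    rw [hbd, smul_smul, mul_inv_cancel₀ hm.ne', one_smul]
  have hmb' : ∫ x in C', g x • x = m • b' := by
    rw [hb'd, smul_smul, mul_inv_cancel₀ hm.ne', one_smul]
  set Δ := b - b' with hΔ
  set v : Eu d := (7 / (400 * R ^ 2) * (m / γ)) • Δ with hv
  set t : ℝ := 7 / 4 * (m / γ - m / γ') with ht
  set cc : ℝ := 8 * R ^ 2 * (Real.exp (1 / 16) * (5 / 4 * ‖v‖ + |t| / (8 * R))) ^ 2 with hcc
  have hcore := cell_core hR hKR hKtop hCK hC'K hDK hCm hC'm hDm hmid hgm hg1 hg2 hlog iL hγ hγ'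
    v b' t hb' hcc
  have hi1 : ∫ x in C, inner ℝ v (x - b') + t = m * inner ℝ v Δ + t * m := by
    have := int_affine hKR hKtop hCK hCm (W := fun _ => (1 : ℝ)) measurable_const (BW := 1)
      (fun _ _ => by simp) v b' t
    simp only [mul_one, one_smul] at this
    rw [this, hCone, hmb, hΔ, ← smul_sub, real_inner_smul_right]
  have hi2 : ∫ x in C', (inner ℝ v (x - b') + t) * g x = t * m := by
    have := int_affine hKR hKtop hC'K hC'm hgm (BW := 2)
      (fun x hx => by rw [abs_of_nonneg (hg0 x hx)]; exact hg2 x hx) v b' t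
    rw [this, hC'v, hmb', sub_self, inner_zero_right, zero_add]
  rw [hi1, hi2] at hcore
  have hinner : inner ℝ v Δ = 7 / (400 * R ^ 2) * (m / γ) * ‖Δ‖ ^ 2 := by
    rw [hv, real_inner_smul_left, real_inner_self_eq_norm_sq]
  have hnv : ‖v‖ ^ 2 = (7 / (400 * R ^ 2) * (m / γ)) ^ 2 * ‖Δ‖ ^ 2 := by
    rw [hv, norm_smul, mul_pow, Real.norm_eq_abs, sq_abs]
  have hccle := cc_bound (hE := Real.exp (1 / 16)) (nv := ‖v‖) (t := t) (A := m / γ)
    (D2 := ‖Δ‖ ^ 2) (a := m / γ - m / γ') hR exp_one_sixteenth_sq hnv ht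
  have hX : (m * inner ℝ v Δ + t * m) / γ + (-(t * m) - cc * γ' - L) / γ'
      = 7 / (400 * R ^ 2) * (m / γ) ^ 2 * ‖Δ‖ ^ 2 + 7 / 4 * (m / γ - m / γ') ^ 2 - cc - L / γ' := by
    rw [hinner, ht]
    field_simp
    ring
  rw [hX] at hcore
  exact cell_final_alg hm hγ hγ' hγu hγ'u hγ'l hL (by positivity) hR
    (setIntegral_nonneg hDm (fun x _ => (wgt_pos R x).le)) hccle rfl hcore

end Vale.Agent.Lib.P074
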