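import Vale.Agent.Lib.P074.Defs

/-!
Conjugate functions on a compact set, the Bregman-type gap, and the basic pointwise inequalities.
-/

open MeasureTheory ENNReal NNReal Set Metric Filter Topology

namespace Vale.Agent.Lib.P074

variable {d : ℕ}

/-- The conjugate of `f` relative to `K`. -/
noncomputable def conj (K : Set (Eu d)) (f : Eu d → ℝ) (y : Eu d) : ℝ :=
  ⨆ x : K, inner ℝ (x : Eu d) y - f x

section

variable {K : Set (Eu d)} {f : Eu d → ℝ}

lemma conj_bdd (hKc : IsCompact K) (hf : Continuous f) (y : Eu d) :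
    BddAbove (range fun x : K => inner ℝ (x : Eu d) y - f x) := by
  have hc : ContinuousOn (fun x : Eu d => inner ℝ x y - f x) K :=
    (Continuous.sub (continuous_id.inner continuous_const) hf).continuousOn
  have := hKc.bddAbove_image hc
  refine this.mono ?_
  rintro _ ⟨x, rfl⟩
  exact ⟨x, x.2, rfl⟩

lemma le_conj (hKc : IsCompact K) (hf : Continuous f) {x : Eu d} (hx : x ∈ K) (y : Eu d) :
    inner ℝ x y - f x ≤ conj K f y :=
  le_ciSup (f := fun x : K => inner ℝ (x : Eu d) y - f x) (conj_bdd hKc hf y) ⟨x, hx⟩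

lemma conj_le_add {R : ℝ} (hKne : K.Nonempty) (hKc : IsCompact K) (hf : Continuous f)
    (hR : ∀ x ∈ K, ‖x‖ ≤ R) (y y' : Eu d) :
    conj K f y ≤ conj K f y' + R * ‖y - y'‖ := by
  have : Nonempty K := hKne.to_subtype
  apply ciSup_le
  rintro ⟨x, hx⟩
  have h1 := le_conj hKc hf hx y'
  have h2 : inner ℝ x y = inner ℝ x y' + inner ℝ x (y - y') := by
    rw [← inner_add_right]; congr 1; abel
  have h3 : inner ℝ x (y - y') ≤ R * ‖y - y'‖ := by
    calc _ ≤ ‖x‖ * ‖y - y'‖ := real_inner_le_norm _ _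
      _ ≤ _ := by gcongr; exact hR x hx
  simp only
  linarith

lemma conj_abs_sub_le {R : ℝ} (hKne : K.Nonempty) (hKc : IsCompact K) (hf : Continuous f)
    (hR : ∀ x ∈ K, ‖x‖ ≤ R) (y y' : Eu d) :
    |conj K f y - conj K f y'| ≤ R * ‖y - y'‖ := by
  rw [abs_le]
  have h1 := conj_le_add hKne hKc hf hR y y'
  have h2 := conj_le_add hKne hKc hf hR y' y
  rw [norm_sub_rev] at h2
  constructor <;> linarith

lemma continuous_conj {R : ℝ} (hKne : K.Nonempty) (hKc : IsCompact K) (hf : Continuous f)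
    (hR : ∀ x ∈ K, ‖x‖ ≤ R) : Continuous (conj K f) := by
  have hR0 : 0 ≤ R := by
    obtain ⟨x, hx⟩ := hKne
    exact (norm_nonneg x).trans (hR x hx)
  have : LipschitzWith R.toNNReal (conj K f) := by
    apply LipschitzWith.of_le_add_mul
    intro y y'
    have := conj_le_add hKne hKc hf hR y y'
    rwa [Real.coe_toNNReal _ hR0, dist_eq_norm]
  exact this.continuous

lemma conj_eq {x y : Eu d} (hx : x ∈ K) (hKc : IsCompact K) (hf : Continuous f)
    (hsub : ∀ z, f x + inner ℝ y (z - x) ≤ f z) :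
    conj K f y = inner ℝ x y - f x := by
  apply le_antisymm
  · have : Nonempty K := ⟨⟨x, hx⟩⟩
    apply ciSup_le
    rintro ⟨z, -⟩
    have h1 := hsub z
    have h2 : inner ℝ y (z - x) = inner ℝ z y - inner ℝ x y := by
      rw [inner_sub_right, real_inner_comm, real_inner_comm x y]
    simp only
    linarith
  · exact le_conj hKc hf hx y

end

/-- The pointwise Bregman-type gap. -/
noncomputable def gapB (K : Set (Eu d)) (ψ : Eu d → ℝ) (T : Eu d → Eu d) (x : Eu d) : ℝ :=
  ψ x + conj K ψ (T x) - inner ℝ x (T x)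

lemma gapB_nonneg {K : Set (Eu d)} {ψ : Eu d → ℝ} (hKc : IsCompact K) (hψ : Continuous ψ)
    (T : Eu d → Eu d) {x : Eu d} (hx : x ∈ K) : 0 ≤ gapB K ψ T x := by
  have := le_conj hKc hψ hx (T x)
  unfold gapB
  linarith

/-- The key pointwise lower bound of the gap. -/
lemma gapB_ge {K : Set (Eu d)} {ψ : Eu d → ℝ} (hKc : IsCompact K) (hψ : Continuous ψ)
    (T : Eu d → Eu d) {x z y : Eu d} (hz : z ∈ K)
    (hsub : ∀ w, ψ z + inner ℝ y (w - z) ≤ ψ w) :
    inner ℝ (y - T x) (x - z) ≤ gapB K ψ T x := by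
  have h1 := le_conj hKc hψ hz (T x)
  have h2 := hsub x
  unfold gapB
  rw [inner_sub_left]
  have h3 : inner ℝ (T x) (x - z) = inner ℝ x (T x) - inner ℝ z (T x) := by
    rw [inner_sub_right, real_inner_comm, real_inner_comm z (T x)]
  linarith

/-- Sum of the two gaps. -/
lemma gapB_add {K : Set (Eu d)} {φ ψ : Eu d → ℝ} (hKc : IsCompact K) (hφ : Continuous φ)
    (hψ : Continuous ψ) {T S : Eu d → Eu d} {x : Eu d} (hx : x ∈ K)
    (hT : ∀ z, φ x + inner ℝ (T x) (z - x) ≤ φ z)
    (hS : ∀ z, ψ x + inner ℝ (S x) (z - x) ≤ ψ z) :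
    gapB K ψ T x + gapB K φ S x
      = (conj K ψ (T x) - conj K φ (T x)) - (conj K ψ (S x) - conj K φ (S x)) := by
  have h1 := conj_eq hx hKc hφ hT
  have h2 := conj_eq hx hKc hψ hS
  unfold gapB
  rw [h1, h2]
  ring

/-- The monotonicity of subgradients. -/
lemma subgrad_mono {ψ : Eu d → ℝ} {x z y y' : Eu d}
    (h : ∀ w, ψ x + inner ℝ y (w - x) ≤ ψ w) (h' : ∀ w, ψ z + inner ℝ y' (w - z) ≤ ψ w) :
    0 ≤ inner ℝ (y - y') (x - z) := by
  have h1 := h z
  have h2 := h' x
  rw [inner_sub_left]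
  have h3 : inner ℝ y (z - x) = - inner ℝ y (x - z) := by
    rw [← inner_neg_right, neg_sub]
  linarith

/-- Coordinates of the inner product with a multiple of a basis vector. -/
lemma inner_smul_single (v : Eu d) (i : Fin d) (τ : ℝ) :
    inner ℝ v (τ • EuclideanSpace.single i (1 : ℝ)) = τ * v i := by
  rw [inner_smul_right, EuclideanSpace.inner_single_right]
  simp

/-- The pointwise comparison along a coordinate direction. -/
lemma pointwise_coord {K : Set (Eu d)} {ψ : Eu d → ℝ} (hKc : IsCompact K) (hψ : Continuous ψ)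
    {T S : Eu d → Eu d} (i : Fin d) {τ : ℝ} (hτ : 0 < τ) {x : Eu d}
    (hplus : x + τ • EuclideanSpace.single i (1 : ℝ) ∈ K)
    (hminus : x - τ • EuclideanSpace.single i (1 : ℝ) ∈ K)
    (hS0 : ∀ w, ψ x + inner ℝ (S x) (w - x) ≤ ψ w)
    (hSp : ∀ w, ψ (x + τ • EuclideanSpace.single i (1 : ℝ))
      + inner ℝ (S (x + τ • EuclideanSpace.single i (1 : ℝ)))
        (w - (x + τ • EuclideanSpace.single i (1 : ℝ))) ≤ ψ w)
    (hSm : ∀ w, ψ (x - τ • EuclideanSpace.single i (1 : ℝ))
      + inner ℝ (S (x - τ • EuclideanSpace.single i (1 : ℝ)))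
        (w - (x - τ • EuclideanSpace.single i (1 : ℝ))) ≤ ψ w) :
    |T x i - S x i| ≤ (S (x + τ • EuclideanSpace.single i (1 : ℝ)) i
        - S (x - τ • EuclideanSpace.single i (1 : ℝ)) i) + gapB K ψ T x / τ := by
  set e : Eu d := τ • EuclideanSpace.single i (1 : ℝ) with he
  have hp := gapB_ge (x := x) hKc hψ T hplus hSp
  have hm := gapB_ge (x := x) hKc hψ T hminus hSm
  have e1 : x - (x + e) = -e := by abel
  have e2 : x - (x - e) = e := by abel
  rw [e1, inner_neg_right, he, inner_smul_single] at hp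
  rw [e2, he, inner_smul_single] at hm
  have hmono1 := subgrad_mono hSp hS0
  have hmono2 := subgrad_mono hS0 hSm
  have e3 : (x + e) - x = e := by abel
  rw [e3, he, inner_smul_single] at hmono1
  rw [e2, he, inner_smul_single] at hmono2
  have hB1 : (T x i - S (x + e) i) ≤ gapB K ψ T x / τ := by
    rw [le_div_iff₀ hτ]
    have : (S (x + e) - T x) i = S (x + e) i - T x i := rfl
    rw [← he] at hp
    rw [this] at hp
    nlinarith
  have hB2 : (S (x - e) i - T x i) ≤ gapB K ψ T x / τ := by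
    rw [le_div_iff₀ hτ]
    have : (S (x - e) - T x) i = S (x - e) i - T x i := rfl
    rw [← he] at hm
    rw [this] at hm
    nlinarith
  have hm1 : S x i ≤ S (x + e) i := by
    have : (S (x + e) - S x) i = S (x + e) i - S x i := rfl
    rw [this] at hmono1
    have := (mul_nonneg_iff_of_pos_left hτ).1 hmono1
    linarith
  have hm2 : S (x - e) i ≤ S x i := by
    have : (S x - S (x - e)) i = S x i - S (x - e) i := rfl
    rw [this] at hmono2
    have := (mul_nonneg_iff_of_pos_left hτ).1 hmono2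
    linarith
  rw [abs_le]
  constructor <;> linarith

end Vale.Agent.Lib.P074
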