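import Vale.Agent.Lib.P074.Defs

open MeasureTheory ENNReal NNReal Set

namespace Vale.Agent.Lib.P074

/-- The uniform measure on the centred unit interval. -/
noncomputable def U : Measure ℝ := volume.restrict (Icc (-1/2) (1/2))

instance : IsProbabilityMeasure U := by
  constructor
  simp [U]
  norm_num

/-- The unit cube. -/
def cube (d : ℕ) : Set (Eu d) := {x | ∀ i, x i ∈ Icc (-1/2 : ℝ) (1/2)}

lemma cube_eq (d : ℕ) : cube d = (fun x : Eu d => x.ofLp) ⁻¹' (pi univ fun _ => Icc (-1/2 : ℝ) (1/2)) := by
  ext x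
  simp only [cube, Set.mem_preimage, Set.mem_univ_pi]
  rfl

lemma measurableSet_cube (d : ℕ) : MeasurableSet (cube d) := by
  rw [cube_eq]
  exact (PiLp.volume_preserving_ofLp (Fin d)).measurable (MeasurableSet.univ_pi fun _ => measurableSet_Icc)

lemma isCompact_cube (d : ℕ) : IsCompact (cube d) := by
  have h : IsCompact (pi univ fun _ : Fin d => Icc (-1/2 : ℝ) (1/2)) :=
    isCompact_univ_pi fun _ => isCompact_Icc
  rw [cube_eq]
  exact (PiLp.homeomorph 2 (fun _ : Fin d => ℝ)).isCompact_preimage.2 h

lemma convex_cube (d : ℕ) : Convex ℝ (cube d) := by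
  intro x hx y hy a b ha hb hab i
  exact (convex_Icc (-1/2 : ℝ) (1/2)) (hx i) (hy i) ha hb hab

lemma interior_cube_nonempty (d : ℕ) : (interior (cube d)).Nonempty := by
  refine ⟨0, mem_interior.2 ⟨Metric.ball 0 (1/2), ?_, Metric.isOpen_ball, by simp⟩⟩
  intro x hx i
  have h1 : ‖x‖ < 1/2 := by simpa using hx
  have h2 : ‖x i‖ ≤ ‖x‖ := PiLp.norm_apply_le x i
  have h3 : |x i| < 1/2 := by
    have := h2.trans_lt h1
    simpa [Real.norm_eq_abs] using this
  have := abs_lt.1 h3
  constructor <;> linarith

lemma volume_cube (d : ℕ) : volume (cube d) = 1 := by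
  rw [cube_eq]
  have := (PiLp.volume_preserving_ofLp (Fin d)).measure_preimage
    (s := pi univ fun _ : Fin d => Icc (-1/2 : ℝ) (1/2))
    (MeasurableSet.univ_pi fun _ => measurableSet_Icc).nullMeasurableSet
  rw [show (fun x : Eu d => x.ofLp) ⁻¹' _ = _ from rfl, this]
  rw [volume_pi_pi]
  simp
  norm_num

lemma unif_cube (d : ℕ) : unif (cube d) = volume.restrict (cube d) := by
  simp [unif, volume_cube]

instance (d : ℕ) : IsProbabilityMeasure (unif (cube d)) := by
  rw [unif_cube]
  constructor
  simp [volume_cube]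

/-- The image of the uniform measure on the cube under the map to coordinates. -/
lemma map_ofLp_unif (d : ℕ) :
    (unif (cube d)).map (fun x : Eu d => x.ofLp) = Measure.pi (fun _ : Fin d => U) := by
  rw [unif_cube, cube_eq]
  have h := (PiLp.volume_preserving_ofLp (Fin d))
  have hm : MeasurableSet (pi univ fun _ : Fin d => Icc (-1/2 : ℝ) (1/2)) :=
    MeasurableSet.univ_pi fun _ => measurableSet_Icc
  rw [← Measure.restrict_map h.measurable hm]
  change (Measure.map (@WithLp.ofLp 2 (Fin d → ℝ)) volume).restrict _ = _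
  rw [h.map_eq, volume_pi, Measure.restrict_pi_pi]
  rfl

/-- The two-dimensional marginal of the uniform measure on the cube. -/
lemma map_two_coords (d : ℕ) {i j : Fin d} (hij : i ≠ j) :
    (unif (cube d)).map (fun x : Eu d => (x i, x j)) = U.prod U := by
  have h1 : Measurable (fun x : Eu d => x.ofLp) := (PiLp.volume_preserving_ofLp (Fin d)).measurable
  have h2 : Measurable (fun y : Fin d → ℝ => (y i, y j)) := by fun_prop
  have : (fun x : Eu d => (x i, x j)) = (fun y : Fin d → ℝ => (y i, y j)) ∘ (fun x : Eu d => x.ofLp) := rfl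
  rw [this, ← Measure.map_map h2 h1, map_ofLp_unif]
  have hind := ProbabilityTheory.iIndepFun_pi (μ := fun _ : Fin d => U)
    (X := fun _ => (id : ℝ → ℝ)) (fun _ => aemeasurable_id)
  have hij' := hind.indepFun hij
  have := (ProbabilityTheory.indepFun_iff_map_prod_eq_prod_map_map
    (measurable_pi_apply i).aemeasurable (measurable_pi_apply j).aemeasurable).1 hij'
  have key : (Measure.pi (fun _ : Fin d => U)).map (fun y : Fin d → ℝ => (y i, y j))
      = ((Measure.pi (fun _ : Fin d => U)).map (fun y => y i)).prod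
        ((Measure.pi (fun _ : Fin d => U)).map (fun y => y j)) := this
  rw [key]
  have he : ∀ k : Fin d, (Measure.pi (fun _ : Fin d => U)).map (fun y => y k) = U := fun k =>
    (measurePreserving_eval (fun _ : Fin d => U) k).map_eq
  rw [he i, he j]

end Vale.Agent.Lib.P074
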