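import Mathlib

/-!
Quadratic optimal transport maps from a uniform source, and admissible stability exponents.
-/

open MeasureTheory ENNReal NNReal

namespace Vale.Agent.Lib.P074

/-- Euclidean `d`-space. -/
abbrev Eu (d : ℕ) := EuclideanSpace ℝ (Fin d)

/-- The uniform probability measure on `K`: Lebesgue measure on `K` divided by `|K|`. -/
noncomputable def unif {d : ℕ} (K : Set (Eu d)) : Measure (Eu d) :=
  (volume K)⁻¹ • volume.restrict K

/-- `T` is a quadratic optimal transport map from `ρ` to `μ`: it is Borel, pushes `ρ` to `μ`,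
and minimizes the quadratic cost among all Borel maps pushing `ρ` to `μ`. -/
def IsOTMap {d : ℕ} (ρ μ : Measure (Eu d)) (T : Eu d → Eu d) : Prop :=
  Measurable T ∧ ρ.map T = μ ∧
    ∀ S : Eu d → Eu d, Measurable S → ρ.map S = μ →
      ∫⁻ x, ‖x - T x‖ₑ ^ 2 ∂ρ ≤ ∫⁻ x, ‖x - S x‖ₑ ^ 2 ∂ρ

/-- The squared `L²(ρ)` distance between two maps, with values in `[0,∞]`. -/
noncomputable def L2sq {d : ℕ} (ρ : Measure (Eu d)) (T S : Eu d → Eu d) : ℝ≥0∞ :=
  ∫⁻ x, ‖T x - S x‖ₑ ^ 2 ∂ρ

/-- `π` is a coupling of `μ` and `ν`. -/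
def IsCoupling {d : ℕ} (π : Measure (Eu d × Eu d)) (μ ν : Measure (Eu d)) : Prop :=
  π.map Prod.fst = μ ∧ π.map Prod.snd = ν

/-- The squared quadratic Wasserstein distance: the infimum over couplings of the integral
of the squared distance. -/
noncomputable def W2sq {d : ℕ} (μ ν : Measure (Eu d)) : ℝ≥0∞ :=
  ⨅ (π : Measure (Eu d × Eu d)) (_ : IsCoupling π μ ν), ∫⁻ p, ‖p.1 - p.2‖ₑ ^ 2 ∂π

/-- The exponent `α` is admissible in dimension `d`: for every compact convex `K` with nonempty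
interior and every nonempty compact `Y` there is a finite constant `C` such that for all Borel
probability measures `μ, ν` carried by `Y`, and all optimal maps `T`, `S` from the uniform
measure on `K` to `μ`, `ν`, one has `‖T - S‖_{L²} ≤ C * W₂(μ,ν)^α`. The two sides are written
with the squared quantities, `‖T - S‖_{L²} = (L2sq)^(1/2)` and `W₂^α = (W2sq)^(α/2)`. -/
def Admissible (d : ℕ) (α : ℝ) : Prop :=
  ∀ K : Set (Eu d), IsCompact K → Convex ℝ K → (interior K).Nonempty →
    ∀ Y : Set (Eu d), IsCompact Y → Y.Nonempty →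
      ∃ C : ℝ≥0, ∀ μ ν : Measure (Eu d), IsProbabilityMeasure μ → IsProbabilityMeasure ν →
        μ Yᶜ = 0 → ν Yᶜ = 0 →
        ∀ T S : Eu d → Eu d, IsOTMap (unif K) μ T → IsOTMap (unif K) ν S →
          (L2sq (unif K) T S) ^ (1 / 2 : ℝ) ≤ (C : ℝ≥0∞) * (W2sq μ ν) ^ (α / 2)

end Vale.Agent.Lib.P074
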