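import Vale.Agent.Lib.P074.Estimate
import Vale.Agent.Lib.P074.Brenier

/-!
The stability estimate: the exponent one quarter is admissible.
-/

open MeasureTheory ENNReal NNReal Set Metric Filter Topology

namespace Vale.Agent.Lib.P074

variable {d : ℕ}

/-- The squared coordinate estimate. -/
theorem coord_sq_le (hd : 1 ≤ d) {K : Set (Eu d)} (hKc : IsCompact K) (hKconv : Convex ℝ K)
    {c : Eu d} {r : ℝ} (hr : 0 < r) (hball : closedBall c r ⊆ K) {ψ : Eu d → ℝ}
    (hψ : Continuous ψ) {T S : Eu d → Eu d} (hT : Measurable T) (hS : Measurable S) {M : ℝ}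
    (hM : 0 < M) (hMT : ∀ z, ‖T z‖ ≤ M) (hMS : ∀ z, ‖S z‖ ≤ M)
    (hsub : ∀ᵐ x ∂(volume.restrict K), ∀ w, ψ x + inner ℝ (S x) (w - x) ≤ ψ w)
    (hV : 0 < (volume K).toReal) (i : Fin d) :
    (∫ x in K, |T x i - S x i|) ^ 2
      ≤ 4 * (4 * M * d * (volume K).toReal / r) * ∫ x in K, gapB K ψ T x := by
  set V := (volume K).toReal with hVdef
  set A : ℝ := 4 * M * d * V / r with hA
  have hdpos : (0 : ℝ) < d := by exact_mod_cast hd
  have hApos : 0 < A := by rw [hA]; positivity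
  have hKm := hKc.measurableSet
  have hKtop : volume K ≠ ⊤ := hKc.measure_lt_top.ne
  set L := ∫ x in K, |T x i - S x i| with hL
  set D := ∫ x in K, gapB K ψ T x with hD
  have hD0 : 0 ≤ D := by
    apply setIntegral_nonneg hKm
    intro x hx
    exact gapB_nonneg hKc hψ T hx
  have hL0 : 0 ≤ L := integral_nonneg fun x => abs_nonneg _
  rcases hL0.eq_or_lt with hL1 | hL1
  · rw [← hL1]
    have : 0 ≤ 4 * A * D := by positivity
    simpa using this
  -- upper bound for `L`
  have hcoord : ∀ (U : Eu d → Eu d), Measurable U → Measurable fun x => U x i := by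
    intro U hU
    have h1 : Measurable fun v : Eu d => v i :=
      (measurable_pi_apply i).comp (PiLp.volume_preserving_ofLp (Fin d)).measurable
    exact h1.comp hU
  have hFC : ∀ x, |T x i - S x i| ≤ 2 * M := by
    intro x
    have h1 := abs_coord_le (T x) i
    have h2 := abs_coord_le (S x) i
    have h3 := hMT x
    have h4 := hMS x
    calc |T x i - S x i| ≤ |T x i| + |S x i| := abs_sub _ _
      _ ≤ 2 * M := by linarith
  have hLle : L ≤ 2 * M * V := by
    have h1 := norm_setIntegral_le_of_norm_le_const (μ := volume) (s := K)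
      (f := fun x => |T x i - S x i|) (C := 2 * M) hKtop.lt_top
      (fun x _ => by simpa using hFC x)
    rw [Real.norm_of_nonneg hL0] at h1
    simpa [Measure.real, hVdef] using h1
  set τ : ℝ := L / (2 * A) with hτ
  have hτ0 : 0 < τ := by rw [hτ]; positivity
  have hτr : τ < r := by
    have h1 : τ ≤ 2 * M * V / (2 * A) := by rw [hτ]; gcongr
    have h2 : 2 * M * V / (2 * A) = r / (4 * d) := by
      rw [hA]; field_simp
    have h3 : r / (4 * d) < r := by
      rw [div_lt_iff₀ (by positivity)]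
      have : (1 : ℝ) ≤ d := by exact_mod_cast hd
      nlinarith
    linarith
  have key := coord_estimate hKc hKconv hr hball hψ hT hS hMT hMS hsub i hτ0 hτr
  have e1 : 4 * M * (d * (τ / r)) * V = L / 2 := by
    rw [hτ, hA]; field_simp
  rw [e1] at key
  have e2 : D / τ = D * (2 * A) / L := by
    rw [hτ]; field_simp
  rw [e2] at key
  have h5 : L / 2 ≤ D * (2 * A) / L := by
    change L ≤ D * (2 * A) / L + L / 2 at key
    linarith
  rw [le_div_iff₀ hL1] at h5
  nlinarith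

/-- The `L²` norm is bounded by the coordinate `L¹` norms. -/
theorem normsq_integral_le {K : Set (Eu d)} (hKtop : volume K ≠ ⊤)
    {T S : Eu d → Eu d} (hT : Measurable T) (hS : Measurable S) {M : ℝ}
    (hMT : ∀ z, ‖T z‖ ≤ M) (hMS : ∀ z, ‖S z‖ ≤ M) :
    ∫ x in K, ‖T x - S x‖ ^ 2 ≤ 2 * M * ∑ i : Fin d, ∫ x in K, |T x i - S x i| := by
  have hcoord : ∀ (U : Eu d → Eu d), Measurable U → ∀ i : Fin d, Measurable fun x => U x i := by
    intro U hU i
    have h1 : Measurable fun v : Eu d => v i :=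
      (measurable_pi_apply i).comp (PiLp.volume_preserving_ofLp (Fin d)).measurable
    exact h1.comp hU
  have hFC : ∀ x (i : Fin d), |T x i - S x i| ≤ 2 * M := by
    intro x i
    have h1 := abs_coord_le (T x) i
    have h2 := abs_coord_le (S x) i
    have h3 := hMT x
    have h4 := hMS x
    calc |T x i - S x i| ≤ |T x i| + |S x i| := abs_sub _ _
      _ ≤ 2 * M := by linarith
  have hM0 : 0 ≤ M := (norm_nonneg _).trans (hMT 0)
  have hint : ∀ i : Fin d, IntegrableOn (fun x => |T x i - S x i|) K := by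
    intro i
    exact integrableOn_of_bound ((hcoord T hT i).sub (hcoord S hS i)).abs
      (C := 2 * M) (fun x => by simpa using hFC x i) hKtop
  have hint2 : IntegrableOn (fun x => ‖T x - S x‖ ^ 2) K := by
    refine integrableOn_of_bound (by fun_prop) (C := (2 * M) ^ 2) ?_ hKtop
    intro x
    rw [abs_of_nonneg (by positivity)]
    have : ‖T x - S x‖ ≤ 2 * M := (norm_sub_le _ _).trans (by linarith [hMT x, hMS x])
    gcongr
  rw [← integral_finsetSum _ (fun i _ => hint i), ← integral_const_mul]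
  apply integral_mono hint2
  · exact (integrable_finsetSum _ (fun i _ => hint i)).const_mul _
  · intro x
    simp only
    rw [EuclideanSpace.norm_sq_eq, Finset.mul_sum]
    apply Finset.sum_le_sum
    intro i _
    have : (T x - S x) i = T x i - S x i := rfl
    rw [this, Real.norm_eq_abs]
    have h := hFC x i
    have h0 := abs_nonneg (T x i - S x i)
    nlinarith

lemma isProb_unif {K : Set (Eu d)} (hK0 : volume K ≠ 0) (hKtop : volume K ≠ ⊤) :
    IsProbabilityMeasure (unif K) := by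
  constructor
  simp [unif, ENNReal.inv_mul_cancel hK0 hKtop]

/-- The gaps are controlled by the cost of a coupling. -/
theorem gap_sum_le {K : Set (Eu d)} (hKc : IsCompact K) (hK0 : volume K ≠ 0) (hKne : K.Nonempty)
    {R : ℝ} (hR : ∀ x ∈ K, ‖x‖ ≤ R) {φ ψ : Eu d → ℝ} (hφ : Continuous φ) (hψ : Continuous ψ)
    {T S : Eu d → Eu d} (hT : Measurable T) (hS : Measurable S) {M : ℝ}
    (hMT : ∀ z, ‖T z‖ ≤ M) (hMS : ∀ z, ‖S z‖ ≤ M)
    (hsT : ∀ᵐ x ∂(volume.restrict K), ∀ w, φ x + inner ℝ (T x) (w - x) ≤ φ w)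
    (hsS : ∀ᵐ x ∂(volume.restrict K), ∀ w, ψ x + inner ℝ (S x) (w - x) ≤ ψ w)
    {μ ν : Measure (Eu d)} (hTμ : (unif K).map T = μ) (hSν : (unif K).map S = ν)
    {π : Measure (Eu d × Eu d)} (hπ : IsCoupling π μ ν) :
    ∃ c : ℝ, 0 ≤ c ∧ ∫⁻ p, ‖p.1 - p.2‖ₑ ^ 2 ∂π = ENNReal.ofReal c ∧
      ((∫ x in K, gapB K ψ T x) + ∫ x in K, gapB K φ S x) ^ 2
        ≤ ((volume K).toReal * (2 * R)) ^ 2 * c := by
  have hKm := hKc.measurableSet
  have hKtop : volume K ≠ ⊤ := hKc.measure_lt_top.ne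
  have hR0 : 0 ≤ R := by
    obtain ⟨x, hx⟩ := hKne
    exact (norm_nonneg x).trans (hR x hx)
  have hM0 : 0 ≤ M := (norm_nonneg _).trans (hMT 0)
  haveI hρ : IsProbabilityMeasure (unif K) := isProb_unif hK0 hKtop
  have hV : 0 < (volume K).toReal := ENNReal.toReal_pos hK0 hKtop
  set V := (volume K).toReal with hVdef
  -- the function `h`
  set h : Eu d → ℝ := fun y => conj K ψ y - conj K φ y with hh
  have hcψ := continuous_conj hKne hKc hψ hR
  have hcφ := continuous_conj hKne hKc hφ hR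
  have hhc : Continuous h := hcψ.sub hcφ
  obtain ⟨C, hC⟩ := (isCompact_closedBall (0 : Eu d) M).exists_bound_of_continuousOn hhc.continuousOn
  have hhb : ∀ y, ‖y‖ ≤ M → |h y| ≤ C := by
    intro y hy
    have := hC y (by simpa using hy)
    simpa [Real.norm_eq_abs] using this
  have hTi : Integrable (fun x => h (T x)) (unif K) :=
    Integrable.of_bound (hhc.measurable.comp hT).aestronglyMeasurable C
      (Eventually.of_forall fun x => by simpa [Real.norm_eq_abs] using hhb _ (hMT x))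
  have hSi : Integrable (fun x => h (S x)) (unif K) :=
    Integrable.of_bound (hhc.measurable.comp hS).aestronglyMeasurable C
      (Eventually.of_forall fun x => by simpa [Real.norm_eq_abs] using hhb _ (hMS x))
  -- the gaps
  have hi1 := gapB_integrableOn hKc hKne hψ hT hMT
  have hi2 := gapB_integrableOn hKc hKne hφ hS hMS
  have hsum : (∫ x in K, gapB K ψ T x) + ∫ x in K, gapB K φ S x
      = V * ((∫ x, h (T x) ∂(unif K)) - ∫ x, h (S x) ∂(unif K)) := by
    rw [← integral_add hi1 hi2]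
    have e1 : ∫ x in K, (gapB K ψ T x + gapB K φ S x) = ∫ x in K, (h (T x) - h (S x)) := by
      apply integral_congr_ae
      filter_upwards [ae_restrict_mem hKm, hsT, hsS] with x hx h1 h2
      exact gapB_add hKc hφ hψ hx h1 h2
    rw [e1, ← integral_sub hTi hSi]
    rw [unif, integral_smul_measure, ENNReal.toReal_inv, ← hVdef, smul_eq_mul, ← mul_assoc,
      mul_inv_cancel₀ hV.ne', one_mul]
  -- the coupling
  obtain ⟨hπ1, hπ2⟩ := hπ
  have hμprob : IsProbabilityMeasure μ := by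
    rw [← hTμ]
    exact Measure.isProbabilityMeasure_map hT.aemeasurable
  have hπprob : IsProbabilityMeasure π := by
    constructor
    have := Measure.map_apply (μ := π) (f := Prod.fst) measurable_fst MeasurableSet.univ
    rw [hπ1] at this
    simpa using this.symm.trans measure_univ
  have hμball : μ (closedBall (0 : Eu d) M)ᶜ = 0 := by
    rw [← hTμ, Measure.map_apply hT measurableSet_closedBall.compl]
    have : T ⁻¹' (closedBall (0 : Eu d) M)ᶜ = ∅ := by
      ext x
      simp [hMT x]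
    rw [this, measure_empty]
  have hνball : ν (closedBall (0 : Eu d) M)ᶜ = 0 := by
    rw [← hSν, Measure.map_apply hS measurableSet_closedBall.compl]
    have : S ⁻¹' (closedBall (0 : Eu d) M)ᶜ = ∅ := by
      ext x
      simp [hMS x]
    rw [this, measure_empty]
  have hae1 : ∀ᵐ p ∂π, ‖p.1‖ ≤ M := by
    have : π (Prod.fst ⁻¹' (closedBall (0 : Eu d) M)ᶜ) = 0 := by
      rw [← Measure.map_apply measurable_fst measurableSet_closedBall.compl, hπ1, hμball]
    filter_upwards [measure_eq_zero_iff_ae_notMem.1 this] with p hp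
    simpa using hp
  have hae2 : ∀ᵐ p ∂π, ‖p.2‖ ≤ M := by
    have : π (Prod.snd ⁻¹' (closedBall (0 : Eu d) M)ᶜ) = 0 := by
      rw [← Measure.map_apply measurable_snd measurableSet_closedBall.compl, hπ2, hνball]
    filter_upwards [measure_eq_zero_iff_ae_notMem.1 this] with p hp
    simpa using hp
  have hmu : ∫ x, h (T x) ∂(unif K) = ∫ p, h p.1 ∂π := by
    have e1 : ∫ x, h (T x) ∂(unif K) = ∫ y, h y ∂μ := by
      rw [← hTμ, integral_map hT.aemeasurable hhc.aestronglyMeasurable]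
    have e2 : ∫ y, h y ∂μ = ∫ p, h p.1 ∂π := by
      rw [← hπ1, integral_map measurable_fst.aemeasurable hhc.aestronglyMeasurable]
    rw [e1, e2]
  have hnu : ∫ x, h (S x) ∂(unif K) = ∫ p, h p.2 ∂π := by
    have e1 : ∫ x, h (S x) ∂(unif K) = ∫ y, h y ∂ν := by
      rw [← hSν, integral_map hS.aemeasurable hhc.aestronglyMeasurable]
    have e2 : ∫ y, h y ∂ν = ∫ p, h p.2 ∂π := by
      rw [← hπ2, integral_map measurable_snd.aemeasurable hhc.aestronglyMeasurable]
    rw [e1, e2]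
  have hi3 : Integrable (fun p : Eu d × Eu d => h p.1) π := by
    refine Integrable.of_bound (hhc.measurable.comp measurable_fst).aestronglyMeasurable C ?_
    filter_upwards [hae1] with p hp
    simpa [Real.norm_eq_abs] using hhb _ hp
  have hi4 : Integrable (fun p : Eu d × Eu d => h p.2) π := by
    refine Integrable.of_bound (hhc.measurable.comp measurable_snd).aestronglyMeasurable C ?_
    filter_upwards [hae2] with p hp
    simpa [Real.norm_eq_abs] using hhb _ hp
  set f : Eu d × Eu d → ℝ := fun p => ‖p.1 - p.2‖ with hf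
  have hfm : Measurable f := by fun_prop
  have hfb : ∀ᵐ p ∂π, f p ≤ 2 * M := by
    filter_upwards [hae1, hae2] with p h1 h2
    exact (norm_sub_le _ _).trans (by linarith)
  have hfi : Integrable f π := by
    refine Integrable.of_bound hfm.aestronglyMeasurable (2 * M) ?_
    filter_upwards [hfb] with p hp
    rw [Real.norm_eq_abs, abs_of_nonneg (norm_nonneg _)]
    exact hp
  have hf2i : Integrable (fun p => f p ^ 2) π := by
    refine Integrable.of_bound (by fun_prop) ((2 * M) ^ 2) ?_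
    filter_upwards [hfb] with p hp
    rw [Real.norm_eq_abs, abs_of_nonneg (by positivity)]
    have : 0 ≤ f p := norm_nonneg _
    gcongr
  set c := ∫ p, f p ^ 2 ∂π with hc
  set J := ∫ p, f p ∂π with hJ
  have hc0 : 0 ≤ c := integral_nonneg fun p => by positivity
  have hJ0 : 0 ≤ J := integral_nonneg fun p => norm_nonneg _
  have hJc : J ^ 2 ≤ c := by
    have h1 : 0 ≤ ∫ p, (f p - J) ^ 2 ∂π := integral_nonneg fun p => by positivity
    have e : ∀ p, (f p - J) ^ 2 = f p ^ 2 - 2 * J * f p + J ^ 2 := fun p => by ring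
    simp only [e] at h1
    have i1 : Integrable (fun p => f p ^ 2 - 2 * J * f p) π := hf2i.sub (hfi.const_mul _)
    rw [integral_add i1 (integrable_const _), integral_sub hf2i (hfi.const_mul _),
      integral_const_mul, integral_const] at h1
    simp at h1
    nlinarith
  have hbound : (∫ p, h p.1 ∂π) - ∫ p, h p.2 ∂π ≤ 2 * R * J := by
    rw [← integral_sub hi3 hi4, ← integral_const_mul]
    apply integral_mono (hi3.sub hi4) (hfi.const_mul _)
    intro p
    have h1 := conj_abs_sub_le hKne hKc hψ hR p.1 p.2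
    have h2 := conj_abs_sub_le hKne hKc hφ hR p.1 p.2
    have h3 := (abs_le.1 h1).2
    have h4 := (abs_le.1 h2).1
    change (conj K ψ p.1 - conj K φ p.1) - (conj K ψ p.2 - conj K φ p.2) ≤ 2 * R * ‖p.1 - p.2‖
    linarith
  have hcost : ∫⁻ p, ‖p.1 - p.2‖ₑ ^ 2 ∂π = ENNReal.ofReal c := by
    rw [hc, ofReal_integral_eq_lintegral_ofReal hf2i (Eventually.of_forall fun p => by positivity)]
    apply lintegral_congr
    intro p
    rw [← ofReal_norm, ENNReal.ofReal_pow (norm_nonneg _)]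
  refine ⟨c, hc0, hcost, ?_⟩
  have hg1 : 0 ≤ ∫ x in K, gapB K ψ T x := setIntegral_nonneg hKm fun x hx => gapB_nonneg hKc hψ T hx
  have hg2 : 0 ≤ ∫ x in K, gapB K φ S x := setIntegral_nonneg hKm fun x hx => gapB_nonneg hKc hφ S hx
  have hmain : (∫ x in K, gapB K ψ T x) + ∫ x in K, gapB K φ S x ≤ V * (2 * R) * J := by
    rw [hsum, hmu, hnu, mul_assoc]
    gcongr
  calc ((∫ x in K, gapB K ψ T x) + ∫ x in K, gapB K φ S x) ^ 2 ≤ (V * (2 * R) * J) ^ 2 := by
        gcongr
    _ = (V * (2 * R)) ^ 2 * J ^ 2 := by ring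
    _ ≤ _ := by gcongr

/-- The estimate for bounded optimal maps with potentials, for one coupling. -/
theorem main_estimate (hd : 1 ≤ d) {K : Set (Eu d)} (hKc : IsCompact K) (hKconv : Convex ℝ K)
    {c : Eu d} {r : ℝ} (hr : 0 < r) (hball : closedBall c r ⊆ K) (hK0 : volume K ≠ 0)
    {R : ℝ} (hR : ∀ x ∈ K, ‖x‖ ≤ R) {φ ψ : Eu d → ℝ} (hφ : Continuous φ) (hψ : Continuous ψ)
    {T S : Eu d → Eu d} (hT : Measurable T) (hS : Measurable S) {M : ℝ} (hM : 0 < M)
    (hMT : ∀ z, ‖T z‖ ≤ M) (hMS : ∀ z, ‖S z‖ ≤ M)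
    (hsT : ∀ᵐ x ∂(volume.restrict K), ∀ w, φ x + inner ℝ (T x) (w - x) ≤ φ w)
    (hsS : ∀ᵐ x ∂(volume.restrict K), ∀ w, ψ x + inner ℝ (S x) (w - x) ≤ ψ w)
    {μ ν : Measure (Eu d)} (hTμ : (unif K).map T = μ) (hSν : (unif K).map S = ν)
    {π : Measure (Eu d × Eu d)} (hπ : IsCoupling π μ ν) :
    ∃ q : ℝ, 0 ≤ q ∧ ∫⁻ p, ‖p.1 - p.2‖ₑ ^ 2 ∂π = ENNReal.ofReal q ∧
      (∫ x in K, ‖T x - S x‖ ^ 2) ^ 4
        ≤ ((2 * M * d) ^ 2 * (4 * (4 * M * d * (volume K).toReal / r))) ^ 2
          * (((volume K).toReal * (2 * R)) ^ 2 * q) := by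
  have hKtop : volume K ≠ ⊤ := hKc.measure_lt_top.ne
  have hKne : K.Nonempty := ⟨c, hball (mem_closedBall_self hr.le)⟩
  have hV : 0 < (volume K).toReal := ENNReal.toReal_pos hK0 hKtop
  obtain ⟨q, hq0, hqc, hq⟩ := gap_sum_le hKc hK0 hKne hR hφ hψ hT hS hMT hMS hsT hsS hTμ hSν hπ
  refine ⟨q, hq0, hqc, ?_⟩
  set A : ℝ := 4 * (4 * M * d * (volume K).toReal / r) with hA
  have hdpos : (0 : ℝ) < d := by exact_mod_cast hd
  have hApos : 0 < A := by rw [hA]; positivity
  set D := ∫ x in K, gapB K ψ T x with hD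
  set D' := ∫ x in K, gapB K φ S x with hD'
  have hKm := hKc.measurableSet
  have hD0 : 0 ≤ D := setIntegral_nonneg hKm fun x hx => gapB_nonneg hKc hψ T hx
  have hD'0 : 0 ≤ D' := setIntegral_nonneg hKm fun x hx => gapB_nonneg hKc hφ S hx
  have hcoord := coord_sq_le hd hKc hKconv hr hball hψ hT hS hM hMT hMS hsS hV
  have hsum := normsq_integral_le hKtop hT hS hMT hMS (K := K)
  set E := ∫ x in K, ‖T x - S x‖ ^ 2 with hE
  have hE0 : 0 ≤ E := integral_nonneg fun x => by positivity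
  set Λ := Real.sqrt (A * D) with hΛ
  have hL : ∀ i : Fin d, ∫ x in K, |T x i - S x i| ≤ Λ := by
    intro i
    apply Real.le_sqrt_of_sq_le
    exact hcoord i
  have hE1 : E ≤ 2 * M * d * Λ := by
    calc E ≤ 2 * M * ∑ i : Fin d, ∫ x in K, |T x i - S x i| := hsum
      _ ≤ 2 * M * ∑ _i : Fin d, Λ := by
          gcongr with i _
          exact hL i
      _ = 2 * M * d * Λ := by
          simp
          ring
  have hE2 : E ^ 2 ≤ (2 * M * d) ^ 2 * (A * D) := by
    calc E ^ 2 ≤ (2 * M * d * Λ) ^ 2 := by gcongr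
      _ = (2 * M * d) ^ 2 * Λ ^ 2 := by ring
      _ = _ := by rw [hΛ, Real.sq_sqrt (by positivity)]
  have hDD : D ^ 2 ≤ (D + D') ^ 2 := by
    gcongr
    linarith
  set B := (2 * M * d) ^ 2 * A with hB
  have hE3 : E ^ 2 ≤ B * D := by
    rw [hB]
    calc E ^ 2 ≤ _ := hE2
      _ = _ := by ring
  have hB0 : 0 ≤ B := by rw [hB]; positivity
  calc E ^ 4 = (E ^ 2) ^ 2 := by ring
    _ ≤ (B * D) ^ 2 := by gcongr
    _ = B ^ 2 * D ^ 2 := by ring
    _ ≤ B ^ 2 * (D + D') ^ 2 := by gcongr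
    _ ≤ B ^ 2 * (((volume K).toReal * (2 * R)) ^ 2 * q) := by gcongr

/-- Passage to exponents in the extended nonnegative reals. -/
lemma final_pow {a q C₄ : ℝ} (ha : 0 ≤ a) (hq : 0 ≤ q) (hC : 0 ≤ C₄) (h : a ^ 4 ≤ C₄ * q)
    {W : ℝ≥0∞} (hW : ENNReal.ofReal q ≤ W) :
    (ENNReal.ofReal a) ^ (1 / 2 : ℝ) ≤ ENNReal.ofReal (C₄ ^ (1 / 8 : ℝ)) * W ^ ((1 / 4 : ℝ) / 2) := by
  have e1 : (1 / 4 : ℝ) / 2 = 1 / 8 := by norm_num
  rw [e1]
  have h1 : (ENNReal.ofReal a) ^ (1 / 2 : ℝ) = (ENNReal.ofReal (a ^ 4)) ^ (1 / 8 : ℝ) := by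
    rw [ENNReal.ofReal_pow ha, ← ENNReal.rpow_natCast, ← ENNReal.rpow_mul]
    norm_num
  rw [h1, ← ENNReal.ofReal_rpow_of_nonneg hC (by norm_num)]
  calc (ENNReal.ofReal (a ^ 4)) ^ (1 / 8 : ℝ)
      ≤ (ENNReal.ofReal C₄ * W) ^ (1 / 8 : ℝ) := by
        gcongr
        calc ENNReal.ofReal (a ^ 4) ≤ ENNReal.ofReal (C₄ * q) := ENNReal.ofReal_le_ofReal h
          _ = ENNReal.ofReal C₄ * ENNReal.ofReal q := ENNReal.ofReal_mul hC
          _ ≤ _ := by gcongr
    _ = _ := ENNReal.mul_rpow_of_nonneg _ _ (by norm_num)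

/-- Truncating an optimal map to a bounded map. -/
lemma truncate_opt {K : Set (Eu d)} {Y : Set (Eu d)} (hY : MeasurableSet Y) {μ : Measure (Eu d)}
    {T : Eu d → Eu d} (hopt : IsOTMap (unif K) μ T) (hμ : μ Yᶜ = 0) :
    ∃ T' : Eu d → Eu d, T' =ᵐ[unif K] T ∧ (∀ z, T' z ∈ insert 0 Y) ∧ IsOTMap (unif K) μ T' := by
  obtain ⟨hTm, hTmap, hTopt⟩ := hopt
  have hae : ∀ᵐ x ∂(unif K), T x ∈ Y := by
    have : unif K (T ⁻¹' Yᶜ) = 0 := by
      rw [← Measure.map_apply hTm hY.compl, hTmap, hμ]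
    filter_upwards [measure_eq_zero_iff_ae_notMem.1 this] with x hx
    by_contra h
    exact hx h
  classical
  set T' : Eu d → Eu d := fun z => if T z ∈ Y then T z else 0 with hT'
  have heq : T' =ᵐ[unif K] T := by
    filter_upwards [hae] with x hx
    simp [hT', hx]
  have hT'm : Measurable T' := Measurable.ite (hTm hY) hTm measurable_const
  refine ⟨T', heq, ?_, hT'm, ?_, ?_⟩
  · intro z
    simp only [hT']
    split_ifs with h
    · exact Or.inr h
    · exact Or.inl rfl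
  · rw [Measure.map_congr heq, hTmap]
  · intro S hS hSmap
    have h1 : ∫⁻ x, ‖x - T' x‖ₑ ^ 2 ∂(unif K) = ∫⁻ x, ‖x - T x‖ₑ ^ 2 ∂(unif K) := by
      apply lintegral_congr_ae
      filter_upwards [heq] with x hx
      rw [hx]
    rw [h1]
    exact hTopt S hS hSmap

/-- The exponent one quarter is admissible in every dimension `d ≥ 1`. -/
theorem admissible_one_quarter (hd : 1 ≤ d) : Admissible d (1 / 4) := by
  intro K hKc hKconv hKint Y hYc _hYne
  have hKm := hKc.measurableSet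
  have hKtop : volume K ≠ ⊤ := hKc.measure_lt_top.ne
  have hKpos : 0 < volume K := by
    obtain ⟨c, hc⟩ := hKint
    have : volume (interior K) ≠ 0 :=
      (isOpen_interior.measure_pos volume ⟨c, hc⟩).ne'
    exact lt_of_lt_of_le (pos_iff_ne_zero.2 this) (measure_mono interior_subset)
  have hK0 : volume K ≠ 0 := hKpos.ne'
  have hV : 0 < (volume K).toReal := ENNReal.toReal_pos hK0 hKtop
  obtain ⟨c, hc⟩ := hKint
  obtain ⟨r, hr, hball⟩ : ∃ r > 0, closedBall c r ⊆ K := by
    have := mem_interior_iff_mem_nhds.1 hc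
    exact Metric.nhds_basis_closedBall.mem_iff.1 this
  obtain ⟨R₀, hR₀⟩ := hKc.isBounded.exists_norm_le
  set R : ℝ := |R₀| + 1 with hRdef
  have hRpos : 0 < R := by rw [hRdef]; positivity
  have hR : ∀ x ∈ K, ‖x‖ ≤ R := by
    intro x hx
    have := hR₀ x hx
    have := le_abs_self R₀
    rw [hRdef]
    linarith
  obtain ⟨M₀, hM₀⟩ := hYc.isBounded.exists_norm_le
  set M : ℝ := |M₀| + 1 with hMdef
  have hM : 0 < M := by rw [hMdef]; positivity
  have hMY : ∀ y ∈ insert 0 Y, ‖y‖ ≤ M := by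
    intro y hy
    rcases hy with rfl | hy
    · simp [hM.le]
    · have := hM₀ y hy
      have := le_abs_self M₀
      rw [hMdef]
      linarith
  have hdpos : (0 : ℝ) < d := by exact_mod_cast hd
  set V := (volume K).toReal with hVdef
  set C₀ : ℝ := ((2 * M * d) ^ 2 * (4 * (4 * M * d * V / r))) ^ 2 * (V * (2 * R)) ^ 2 with hC₀
  set C₄ : ℝ := C₀ / V ^ 4 with hC₄
  have hC₀0 : 0 < C₀ := by rw [hC₀]; positivity
  have hC₄0 : 0 < C₄ := by rw [hC₄]; positivity
  refine ⟨(C₄ ^ (1 / 8 : ℝ)).toNNReal, ?_⟩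
  intro μ ν _ _ hμ hν T S hT hS
  have hYm := hYc.measurableSet
  obtain ⟨T', hT'eq, hT'Y, hT'opt⟩ := truncate_opt hYm hT hμ
  obtain ⟨S', hS'eq, hS'Y, hS'opt⟩ := truncate_opt hYm hS hν
  have hMT : ∀ z, ‖T' z‖ ≤ M := fun z => hMY _ (hT'Y z)
  have hMS : ∀ z, ‖S' z‖ ≤ M := fun z => hMY _ (hS'Y z)
  obtain ⟨φ, hφL, hφ⟩ := exists_potential_of_opt hKc hKconv ⟨c, hc⟩ hT'opt hMT
  obtain ⟨ψ, hψL, hψ⟩ := exists_potential_of_opt hKc hKconv ⟨c, hc⟩ hS'opt hMS
  have hT'm := hT'opt.1
  have hS'm := hS'opt.1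
  -- the real quantities
  set E := ∫ x in K, ‖T' x - S' x‖ ^ 2 with hE
  have hE0 : 0 ≤ E := integral_nonneg fun x => by positivity
  set a := E / V with ha
  have ha0 : 0 ≤ a := by rw [ha]; positivity
  have hL2 : L2sq (unif K) T S = ENNReal.ofReal a := by
    have e1 : L2sq (unif K) T S = ∫⁻ x, ‖T' x - S' x‖ₑ ^ 2 ∂(unif K) := by
      unfold L2sq
      apply lintegral_congr_ae
      filter_upwards [hT'eq, hS'eq] with x h1 h2
      rw [h1, h2]
    rw [e1, unif, lintegral_smul_measure]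
    have hbd : Integrable (fun x => ‖T' x - S' x‖ ^ 2) (volume.restrict K) :=
      integrableOn_of_bound (C := (2 * M) ^ 2) (by fun_prop) (fun x => by
        rw [abs_of_nonneg (by positivity)]
        have : ‖T' x - S' x‖ ≤ 2 * M := (norm_sub_le _ _).trans (by linarith [hMT x, hMS x])
        gcongr) hKtop
    have e2 := ofReal_integral_eq_lintegral_ofReal hbd (Eventually.of_forall fun x => by positivity)
    have e3 : ∫⁻ x, ‖T' x - S' x‖ₑ ^ 2 ∂(volume.restrict K) = ENNReal.ofReal E := by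
      rw [hE, e2]
      apply lintegral_congr
      intro x
      rw [← ofReal_norm, ENNReal.ofReal_pow (norm_nonneg _)]
    rw [e3, ha, div_eq_inv_mul, ENNReal.ofReal_mul (inv_nonneg.2 hV.le), ENNReal.ofReal_inv_of_pos hV,
      hVdef, ENNReal.ofReal_toReal hKtop, smul_eq_mul]
  rw [hL2]
  -- a lower bound for the cost of every coupling
  set q₀ : ℝ := a ^ 4 / C₄ with hq₀
  have hq₀0 : 0 ≤ q₀ := by rw [hq₀]; positivity
  have hW : ENNReal.ofReal q₀ ≤ W2sq μ ν := by
    unfold W2sq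
    refine le_iInf₂ fun π hπ => ?_
    obtain ⟨q, hq0, hqc, hq⟩ := main_estimate hd hKc hKconv hr hball hK0 hR hφL.continuous
      hψL.continuous hT'm hS'm hM hMT hMS hφ hψ hT'opt.2.1 hS'opt.2.1 hπ
    rw [hqc]
    apply ENNReal.ofReal_le_ofReal
    rw [hq₀, div_le_iff₀ hC₄0, ha, hC₄, div_pow]
    have hV4 : 0 < V ^ 4 := by positivity
    rw [div_le_iff₀ hV4]
    have e : q * (C₀ / V ^ 4) * V ^ 4 = C₀ * q := by
      field_simp
    rw [e, hC₀]
    calc E ^ 4 ≤ _ := hq
      _ = _ := by ring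
  have hfin : a ^ 4 ≤ C₄ * q₀ := by
    rw [hq₀]
    apply le_of_eq
    field_simp
  exact final_pow ha0 hq₀0 hC₄0.le hfin hW

end Vale.Agent.Lib.P074
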