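import Vale.Agent.Lib.P074.MapEst
import Vale.Agent.Lib.P074.Stability

/-!
Laguerre maps are optimal; pushforwards of finitely valued maps; the triangle inequality.
-/

open MeasureTheory ENNReal NNReal Set Metric Filter Topology

namespace Vale.Agent.Lib.P074

variable {d : ℕ} {I : Type*} [Fintype I] [Nonempty I]

lemma fin_measurable {Z E J : Type*} [MeasurableSpace Z] [MeasurableSpace E] [Fintype J]
    {t : Z → J} (ht : ∀ k, MeasurableSet (t ⁻¹' {k})) (y : J → E) : Measurable (fun x => y (t x)) := by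
  classical
  intro A _
  have : (fun x => y (t x)) ⁻¹' A = ⋃ k ∈ Finset.univ.filter (fun k => y k ∈ A), t ⁻¹' {k} := by
    ext x
    simp
  rw [this]
  exact Finset.measurableSet_biUnion _ (fun k _ => ht k)

open Classical in
lemma fin_measure {Z E J : Type*} [MeasurableSpace Z] [Fintype J]
    (ν : Measure Z) {t : Z → J} (ht : ∀ k, MeasurableSet (t ⁻¹' {k})) (y : J → E) (A : Set E) :
    ν ((fun x => y (t x)) ⁻¹' A) = ∑ k ∈ Finset.univ.filter (fun k => y k ∈ A), ν (t ⁻¹' {k}) := by
  have : (fun x => y (t x)) ⁻¹' A = ⋃ k ∈ Finset.univ.filter (fun k => y k ∈ A), t ⁻¹' {k} := by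
    ext x
    simp
  rw [this]
  apply measure_biUnion_finset
  · intro a _ b _ hab
    apply Disjoint.preimage
    simpa using hab
  · exact fun k _ => ht k

/-- The image measure of a finitely valued map depends only on the masses. -/
lemma map_eq_of_masses {X X' E J : Type*} [MeasurableSpace X] [MeasurableSpace X']
    [MeasurableSpace E] [Fintype J] {μ : Measure X} {μ' : Measure X'} {s : X → J} {s' : X' → J}
    (hs : ∀ k, MeasurableSet (s ⁻¹' {k})) (hs' : ∀ k, MeasurableSet (s' ⁻¹' {k}))
    (hm : ∀ k, μ (s ⁻¹' {k}) = μ' (s' ⁻¹' {k})) (y : J → E) :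
    μ.map (fun x => y (s x)) = μ'.map (fun x => y (s' x)) := by
  classical
  ext A hA
  rw [Measure.map_apply (fin_measurable hs y) hA, Measure.map_apply (fin_measurable hs' y) hA,
    fin_measure μ hs y A, fin_measure μ' hs' y A]
  exact Finset.sum_congr rfl (fun k _ => hm k)

/-- The mass of the selection. -/
lemma unif_sel {K : Set (Eu d)} (hKm : MeasurableSet K) {y : I → Eu d} (hy : Function.Injective y)
    (h : I → ℝ) (k : I) : unif K (sel y h ⁻¹' {k}) = (volume K)⁻¹ * volume (cell K y h k) := by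
  rw [unif, Measure.smul_apply, Measure.restrict_apply (measurableSet_sel y h k), smul_eq_mul]
  congr 1
  apply measure_congr
  rw [Filter.eventuallyEq_set]
  have h1 := (ae_restrict_iff' (measurableSet_cell hKm y h k)).1 (ae_sel_eq hKm hy h k)
  filter_upwards [h1] with x hx
  constructor
  · rintro ⟨h2, h3⟩
    have h4 : sel y h x = k := h2
    rw [← h4]
    exact mem_cell_sel y h h3
  · intro h2
    exact ⟨hx h2, h2.1⟩

/-- The test function on the target. -/
noncomputable def thetaFun (y : I → Eu d) (h : I → ℝ) (z : Eu d) : ℝ :=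
  ∑ k, ({y k} : Set (Eu d)).indicator (fun _ => ‖y k‖ ^ 2 - 2 * h k) z

lemma measurable_thetaFun (y : I → Eu d) (h : I → ℝ) : Measurable (thetaFun y h) := by
  unfold thetaFun
  exact Finset.measurable_fun_sum _ (fun k _ => measurable_const.indicator (measurableSet_singleton _))

lemma thetaFun_apply {y : I → Eu d} (hy : Function.Injective y) (h : I → ℝ) (k : I) :
    thetaFun y h (y k) = ‖y k‖ ^ 2 - 2 * h k := by
  unfold thetaFun
  rw [Finset.sum_eq_single k]
  · simp
  · intro l _ hl
    apply indicator_of_notMem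
    simp only [mem_singleton_iff]
    exact fun e => hl (hy e).symm
  · simp

lemma abs_thetaFun_le (y : I → Eu d) (h : I → ℝ) (z : Eu d) :
    |thetaFun y h z| ≤ ∑ k, |‖y k‖ ^ 2 - 2 * h k| := by
  unfold thetaFun
  refine (Finset.abs_sum_le_sum_abs _ _).trans (Finset.sum_le_sum (fun k _ => ?_))
  by_cases hz : z ∈ ({y k} : Set (Eu d))
  · rw [indicator_of_mem hz]
  · rw [indicator_of_notMem hz]
    simp

lemma ae_mem_unif {K : Set (Eu d)} (hKm : MeasurableSet K) : ∀ᵐ x ∂(unif K), x ∈ K := by
  unfold unif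
  exact Measure.ae_smul_measure (ae_restrict_mem hKm) _

/-- A Laguerre map is an optimal map onto its own image measure. -/
theorem lag_isOT {K : Set (Eu d)} (hKc : IsCompact K) (hK0 : volume K ≠ 0) {y : I → Eu d}
    (hy : Function.Injective y) (h : I → ℝ) :
    IsOTMap (unif K) ((unif K).map (lagT y h)) (lagT y h) := by
  have hKm := hKc.measurableSet
  have hKtop : volume K ≠ ⊤ := hKc.measure_lt_top.ne
  have hprob : IsProbabilityMeasure (unif K) := isProb_unif hK0 hKtop
  have hTm := measurable_lagT y h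
  refine ⟨hTm, rfl, fun S hSm hSmap => ?_⟩
  obtain ⟨R, hR⟩ := hKc.isBounded.exists_norm_le
  set M := ∑ l, ‖y l‖ with hM
  have hy' : ∀ k, ‖y k‖ ≤ M := norm_le_sum_norm y
  have hTb : ∀ x, ‖lagT y h x‖ ≤ M := norm_lagT_le hy' h
  -- the values of the competitor
  have hrange : ∀ᵐ x ∂(unif K), S x ∈ range y := by
    have hc : MeasurableSet (range y) := (finite_range y).isClosed.measurableSet
    have h1 : unif K (S ⁻¹' (range y)ᶜ) = 0 := by
      rw [← Measure.map_apply hSm hc.compl, hSmap, Measure.map_apply hTm hc.compl]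
      have : lagT y h ⁻¹' (range y)ᶜ = ∅ := by
        ext x
        simp [lagT]
      rw [this, measure_empty]
    filter_upwards [measure_eq_zero_iff_ae_notMem.1 h1] with x hx
    by_contra hn
    exact hx hn
  have hKae := ae_mem_unif hKm
  have hSb : ∀ᵐ x ∂(unif K), ‖S x‖ ≤ M := by
    filter_upwards [hrange] with x hx
    obtain ⟨k, hk⟩ := hx
    rw [← hk]
    exact hy' k
  set Φ := lagPhi y h with hΦ
  have hΦc : Continuous Φ := continuous_lagPhi y h
  set θ := thetaFun y h with hθ
  have hθm : Measurable θ := measurable_thetaFun y h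
  have hθb := abs_thetaFun_le y h
  set B : Eu d → ℝ := fun x => ‖x‖ ^ 2 - 2 * Φ x with hB
  have hBc : Continuous B := by
    rw [hB]
    fun_prop
  obtain ⟨C₁, hC₁⟩ := hKc.exists_bound_of_continuousOn hBc.continuousOn
  have iB : Integrable B (unif K) := by
    refine Integrable.of_bound hBc.aestronglyMeasurable C₁ ?_
    filter_upwards [hKae] with x hx
    exact hC₁ x hx
  have iθT : Integrable (fun x => θ (lagT y h x)) (unif K) :=
    Integrable.of_bound (hθm.comp hTm).aestronglyMeasurable _
      (Eventually.of_forall (fun x => by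
        rw [Real.norm_eq_abs]
        exact hθb _))
  have iθS : Integrable (fun x => θ (S x)) (unif K) :=
    Integrable.of_bound (hθm.comp hSm).aestronglyMeasurable _
      (Eventually.of_forall (fun x => by
        rw [Real.norm_eq_abs]
        exact hθb _))
  have hnb : ∀ {U : Eu d → Eu d}, Measurable U → (∀ᵐ x ∂(unif K), ‖U x‖ ≤ M) →
      Integrable (fun x => ‖x - U x‖ ^ 2) (unif K) := by
    intro U hU hUb
    refine Integrable.of_bound (by fun_prop) ((|R| + M) ^ 2) ?_
    filter_upwards [hKae, hUb] with x hx hUx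
    rw [Real.norm_eq_abs, abs_of_nonneg (by positivity)]
    apply pow_le_pow_left₀ (norm_nonneg _)
    refine (norm_sub_le _ _).trans (add_le_add ?_ hUx)
    exact (hR x hx).trans (le_abs_self _)
  have iT := hnb hTm (Eventually.of_forall hTb)
  have iS := hnb hSm hSb
  have hTeq : ∀ x, ‖x - lagT y h x‖ ^ 2 = B x + θ (lagT y h x) := by
    intro x
    simp only [hB]
    have e1 := lagPhi_eq_sel y h x
    have e2 : θ (lagT y h x) = ‖y (sel y h x)‖ ^ 2 - 2 * h (sel y h x) := thetaFun_apply hy h _
    rw [e2, hΦ, e1]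
    unfold aff lagT
    rw [norm_sub_sq_real]
    ring
  have hSle : ∀ᵐ x ∂(unif K), B x + θ (S x) ≤ ‖x - S x‖ ^ 2 := by
    filter_upwards [hrange] with x hx
    obtain ⟨k, hk⟩ := hx
    rw [← hk]
    simp only [hB]
    have e2 : θ (y k) = ‖y k‖ ^ 2 - 2 * h k := thetaFun_apply hy h k
    rw [e2, norm_sub_sq_real]
    have h1 := aff_le_lagPhi y h k x
    unfold aff at h1
    nlinarith
  have hint : ∫ x, ‖x - lagT y h x‖ ^ 2 ∂(unif K) ≤ ∫ x, ‖x - S x‖ ^ 2 ∂(unif K) := by
    have e1 : ∫ x, ‖x - lagT y h x‖ ^ 2 ∂(unif K)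
        = (∫ x, B x ∂(unif K)) + ∫ x, θ (lagT y h x) ∂(unif K) := by
      simp only [hTeq]
      exact integral_add iB iθT
    have e2 : ∫ x, θ (lagT y h x) ∂(unif K) = ∫ x, θ (S x) ∂(unif K) := by
      rw [← integral_map hTm.aemeasurable hθm.aestronglyMeasurable,
        ← integral_map hSm.aemeasurable hθm.aestronglyMeasurable, hSmap]
    rw [e1, e2, ← integral_add iB iθS]
    exact integral_mono_ae (iB.add iθS) iS hSle
  have hconv : ∀ {U : Eu d → Eu d}, Integrable (fun x => ‖x - U x‖ ^ 2) (unif K) →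
      ∫⁻ x, ‖x - U x‖ₑ ^ 2 ∂(unif K) = ENNReal.ofReal (∫ x, ‖x - U x‖ ^ 2 ∂(unif K)) := by
    intro U hU
    rw [ofReal_integral_eq_lintegral_ofReal hU (Eventually.of_forall fun x => by positivity)]
    apply lintegral_congr
    intro x
    exact enorm_sq' _
  rw [hconv iT, hconv iS]
  exact ENNReal.ofReal_le_ofReal hint

/-- The triangle inequality for the `L²` distance. -/
lemma L2_triangle {ρ : Measure (Eu d)} {A B C : Eu d → Eu d} (hA : Measurable A) (hB : Measurable B)
    (hC : Measurable C) :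
    (L2sq ρ A C) ^ (1 / 2 : ℝ) ≤ (L2sq ρ A B) ^ (1 / 2 : ℝ) + (L2sq ρ B C) ^ (1 / 2 : ℝ) := by
  have hf : AEMeasurable (fun x => ‖A x - B x‖ₑ) ρ := (hA.sub hB).enorm.aemeasurable
  have hg : AEMeasurable (fun x => ‖B x - C x‖ₑ) ρ := (hB.sub hC).enorm.aemeasurable
  have key := ENNReal.lintegral_Lp_add_le (μ := ρ) hf hg (p := 2) (by norm_num)
  simp only [ENNReal.rpow_two] at key
  unfold L2sq
  refine le_trans ?_ key
  apply ENNReal.rpow_le_rpow _ (by norm_num)
  apply lintegral_mono
  intro x
  simp only [Pi.add_apply]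
  gcongr
  calc ‖A x - C x‖ₑ = ‖(A x - B x) + (B x - C x)‖ₑ := by
        congr 1
        abel
    _ ≤ _ := enorm_add_le _ _

end Vale.Agent.Lib.P074
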