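import Vale.Agent.Lib.P074.Exist

/-!
Weak and strong duality for Laguerre tessellations, and the variation along a path of sites.
-/

open MeasureTheory ENNReal NNReal Set Metric Filter Topology

namespace Vale.Agent.Lib.P074

variable {d : ℕ} {I : Type*} [Fintype I] [Nonempty I]

/-- The barycenter integrals of the cells. -/
noncomputable def bint (K : Set (Eu d)) (g : Eu d → ℝ) (y : I → Eu d) (h : I → ℝ) (k : I) : Eu d :=
  ∫ x in cell K y h k, g x • x

/-- The data common to all statements. -/
structure Dens (K : Set (Eu d)) (R : ℝ) (g : Eu d → ℝ) : Prop where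
  hKR : ∀ x ∈ K, ‖x‖ ≤ R
  hKtop : volume K ≠ ⊤
  hKm : MeasurableSet K
  hgm : Measurable g
  hg0 : ∀ x ∈ K, 0 ≤ g x
  hg2 : ∀ x ∈ K, g x ≤ 2

lemma Dens.int_smul {K : Set (Eu d)} {R : ℝ} {g : Eu d → ℝ} (D : Dens K R g) {s : Set (Eu d)}
    (hs : s ⊆ K) (hsm : MeasurableSet s) : IntegrableOn (fun x => g x • x) s := by
  refine intOn_vec D.hKtop hs hsm (D.hgm.smul measurable_id) (B := 2 * R) (fun x hx => ?_)
  rw [norm_smul, Real.norm_eq_abs, abs_of_nonneg (D.hg0 x hx)]
  exact mul_le_mul (D.hg2 x hx) (D.hKR x hx) (norm_nonneg _) (by norm_num)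

lemma Dens.int_g {K : Set (Eu d)} {R : ℝ} {g : Eu d → ℝ} (D : Dens K R g) {s : Set (Eu d)}
    (hs : s ⊆ K) (hsm : MeasurableSet s) : IntegrableOn g s := by
  refine intOn_real D.hKtop hs hsm D.hgm (B := 2) (fun x hx => ?_)
  rw [abs_of_nonneg (D.hg0 x hx)]
  exact D.hg2 x hx

/-- Integrating the affine functions on a set. -/
lemma Dens.int_aff {K : Set (Eu d)} {R : ℝ} {g : Eu d → ℝ} (D : Dens K R g) {s : Set (Eu d)}
    (hs : s ⊆ K) (hsm : MeasurableSet s) (y : I → Eu d) (h : I → ℝ) (k : I) :
    ∫ x in s, g x * aff y h k x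
      = inner ℝ (∫ x in s, g x • x) (y k) - (∫ x in s, g x) * h k := by
  have i1 := D.int_smul hs hsm
  have i2 := D.int_g hs hsm
  have e : ∀ x, g x * aff y h k x = inner ℝ (g x • x) (y k) - g x * h k := by
    intro x
    unfold aff
    rw [real_inner_smul_left]
    ring
  simp only [e]
  have i3 : IntegrableOn (fun x => inner ℝ (g x • x) (y k)) s := by
    have : IntegrableOn (fun x => inner ℝ (y k) (g x • x)) s := i1.const_inner (y k)
    exact this.congr_fun (fun x _ => real_inner_comm _ _) hsm
  have e2 : inner ℝ (∫ x in s, g x • x) (y k) = ∫ x in s, inner ℝ (g x • x) (y k) := by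
    rw [real_inner_comm, ← integral_inner i1]
    simp only [real_inner_comm]
  rw [integral_sub i3 (i2.mul_const _), integral_mul_const, e2]

/-- Weak duality. -/
theorem weak_dual {K : Set (Eu d)} {R : ℝ} {g : Eu d → ℝ} (D : Dens K R g) {y' : I → Eu d}
    (hy' : Function.Injective y') {h' m : I → ℝ} (hb : ∀ k, ∫ x in cell K y' h' k, g x = m k)
    (y : I → Eu d) (h : I → ℝ) :
    ∑ k, inner ℝ (bint K g y' h' k) (y k) ≤ dualVal K g y h m := by
  have hM : ∀ k, ‖y k‖ ≤ ∑ l, ‖y l‖ := fun k =>
    Finset.single_le_sum (f := fun l => ‖y l‖) (fun l _ => norm_nonneg _) (Finset.mem_univ k)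
  have hi := int_g_phi D.hKR D.hKtop hM h subset_rfl D.hKm D.hgm D.hg0 D.hg2
  unfold dualVal
  rw [← sum_cells D.hKm hy' h' hi, ← Finset.sum_add_distrib]
  apply Finset.sum_le_sum
  intro k _
  have hs := cell_subset K y' h' k
  have hsm := measurableSet_cell D.hKm y' h' k
  have e := D.int_aff hs hsm y h k
  rw [hb k] at e
  have hle : ∫ x in cell K y' h' k, g x * aff y h k x ≤ ∫ x in cell K y' h' k, g x * lagPhi y h x := by
    apply setIntegral_mono_on _ (hi.mono_set hs) hsm
    · intro x hx
      exact mul_le_mul_of_nonneg_left (aff_le_lagPhi y h k x) (D.hg0 x (hs hx))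
    · have : IntegrableOn (fun x => inner ℝ (g x • x) (y k) - g x * h k) (cell K y' h' k) := by
        have i1 := D.int_smul hs hsm
        have i3 : IntegrableOn (fun x => inner ℝ (g x • x) (y k)) (cell K y' h' k) := by
          have : IntegrableOn (fun x => inner ℝ (y k) (g x • x)) (cell K y' h' k) :=
            i1.const_inner (y k)
          exact this.congr_fun (fun x _ => real_inner_comm _ _) hsm
        exact i3.sub ((D.int_g hs hsm).mul_const _)
      refine this.congr_fun (fun x _ => ?_) hsm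
      simp only [aff, real_inner_smul_left]
      ring
  unfold bint
  linarith

/-- Strong duality. -/
theorem strong_dual {K : Set (Eu d)} {R : ℝ} {g : Eu d → ℝ} (D : Dens K R g) {y : I → Eu d}
    (hy : Function.Injective y) {h m : I → ℝ} (hb : ∀ k, ∫ x in cell K y h k, g x = m k) :
    dualVal K g y h m = ∑ k, inner ℝ (bint K g y h k) (y k) := by
  have hM : ∀ k, ‖y k‖ ≤ ∑ l, ‖y l‖ := fun k =>
    Finset.single_le_sum (f := fun l => ‖y l‖) (fun l _ => norm_nonneg _) (Finset.mem_univ k)
  have hi := int_g_phi D.hKR D.hKtop hM h subset_rfl D.hKm D.hgm D.hg0 D.hg2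
  unfold dualVal
  rw [← sum_cells D.hKm hy h hi, ← Finset.sum_add_distrib]
  apply Finset.sum_congr rfl
  intro k _
  have hs := cell_subset K y h k
  have hsm := measurableSet_cell D.hKm y h k
  have e := D.int_aff hs hsm y h k
  rw [hb k] at e
  have e2 : ∫ x in cell K y h k, g x * lagPhi y h x = ∫ x in cell K y h k, g x * aff y h k x := by
    apply setIntegral_congr_fun hsm
    intro x hx
    simp only
    rw [lagPhi_eq_of_mem hx]
  rw [e2, e]
  unfold bint
  ring

/-- The value does not depend on the balanced weights. -/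
theorem dual_unique {K : Set (Eu d)} {R : ℝ} {g : Eu d → ℝ} (D : Dens K R g) {y : I → Eu d}
    (hy : Function.Injective y) {h h' m : I → ℝ} (hb : ∀ k, ∫ x in cell K y h k, g x = m k)
    (hb' : ∀ k, ∫ x in cell K y h' k, g x = m k) :
    dualVal K g y h m = dualVal K g y h' m := by
  apply le_antisymm
  · rw [strong_dual D hy hb]
    exact weak_dual D hy hb y h'
  · rw [strong_dual D hy hb']
    exact weak_dual D hy hb' y h

/-- The lower bound for one step. -/
theorem step_lower {K : Set (Eu d)} {R : ℝ} {g : Eu d → ℝ} (D : Dens K R g) {y y' : I → Eu d}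
    (hy : Function.Injective y) {h h' m : I → ℝ}
    (hb : ∀ k, ∫ x in cell K y h k, g x = m k) :
    ∑ k, inner ℝ (bint K g y h k) (y' k - y k) ≤ dualVal K g y' h' m - dualVal K g y h m := by
  have h1 := weak_dual D hy hb y' h'
  rw [strong_dual D hy hb]
  simp only [inner_sub_right, Finset.sum_sub_distrib]
  linarith

/-- The upper bound for one step. -/
theorem step_upper {K : Set (Eu d)} {R : ℝ} {g : Eu d → ℝ} (D : Dens K R g) {y y' : I → Eu d}
    (hy' : Function.Injective y') {h h' m : I → ℝ}
    (hb' : ∀ k, ∫ x in cell K y' h' k, g x = m k) :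
    dualVal K g y' h' m - dualVal K g y h m ≤ ∑ k, inner ℝ (bint K g y' h' k) (y' k - y k) := by
  have h1 := weak_dual D hy' hb' y h
  rw [strong_dual D hy' hb']
  simp only [inner_sub_right, Finset.sum_sub_distrib]
  linarith

end Vale.Agent.Lib.P074
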