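import Vale.Agent.Lib.P074.Conj

/-!
The integral estimate: the `L¹` distance of coordinates is controlled by the integrated gap.
-/

open MeasureTheory ENNReal NNReal Set Metric Filter Topology

namespace Vale.Agent.Lib.P074

variable {d : ℕ}

lemma integrableOn_of_bound {f : Eu d → ℝ} (hf : Measurable f) {C : ℝ} (hC : ∀ x, |f x| ≤ C)
    {s : Set (Eu d)} (hs : volume s ≠ ⊤) : IntegrableOn f s := by
  have : IsFiniteMeasure (volume.restrict s) := ⟨by simpa using hs.lt_top⟩
  exact Integrable.of_bound hf.aestronglyMeasurable C (Eventually.of_forall fun x => by simpa using hC x)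

/-- Comparison of the integrals of a bounded function over a set and a subset. -/
lemma setIntegral_bound {f : Eu d → ℝ} (hf : Measurable f) {C : ℝ} (hC : ∀ x, |f x| ≤ C)
    {K W : Set (Eu d)} (hKtop : volume K ≠ ⊤) (hW : MeasurableSet W) (hWK : W ⊆ K) :
    |(∫ x in K, f x) - ∫ x in W, f x| ≤ C * ((volume K).toReal - (volume W).toReal) := by
  have hWtop : volume W ≠ ⊤ := (measure_lt_top_of_subset hWK hKtop).ne
  have hi := integrableOn_of_bound hf hC hKtop
  have e := setIntegral_sdiff hW hi hWK
  rw [← e]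
  have h2 : volume (K \ W) ≠ ⊤ := (measure_lt_top_of_subset sdiff_subset hKtop).ne
  have h3 := norm_setIntegral_le_of_norm_le_const (μ := volume) (s := K \ W) (f := f) (C := C)
    h2.lt_top (fun x _ => by simpa using hC x)
  rw [Real.norm_eq_abs] at h3
  refine h3.trans (le_of_eq ?_)
  rw [Measure.real, measure_sdiff hWK hW.nullMeasurableSet hWtop,
    ENNReal.toReal_sub_of_le (measure_mono hWK) hKtop]

/-- The integral of a bounded function against the translation difference. -/
lemma translate_bound {K K' : Set (Eu d)} (hKtop : volume K ≠ ⊤) (hK' : MeasurableSet K')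
    {v : Eu d} (hplus : ∀ x ∈ K', x + v ∈ K) (hminus : ∀ x ∈ K', x - v ∈ K)
    {b : Eu d → ℝ} (hb : Measurable b) {C : ℝ} (hC : ∀ x, |b x| ≤ C) :
    (∫ x in K', b (x + v)) - ∫ x in K', b (x - v)
      ≤ 2 * C * ((volume K).toReal - (volume K').toReal) := by
  set Wp : Set (Eu d) := (fun w => w + (-v)) ⁻¹' K' with hWp
  set Wm : Set (Eu d) := (fun w => w + v) ⁻¹' K' with hWm
  have hWpm : MeasurableSet Wp := (measurable_id.add_const _) hK'
  have hWmm : MeasurableSet Wm := (measurable_id.add_const _) hK'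
  have hvolp : volume Wp = volume K' := measure_preimage_add_right _ _ _
  have hvolm : volume Wm = volume K' := measure_preimage_add_right _ _ _
  have hsubp : Wp ⊆ K := by
    intro w hw
    have := hplus _ hw
    simpa using this
  have hsubm : Wm ⊆ K := by
    intro w hw
    have := hminus _ hw
    simpa using this
  have e1 : ∫ x in K', b (x + v) = ∫ w in Wp, b w := by
    have hp := (measurePreserving_add_right (volume : Measure (Eu d)) v)
    have := hp.setIntegral_preimage_emb (Homeomorph.addRight v).measurableEmbedding b Wp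
    rw [← this]
    congr 2
    ext x
    simp [hWp]
  have e2 : ∫ x in K', b (x - v) = ∫ w in Wm, b w := by
    have hp := (measurePreserving_add_right (volume : Measure (Eu d)) (-v))
    have := hp.setIntegral_preimage_emb (Homeomorph.addRight (-v)).measurableEmbedding b Wm
    simp only [← sub_eq_add_neg] at this
    rw [← this]
    congr 2
    ext x
    simp [hWm]
  rw [e1, e2]
  have h1 := setIntegral_bound hb hC hKtop hWpm hsubp
  have h2 := setIntegral_bound hb hC hKtop hWmm hsubm
  rw [hvolp] at h1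
  rw [hvolm] at h2
  have := abs_le.1 h1
  have := abs_le.1 h2
  linarith

/-- The shrunk copy of `K` around `c`. -/
noncomputable def shrink (K : Set (Eu d)) (c : Eu d) (lam : ℝ) : Set (Eu d) :=
  AffineMap.homothety c lam '' K

lemma volume_shrink (K : Set (Eu d)) (c : Eu d) {lam : ℝ} (h : 0 ≤ lam) :
    volume (shrink K c lam) = ENNReal.ofReal (lam ^ d) * volume K := by
  rw [shrink, Measure.addHaar_image_homothety, finrank_euclideanSpace_fin, abs_of_nonneg (by positivity)]

lemma isCompact_shrink {K : Set (Eu d)} (hK : IsCompact K) (c : Eu d) (lam : ℝ) :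
    IsCompact (shrink K c lam) := by
  apply hK.image
  exact AffineMap.homothety_continuous c lam

lemma shrink_add_mem {K : Set (Eu d)} (hKconv : Convex ℝ K) {c : Eu d} {r : ℝ}
    (hball : closedBall c r ⊆ K) {lam : ℝ} (h0 : 0 ≤ lam) (h1 : lam < 1) {x w : Eu d}
    (hx : x ∈ shrink K c lam) (hw : ‖w‖ ≤ r * (1 - lam)) : x + w ∈ K := by
  obtain ⟨k, hk, rfl⟩ := hx
  have hpos : 0 < 1 - lam := by linarith
  set q : Eu d := c + (1 - lam)⁻¹ • w with hq
  have hqK : q ∈ K := by
    apply hball
    rw [mem_closedBall, dist_eq_norm, hq, add_sub_cancel_left, norm_smul, Real.norm_eq_abs,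
      abs_of_pos (inv_pos.2 hpos), inv_mul_le_iff₀ hpos]
    linarith
  have hconv := hKconv hk hqK h0 hpos.le (by ring)
  have e : AffineMap.homothety c lam k + w = lam • k + (1 - lam) • q := by
    rw [hq, AffineMap.homothety_apply]
    simp only [vsub_eq_sub, vadd_eq_add, smul_sub, smul_add, smul_smul]
    rw [mul_inv_cancel₀ hpos.ne', one_smul, sub_smul, one_smul]
    abel
  rw [e]
  exact hconv

lemma shrink_subset {K : Set (Eu d)} (hKconv : Convex ℝ K) {c : Eu d} {r : ℝ} (hr : 0 < r)
    (hball : closedBall c r ⊆ K) {lam : ℝ} (h0 : 0 ≤ lam) (h1 : lam < 1) :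
    shrink K c lam ⊆ K := by
  intro x hx
  have := shrink_add_mem hKconv hball h0 h1 (w := 0) hx (by
    rw [norm_zero]; have : 0 < 1 - lam := by linarith
    positivity)
  simpa using this

lemma norm_smul_single (i : Fin d) {τ : ℝ} (hτ : 0 ≤ τ) :
    ‖τ • (EuclideanSpace.single i (1 : ℝ) : Eu d)‖ = τ := by
  rw [norm_smul, PiLp.norm_single]
  simp [abs_of_nonneg hτ]

lemma abs_coord_le (v : Eu d) (i : Fin d) : |v i| ≤ ‖v‖ := by
  have := PiLp.norm_apply_le v i
  simpa [Real.norm_eq_abs] using this

/-- Integrability of the gap on `K`. -/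
lemma gapB_integrableOn {K : Set (Eu d)} (hKc : IsCompact K) (hKne : K.Nonempty) {ψ : Eu d → ℝ}
    (hψ : Continuous ψ) {T : Eu d → Eu d} (hT : Measurable T) {M : ℝ} (hM : ∀ z, ‖T z‖ ≤ M) :
    IntegrableOn (gapB K ψ T) K := by
  obtain ⟨R, hR⟩ := hKc.isBounded.exists_norm_le
  have hcc : Continuous (conj K ψ) := continuous_conj hKne hKc hψ hR
  have hmeas : Measurable (gapB K ψ T) := by
    unfold gapB
    exact (hψ.measurable.add (hcc.measurable.comp hT)).sub (measurable_id.inner hT)
  obtain ⟨C1, hC1⟩ := hKc.exists_bound_of_continuousOn hψ.continuousOn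
  obtain ⟨C2, hC2⟩ := (isCompact_closedBall (0 : Eu d) M).exists_bound_of_continuousOn
    hcc.continuousOn
  have : IsFiniteMeasure (volume.restrict K) := ⟨by simpa using hKc.measure_lt_top⟩
  refine Integrable.of_bound hmeas.aestronglyMeasurable (C1 + C2 + R * M) ?_
  filter_upwards [ae_restrict_mem hKc.measurableSet] with x hx
  have h1 := hC1 x hx
  have h2 := hC2 (T x) (by simpa using hM x)
  have h3 : ‖inner ℝ x (T x)‖ ≤ R * M := by
    have hRx := hR x hx
    calc ‖inner ℝ x (T x)‖ ≤ ‖x‖ * ‖T x‖ := norm_inner_le_norm _ _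
      _ ≤ R * M := by
        gcongr
        · exact (norm_nonneg x).trans hRx
        · exact hM x
  unfold gapB
  calc ‖ψ x + conj K ψ (T x) - inner ℝ x (T x)‖
      ≤ ‖ψ x + conj K ψ (T x)‖ + ‖inner ℝ x (T x)‖ := norm_sub_le _ _
    _ ≤ ‖ψ x‖ + ‖conj K ψ (T x)‖ + ‖inner ℝ x (T x)‖ := by gcongr; exact norm_add_le _ _
    _ ≤ _ := by linarith

/-- The basic estimate for one coordinate and one step size. -/
theorem coord_estimate {K : Set (Eu d)} (hKc : IsCompact K) (hKconv : Convex ℝ K) {c : Eu d}
    {r : ℝ} (hr : 0 < r) (hball : closedBall c r ⊆ K) {ψ : Eu d → ℝ} (hψ : Continuous ψ)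
    {T S : Eu d → Eu d} (hT : Measurable T) (hS : Measurable S) {M : ℝ} (hMT : ∀ z, ‖T z‖ ≤ M)
    (hMS : ∀ z, ‖S z‖ ≤ M)
    (hsub : ∀ᵐ x ∂(volume.restrict K), ∀ w, ψ x + inner ℝ (S x) (w - x) ≤ ψ w)
    (i : Fin d) {τ : ℝ} (hτ : 0 < τ) (hτr : τ < r) :
    ∫ x in K, |T x i - S x i|
      ≤ (∫ x in K, gapB K ψ T x) / τ + 4 * M * (d * (τ / r)) * (volume K).toReal := by
  have hKm : MeasurableSet K := hKc.measurableSet
  have hKtop : volume K ≠ ⊤ := hKc.measure_lt_top.ne
  have hKne : K.Nonempty := ⟨c, hball (mem_closedBall_self hr.le)⟩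
  have hM0 : 0 ≤ M := (norm_nonneg _).trans (hMT c)
  set lam : ℝ := 1 - τ / r with hlam
  have hτr' : τ / r < 1 := (div_lt_one hr).2 hτr
  have hτr0 : 0 < τ / r := div_pos hτ hr
  have hlam0 : 0 ≤ lam := by rw [hlam]; linarith
  have hlam1 : lam < 1 := by rw [hlam]; linarith
  set K' := shrink K c lam with hK'
  have hK'c : IsCompact K' := isCompact_shrink hKc c lam
  have hK'm : MeasurableSet K' := hK'c.measurableSet
  have hK'sub : K' ⊆ K := shrink_subset hKconv hr hball hlam0 hlam1
  set e : Eu d := τ • EuclideanSpace.single i (1 : ℝ) with he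
  have hen : ‖e‖ = τ := norm_smul_single i hτ.le
  have henle : ‖e‖ ≤ r * (1 - lam) := by
    rw [hen, hlam]
    have : r * (1 - (1 - τ / r)) = τ := by field_simp; ring
    rw [this]
  have hplus : ∀ x ∈ K', x + e ∈ K := fun x hx =>
    shrink_add_mem hKconv hball hlam0 hlam1 hx henle
  have hminus : ∀ x ∈ K', x - e ∈ K := fun x hx => by
    rw [sub_eq_add_neg]
    exact shrink_add_mem hKconv hball hlam0 hlam1 hx (by rwa [norm_neg])
  -- the coordinate functions
  have hcm : ∀ (U : Eu d → Eu d), Measurable U → Measurable fun x => U x i := by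
    intro U hU
    have h1 : Measurable fun v : Eu d => v i :=
      (measurable_pi_apply i).comp (PiLp.volume_preserving_ofLp (Fin d)).measurable
    exact h1.comp hU
  set b : Eu d → ℝ := fun x => S x i with hb
  have hbm : Measurable b := hcm S hS
  have hbC : ∀ x, |b x| ≤ M := fun x => (abs_coord_le _ i).trans (hMS x)
  set F : Eu d → ℝ := fun x => |T x i - S x i| with hF
  have hFm : Measurable F := ((hcm T hT).sub (hcm S hS)).abs
  have hFC : ∀ x, |F x| ≤ 2 * M := by
    intro x
    simp only [hF, abs_abs]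
    have h1 := abs_coord_le (T x) i
    have h2 := abs_coord_le (S x) i
    have h3 := hMT x
    have h4 := hMS x
    calc |T x i - S x i| ≤ |T x i| + |S x i| := abs_sub _ _
      _ ≤ 2 * M := by linarith
  have hK'top : volume K' ≠ ⊤ := hK'c.measure_lt_top.ne
  -- almost everywhere comparison on the shrunk set
  have h0 : ∀ᵐ x ∂(volume : Measure (Eu d)), x ∈ K → ∀ w, ψ x + inner ℝ (S x) (w - x) ≤ ψ w :=
    (ae_restrict_iff' hKm).1 hsub
  have hp : ∀ᵐ x ∂(volume : Measure (Eu d)), x + e ∈ K → ∀ w, ψ (x + e)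
      + inner ℝ (S (x + e)) (w - (x + e)) ≤ ψ w :=
    (measurePreserving_add_right (volume : Measure (Eu d)) e).quasiMeasurePreserving.ae h0
  have hm : ∀ᵐ x ∂(volume : Measure (Eu d)), x + (-e) ∈ K → ∀ w, ψ (x + (-e))
      + inner ℝ (S (x + (-e))) (w - (x + (-e))) ≤ ψ w :=
    (measurePreserving_add_right (volume : Measure (Eu d)) (-e)).quasiMeasurePreserving.ae h0
  have hpt : ∀ᵐ x ∂(volume.restrict K'), F x ≤ (b (x + e) - b (x - e)) + gapB K ψ T x / τ := by
    filter_upwards [ae_restrict_mem hK'm, ae_restrict_of_ae h0, ae_restrict_of_ae hp,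
      ae_restrict_of_ae hm] with x hx h0x hpx hmx
    have h1 := hplus x hx
    have h2 := hminus x hx
    have h3 := hmx (by rw [← sub_eq_add_neg]; exact h2)
    rw [← sub_eq_add_neg] at h3
    exact pointwise_coord hKc hψ i hτ h1 h2 (h0x (hK'sub hx)) (hpx h1) h3
  -- integrability
  have hiB := gapB_integrableOn hKc hKne hψ hT hMT
  have hiF' : IntegrableOn F K' := integrableOn_of_bound hFm hFC hK'top
  have hbp : Measurable fun x => b (x + e) := hbm.comp (measurable_id.add_const e)
  have hbq : Measurable fun x => b (x - e) := by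
    have : (fun x => b (x - e)) = fun x => b (x + (-e)) := by
      ext x; rw [sub_eq_add_neg]
    rw [this]
    exact hbm.comp (measurable_id.add_const (-e))
  have hibp : IntegrableOn (fun x => b (x + e)) K' := integrableOn_of_bound hbp (fun x => hbC _) hK'top
  have hibq : IntegrableOn (fun x => b (x - e)) K' := integrableOn_of_bound hbq (fun x => hbC _) hK'top
  have hiB' : IntegrableOn (gapB K ψ T) K' := hiB.mono_set hK'sub
  have hint1 : ∫ x in K', F x ≤ ∫ x in K', ((b (x + e) - b (x - e)) + gapB K ψ T x / τ) := by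
    apply integral_mono_ae hiF'
    · exact (hibp.sub hibq).add (hiB'.div_const τ)
    · exact hpt
  have hint2 : ∫ x in K', ((b (x + e) - b (x - e)) + gapB K ψ T x / τ)
      = ((∫ x in K', b (x + e)) - ∫ x in K', b (x - e)) + (∫ x in K', gapB K ψ T x) / τ := by
    have h12 : IntegrableOn (fun x => b (x + e) - b (x - e)) K' := hibp.sub hibq
    have h3 : IntegrableOn (fun x => gapB K ψ T x / τ) K' := hiB'.div_const τ
    rw [integral_add h12 h3, integral_sub hibp hibq, integral_div]
  have htr := translate_bound hKtop hK'm hplus hminus hbm hbC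
  have hset := setIntegral_bound hFm hFC hKtop hK'm hK'sub
  have hBmono : ∫ x in K', gapB K ψ T x ≤ ∫ x in K, gapB K ψ T x := by
    apply setIntegral_mono_set hiB
    · filter_upwards [ae_restrict_mem hKm] with x hx
      exact gapB_nonneg hKc hψ T hx
    · exact Eventually.of_forall hK'sub
  -- volumes
  have hvol : (volume K').toReal = lam ^ d * (volume K).toReal := by
    rw [hK', volume_shrink K c hlam0, ENNReal.toReal_mul, ENNReal.toReal_ofReal (by positivity)]
  have hbern : 1 - lam ^ d ≤ d * (τ / r) := by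
    have := one_add_mul_le_pow (a := -(τ / r)) (by linarith) d
    have e2 : 1 + -(τ / r) = lam := by rw [hlam]; ring
    rw [e2] at this
    nlinarith
  have hV0 : 0 ≤ (volume K).toReal := ENNReal.toReal_nonneg
  have hgap : (volume K).toReal - (volume K').toReal ≤ d * (τ / r) * (volume K).toReal := by
    rw [hvol]
    nlinarith
  have hset' := (abs_le.1 hset).2
  have hdiv : (∫ x in K', gapB K ψ T x) / τ ≤ (∫ x in K, gapB K ψ T x) / τ := by
    gcongr
  have h4M : 4 * M * ((volume K).toReal - (volume K').toReal)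
      ≤ 4 * M * (d * (τ / r) * (volume K).toReal) := by
    gcongr
  calc ∫ x in K, F x ≤ (∫ x in K', F x) + 2 * M * ((volume K).toReal - (volume K').toReal) := by
        linarith
    _ ≤ (∫ x in K, gapB K ψ T x) / τ + 4 * M * (d * (τ / r)) * (volume K).toReal := by
        rw [hint2] at hint1
        nlinarith

end Vale.Agent.Lib.P074
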