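import Vale.Agent.Lib.P074.Lag

/-!
Existence of balanced weights for Laguerre tessellations.
-/

open MeasureTheory ENNReal NNReal Set Metric Filter Topology

namespace Vale.Agent.Lib.P074

variable {d : ℕ} {I : Type*} [Fintype I] [Nonempty I]

/-- The dual functional. -/
noncomputable def dualVal (K : Set (Eu d)) (g : Eu d → ℝ) (y : I → Eu d) (h m : I → ℝ) : ℝ :=
  (∫ x in K, g x * lagPhi y h x) + ∑ k, m k * h k

lemma abs_aff_le {R M : ℝ} {y : I → Eu d} (hy : ∀ k, ‖y k‖ ≤ M) (h : I → ℝ) (k : I) {x : Eu d}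
    (hx : ‖x‖ ≤ R) : |aff y h k x| ≤ R * M + ‖h‖ := by
  unfold aff
  have h1 : |inner ℝ x (y k)| ≤ ‖x‖ * ‖y k‖ := abs_real_inner_le_norm _ _
  have h2 : ‖x‖ * ‖y k‖ ≤ R * M := mul_le_mul hx (hy k) (norm_nonneg _) ((norm_nonneg _).trans hx)
  have h3 : |h k| ≤ ‖h‖ := norm_le_pi_norm h k
  calc |inner ℝ x (y k) - h k| ≤ |inner ℝ x (y k)| + |h k| := abs_sub _ _
    _ ≤ _ := by linarith

lemma abs_lagPhi_le {R M : ℝ} {y : I → Eu d} (hy : ∀ k, ‖y k‖ ≤ M) (h : I → ℝ) {x : Eu d}
    (hx : ‖x‖ ≤ R) : |lagPhi y h x| ≤ R * M + ‖h‖ := by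
  obtain ⟨k, hk⟩ := exists_lagPhi_eq y h x
  rw [hk]
  exact abs_aff_le hy h k hx

lemma lagPhi_sub_le (y : I → Eu d) (h h' : I → ℝ) (x : Eu d) :
    lagPhi y h x - lagPhi y h' x ≤ ‖h - h'‖ := by
  obtain ⟨k, hk⟩ := exists_lagPhi_eq y h x
  rw [hk]
  have h1 := aff_le_lagPhi y h' k x
  have h2 : |(h - h') k| ≤ ‖h - h'‖ := norm_le_pi_norm (h - h') k
  have h3 := (abs_le.1 h2).1
  simp only [Pi.sub_apply] at h3
  unfold aff at h1 ⊢
  linarith

lemma abs_lagPhi_sub_le (y : I → Eu d) (h h' : I → ℝ) (x : Eu d) :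
    |lagPhi y h x - lagPhi y h' x| ≤ ‖h - h'‖ := by
  rw [abs_le]
  constructor
  · have := lagPhi_sub_le y h' h x
    rw [norm_sub_rev] at this
    linarith
  · exact lagPhi_sub_le y h h' x

/-- Integrability of the integrand of the dual functional. -/
lemma int_g_phi {K : Set (Eu d)} {R M : ℝ} (hKR : ∀ x ∈ K, ‖x‖ ≤ R) (hKtop : volume K ≠ ⊤)
    {y : I → Eu d} (hy : ∀ k, ‖y k‖ ≤ M) (h : I → ℝ) {s : Set (Eu d)}
    (hs : s ⊆ K) (hsm : MeasurableSet s)
    {g : Eu d → ℝ} (hgm : Measurable g) (hg0 : ∀ x ∈ K, 0 ≤ g x) (hg2 : ∀ x ∈ K, g x ≤ 2) :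
    IntegrableOn (fun x => g x * lagPhi y h x) s := by
  have hM0 : ∀ k, 0 ≤ M := fun k => (norm_nonneg _).trans (hy k)
  refine intOn_real hKtop hs hsm (hgm.mul (continuous_lagPhi y h).measurable)
    (B := 2 * (R * M + ‖h‖)) (fun x hx => ?_)
  rw [abs_mul, abs_of_nonneg (hg0 x hx)]
  have h1 := abs_lagPhi_le hy h (hKR x hx)
  exact mul_le_mul (hg2 x hx) h1 (abs_nonneg _) (by norm_num)

/-- Continuity of the dual functional. -/
lemma continuous_dualVal {K : Set (Eu d)} {R M : ℝ} (hKR : ∀ x ∈ K, ‖x‖ ≤ R) (hKtop : volume K ≠ ⊤)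
    (hKm : MeasurableSet K) {y : I → Eu d} (hy : ∀ k, ‖y k‖ ≤ M) {g : Eu d → ℝ}
    (hgm : Measurable g) (hg0 : ∀ x ∈ K, 0 ≤ g x) (hg2 : ∀ x ∈ K, g x ≤ 2) (m : I → ℝ) :
    Continuous (fun h : I → ℝ => dualVal K g y h m) := by
  unfold dualVal
  refine Continuous.add ?_ ?_
  · have hL : LipschitzWith (Real.toNNReal (2 * (volume K).toReal))
        (fun h : I → ℝ => ∫ x in K, g x * lagPhi y h x) := by
      apply LipschitzWith.of_dist_le_mul
      intro h h'
      rw [Real.dist_eq, dist_eq_norm, ← integral_sub (int_g_phi hKR hKtop hy h subset_rfl hKm hgm hg0 hg2)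
        (int_g_phi hKR hKtop hy h' subset_rfl hKm hgm hg0 hg2)]
      have := norm_setIntegral_le_of_norm_le_const (μ := volume) (s := K)
        (f := fun x => g x * lagPhi y h x - g x * lagPhi y h' x) (C := 2 * ‖h - h'‖)
        hKtop.lt_top (fun x hx => by
          rw [← mul_sub, norm_mul, Real.norm_eq_abs, Real.norm_eq_abs, abs_of_nonneg (hg0 x hx)]
          exact mul_le_mul (hg2 x hx) (abs_lagPhi_sub_le y h h' x) (abs_nonneg _) (by norm_num))
      rw [Real.norm_eq_abs] at this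
      refine this.trans (le_of_eq ?_)
      rw [Real.coe_toNNReal _ (by positivity), Measure.real]
      ring
    exact hL.continuous
  · exact continuous_finset_sum _ (fun k _ => continuous_const.mul (continuous_apply k))

/-- Translation invariance of the dual functional. -/
lemma dualVal_translate {K : Set (Eu d)} {R M : ℝ} (hKR : ∀ x ∈ K, ‖x‖ ≤ R) (hKtop : volume K ≠ ⊤)
    (hKm : MeasurableSet K) {y : I → Eu d} (hy : ∀ k, ‖y k‖ ≤ M) {g : Eu d → ℝ}
    (hgm : Measurable g) (hg0 : ∀ x ∈ K, 0 ≤ g x) (hg2 : ∀ x ∈ K, g x ≤ 2) {m : I → ℝ}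
    (hsum : ∑ k, m k = ∫ x in K, g x) (h : I → ℝ) (c : ℝ) :
    dualVal K g y (fun k => h k - c) m = dualVal K g y h m := by
  unfold dualVal
  have e1 : ∀ x, lagPhi y (fun k => h k - c) x = lagPhi y h x + c := by
    intro x
    apply le_antisymm
    · obtain ⟨k, hk⟩ := exists_lagPhi_eq y (fun k => h k - c) x
      rw [hk]
      have := aff_le_lagPhi y h k x
      unfold aff at this ⊢
      linarith
    · obtain ⟨k, hk⟩ := exists_lagPhi_eq y h x
      rw [hk]
      have := aff_le_lagPhi y (fun k => h k - c) k x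
      unfold aff at this ⊢
      linarith
  simp only [e1, mul_add, mul_sub, Finset.sum_sub_distrib, ← Finset.sum_mul, hsum]
  have i1 := int_g_phi hKR hKtop hy h subset_rfl hKm hgm hg0 hg2
  have i2 : IntegrableOn g K := by
    refine intOn_real hKtop subset_rfl hKm hgm (B := 2) (fun x hx => ?_)
    rw [abs_of_nonneg (hg0 x hx)]
    exact hg2 x hx
  have i3 : IntegrableOn (fun x => g x * c) K := i2.mul_const c
  rw [integral_add i1 i3, integral_mul_const]
  ring

/-- The margin cells. -/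
def mcell (K : Set (Eu d)) (y : I → Eu d) (h : I → ℝ) (k : I) (t : ℝ) : Set (Eu d) :=
  {x | x ∈ K ∧ ∀ l, l ≠ k → aff y h l x + t ≤ aff y h k x}

lemma measurableSet_mcell {K : Set (Eu d)} (hK : MeasurableSet K) (y : I → Eu d) (h : I → ℝ) (k : I)
    (t : ℝ) : MeasurableSet (mcell K y h k t) := by
  have : mcell K y h k t = K ∩ ⋂ l, ⋂ (_ : l ≠ k), {x | aff y h l x + t ≤ aff y h k x} := by
    ext x
    simp [mcell]
  rw [this]
  apply hK.inter
  apply MeasurableSet.iInter
  intro l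
  apply MeasurableSet.iInter
  intro _
  exact measurableSet_le ((continuous_aff y h l).measurable.add_const t) (continuous_aff y h k).measurable

/-- Raising one weight. -/
noncomputable def raise [DecidableEq I] (h : I → ℝ) (k : I) (t : ℝ) : I → ℝ :=
  fun l => if l = k then h l + t else h l

lemma lagPhi_raise_le [DecidableEq I] (y : I → Eu d) (h : I → ℝ) (k : I) {t : ℝ} (ht : 0 ≤ t)
    (x : Eu d) : lagPhi y (raise h k t) x ≤ lagPhi y h x := by
  obtain ⟨l, hl⟩ := exists_lagPhi_eq y (raise h k t) x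
  rw [hl]
  refine le_trans ?_ (aff_le_lagPhi y h l x)
  unfold aff raise
  by_cases e : l = k
  · simp only [e, if_true]; linarith
  · simp only [e, if_false]; exact le_rfl

lemma lagPhi_raise_mcell [DecidableEq I] {K : Set (Eu d)} {y : I → Eu d} {h : I → ℝ} {k : I} {t : ℝ}
    {x : Eu d} (hx : x ∈ mcell K y h k t) : lagPhi y (raise h k t) x ≤ lagPhi y h x - t := by
  obtain ⟨l, hl⟩ := exists_lagPhi_eq y (raise h k t) x
  rw [hl]
  have h1 := aff_le_lagPhi y h k x
  by_cases e : l = k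
  · subst e
    have : aff y (raise h l t) l x = aff y h l x - t := by
      unfold aff raise
      simp
      ring
    rw [this]
    linarith
  · have : aff y (raise h k t) l x = aff y h l x := by
      unfold aff raise
      simp [e]
    rw [this]
    have := hx.2 l e
    linarith

lemma sum_raise [DecidableEq I] (m h : I → ℝ) (k : I) (t : ℝ) :
    ∑ l, m l * raise h k t l = ∑ l, m l * h l + m k * t := by
  have e : ∀ l, m l * raise h k t l = m l * h l + (if l = k then m l * t else 0) := by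
    intro l
    unfold raise
    split_ifs <;> ring
  simp only [e, Finset.sum_add_distrib]
  simp

/-- The first order condition. -/
lemma first_order [DecidableEq I] {K : Set (Eu d)} {R M : ℝ} (hKR : ∀ x ∈ K, ‖x‖ ≤ R)
    (hKtop : volume K ≠ ⊤) (hKm : MeasurableSet K) {y : I → Eu d} (hy : ∀ k, ‖y k‖ ≤ M)
    {g : Eu d → ℝ} (hgm : Measurable g) (hg0 : ∀ x ∈ K, 0 ≤ g x) (hg2 : ∀ x ∈ K, g x ≤ 2)
    {m h : I → ℝ} {k : I} {t : ℝ} (ht : 0 < t)
    (hmin : dualVal K g y h m ≤ dualVal K g y (raise h k t) m) :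
    ∫ x in mcell K y h k t, g x ≤ m k := by
  have hsub : mcell K y h k t ⊆ K := fun x hx => hx.1
  have hsm := measurableSet_mcell hKm y h k t
  unfold dualVal at hmin
  rw [sum_raise] at hmin
  have i1 := int_g_phi hKR hKtop hy h subset_rfl hKm hgm hg0 hg2
  have i2 := int_g_phi hKR hKtop hy (raise h k t) subset_rfl hKm hgm hg0 hg2
  have ig : IntegrableOn g K := by
    refine intOn_real hKtop subset_rfl hKm hgm (B := 2) (fun x hx => ?_)
    rw [abs_of_nonneg (hg0 x hx)]
    exact hg2 x hx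
  have i3 : IntegrableOn (fun x => (mcell K y h k t).indicator g x) K := ig.indicator hsm
  have i4 : IntegrableOn (fun x => g x * lagPhi y h x - t * (mcell K y h k t).indicator g x) K :=
    i1.sub (i3.const_mul t)
  have key : ∫ x in K, g x * lagPhi y (raise h k t) x
      ≤ ∫ x in K, (g x * lagPhi y h x - t * (mcell K y h k t).indicator g x) := by
    apply setIntegral_mono_on i2 i4 hKm
    intro x hx
    by_cases hxm : x ∈ mcell K y h k t
    · rw [indicator_of_mem hxm]
      have h1 := lagPhi_raise_mcell hxm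
      have h2 := hg0 x hx
      nlinarith
    · rw [indicator_of_notMem hxm]
      have h1 := lagPhi_raise_le y h k ht.le x
      have h2 := hg0 x hx
      nlinarith
  rw [integral_sub i1 (i3.const_mul t), integral_const_mul, setIntegral_indicator hsm,
    inter_eq_right.2 hsub] at key
  have : t * ∫ x in mcell K y h k t, g x ≤ t * m k := by nlinarith
  exact le_of_mul_le_mul_left this ht

/-- Existence of a good minimizer. -/
lemma exists_good_min [DecidableEq I] {K : Set (Eu d)} {R M : ℝ} (hR : 0 ≤ R) (hKR : ∀ x ∈ K, ‖x‖ ≤ R)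
    (hKtop : volume K ≠ ⊤) (hKm : MeasurableSet K) {y : I → Eu d} (hy : ∀ k, ‖y k‖ ≤ M)
    {g : Eu d → ℝ} (hgm : Measurable g) (hg0 : ∀ x ∈ K, 0 ≤ g x) (hg2 : ∀ x ∈ K, g x ≤ 2)
    {m : I → ℝ} (hm : ∀ k, 0 < m k) (hsum : ∑ k, m k = ∫ x in K, g x) :
    ∃ h : I → ℝ, ∀ k, ∃ ε > 0, ∀ t, 0 < t → t < ε →
      dualVal K g y h m ≤ dualVal K g y (raise h k t) m := by
  obtain ⟨k₀⟩ := ‹Nonempty I›
  have hM : 0 ≤ M := (norm_nonneg _).trans (hy k₀)
  set G := ∫ x in K, g x with hG
  have hG0 : 0 ≤ G := setIntegral_nonneg hKm hg0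
  have ig : IntegrableOn g K := by
    refine intOn_real hKtop subset_rfl hKm hgm (B := 2) (fun x hx => ?_)
    rw [abs_of_nonneg (hg0 x hx)]
    exact hg2 x hx
  obtain ⟨k₁, -, hk₁⟩ := Finset.exists_min_image Finset.univ m Finset.univ_nonempty
  set mm := m k₁ with hmm
  have hmm0 : 0 < mm := hm k₁
  set B : ℝ := (2 * (R * M * G) + 1) / mm with hB
  have hB0 : 0 < B := by rw [hB]; positivity
  set S : Set (I → ℝ) := Set.pi univ (fun _ => Icc 0 B) with hS
  have hSc : IsCompact S := isCompact_univ_pi (fun _ => isCompact_Icc)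
  have hSne : S.Nonempty := ⟨fun _ => 0, fun _ _ => ⟨le_rfl, hB0.le⟩⟩
  have hcont := continuous_dualVal hKR hKtop hKm hy hgm hg0 hg2 m
  obtain ⟨h₀, hh₀S, hh₀⟩ := hSc.exists_isMinOn hSne hcont.continuousOn
  obtain ⟨k₂, -, hk₂⟩ := Finset.exists_min_image Finset.univ h₀ Finset.univ_nonempty
  set c := h₀ k₂ with hc
  set h : I → ℝ := fun k => h₀ k - c with hh
  have hval : dualVal K g y h m = dualVal K g y h₀ m :=
    dualVal_translate hKR hKtop hKm hy hgm hg0 hg2 hsum h₀ c
  have hc0 : 0 ≤ c := (hh₀S k₂ (mem_univ _)).1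
  have hh0 : ∀ k, 0 ≤ h k := fun k => by
    have := hk₂ k (Finset.mem_univ k)
    simp only [hh]
    linarith
  have hhle : ∀ k, h k ≤ B := fun k => by
    have := (hh₀S k (mem_univ _)).2
    simp only [hh]
    linarith
  have hminS : ∀ h' ∈ S, dualVal K g y h m ≤ dualVal K g y h' m := fun h' hh' => by
    rw [hval]
    exact hh₀ hh'
  -- upper bound of the value at the origin
  have hup : dualVal K g y (fun _ => 0) m ≤ R * M * G := by
    unfold dualVal
    simp only [mul_zero, Finset.sum_const_zero, add_zero]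
    have e : R * M * G = ∫ x in K, g x * (R * M) := by
      rw [integral_mul_const, hG]; ring
    rw [e]
    apply setIntegral_mono_on (int_g_phi hKR hKtop hy _ subset_rfl hKm hgm hg0 hg2)
      (ig.mul_const _) hKm
    intro x hx
    have h1 := abs_lagPhi_le hy (fun _ => (0 : ℝ)) (hKR x hx)
    have h2 : ‖(fun _ => (0 : ℝ) : I → ℝ)‖ = 0 := by
      have : (fun _ => (0 : ℝ) : I → ℝ) = 0 := rfl
      rw [this, norm_zero]
    rw [h2, add_zero] at h1
    have h3 := (abs_le.1 h1).2
    exact mul_le_mul_of_nonneg_left h3 (hg0 x hx)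
  -- lower bound
  have hlow : ∀ l, m l * h l - R * M * G ≤ dualVal K g y h m := by
    intro l
    unfold dualVal
    have h1 : m l * h l ≤ ∑ k, m k * h k :=
      Finset.single_le_sum (f := fun k => m k * h k)
        (fun k _ => mul_nonneg (hm k).le (hh0 k)) (Finset.mem_univ l)
    have h2 : -(R * M * G) ≤ ∫ x in K, g x * lagPhi y h x := by
      have e : -(R * M * G) = ∫ x in K, g x * (-(R * M)) := by
        rw [integral_mul_const, hG]; ring
      rw [e]
      apply setIntegral_mono_on (ig.mul_const _)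
        (int_g_phi hKR hKtop hy _ subset_rfl hKm hgm hg0 hg2) hKm
      intro x hx
      refine mul_le_mul_of_nonneg_left ?_ (hg0 x hx)
      have h3 := aff_le_lagPhi y h k₂ x
      have h4 : h k₂ = 0 := by simp [hh, hc]
      unfold aff at h3
      rw [h4, sub_zero] at h3
      have h5 : |inner ℝ x (y k₂)| ≤ ‖x‖ * ‖y k₂‖ := abs_real_inner_le_norm _ _
      have h6 : ‖x‖ * ‖y k₂‖ ≤ R * M :=
        mul_le_mul (hKR x hx) (hy k₂) (norm_nonneg _) hR
      have h7 := (abs_le.1 h5).1
      linarith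
    linarith
  have hlt : ∀ l, h l < B := by
    intro l
    have h1 := hlow l
    have h2 := hminS (fun _ => 0) (fun _ _ => ⟨le_rfl, hB0.le⟩)
    have h3 : mm * h l ≤ m l * h l :=
      mul_le_mul_of_nonneg_right (hk₁ l (Finset.mem_univ l)) (hh0 l)
    rw [hB, lt_div_iff₀ hmm0]
    nlinarith
  refine ⟨h, fun k => ⟨B - h k, by linarith [hlt k], fun t ht ht' => ?_⟩⟩
  apply hminS
  intro l _
  unfold raise
  split_ifs with e
  · subst e
    exact ⟨by linarith [hh0 l], by linarith⟩
  · exact ⟨hh0 l, hhle l⟩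

/-- A cell is almost everywhere the increasing union of its margin cells. -/
lemma cell_ae_eq_iUnion {K : Set (Eu d)} {y : I → Eu d} (hy : Function.Injective y) (h : I → ℝ) (k : I) :
    cell K y h k =ᵐ[volume] ⋃ n : ℕ, mcell K y h k (1 / ((n : ℝ) + 1)) := by
  have hN : volume (⋃ l : {l // l ≠ k}, {x : Eu d | inner ℝ x (y l - y k) = h l - h k}) = 0 := by
    apply measure_iUnion_null
    intro l
    exact volume_hyperplane (sub_ne_zero.2 (fun e => l.2 (hy e))) _
  rw [Filter.eventuallyEq_set]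
  filter_upwards [measure_eq_zero_iff_ae_notMem.1 hN] with x hx
  constructor
  · intro hxc
    have hne : ∀ l, l ≠ k → aff y h l x < aff y h k x := by
      intro l hl
      apply lt_of_le_of_ne (hxc.2 l)
      intro e
      apply hx
      refine mem_iUnion.2 ⟨⟨l, hl⟩, ?_⟩
      simp only [mem_setOf_eq, inner_sub_right]
      unfold aff at e
      linarith
    have hev : ∀ l : I, ∀ᶠ n : ℕ in atTop, l ≠ k → aff y h l x + 1 / ((n : ℝ) + 1) ≤ aff y h k x := by
      intro l
      by_cases hl : l = k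
      · exact Eventually.of_forall (fun n e => absurd hl e)
      · have h1 := hne l hl
        have h2 : ∀ᶠ n : ℕ in atTop, 1 / ((n : ℝ) + 1) < aff y h k x - aff y h l x :=
          (tendsto_one_div_add_atTop_nhds_zero_nat (𝕜 := ℝ)).eventually_lt_const (by linarith)
        filter_upwards [h2] with n hn _
        linarith
    obtain ⟨n, hn⟩ := (Filter.eventually_all.2 hev).exists
    exact mem_iUnion.2 ⟨n, hxc.1, fun l hl => hn l hl⟩
  · intro hxu
    obtain ⟨n, hn⟩ := mem_iUnion.1 hxu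
    refine ⟨hn.1, fun l => ?_⟩
    by_cases hl : l = k
    · rw [hl]
    · have := hn.2 l hl
      have h0 : (0 : ℝ) < 1 / ((n : ℝ) + 1) := by positivity
      linarith

/-- Existence of balanced weights. -/
theorem exists_balanced {K : Set (Eu d)} {R : ℝ} (hR : 0 ≤ R) (hKR : ∀ x ∈ K, ‖x‖ ≤ R)
    (hKtop : volume K ≠ ⊤) (hKm : MeasurableSet K) {y : I → Eu d} (hinj : Function.Injective y)
    {g : Eu d → ℝ} (hgm : Measurable g) (hg0 : ∀ x ∈ K, 0 ≤ g x) (hg2 : ∀ x ∈ K, g x ≤ 2)
    {m : I → ℝ} (hm : ∀ k, 0 < m k) (hsum : ∑ k, m k = ∫ x in K, g x) :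
    ∃ h : I → ℝ, ∀ k, ∫ x in cell K y h k, g x = m k := by
  classical
  have hy : ∀ k, ‖y k‖ ≤ ∑ l, ‖y l‖ := fun k =>
    Finset.single_le_sum (f := fun l => ‖y l‖) (fun l _ => norm_nonneg _) (Finset.mem_univ k)
  obtain ⟨h, hh⟩ := exists_good_min hR hKR hKtop hKm hy hgm hg0 hg2 hm hsum
  refine ⟨h, ?_⟩
  have ig : IntegrableOn g K := by
    refine intOn_real hKtop subset_rfl hKm hgm (B := 2) (fun x hx => ?_)
    rw [abs_of_nonneg (hg0 x hx)]
    exact hg2 x hx
  have hle : ∀ k, ∫ x in cell K y h k, g x ≤ m k := by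
    intro k
    rw [setIntegral_congr_set (cell_ae_eq_iUnion hinj h k)]
    obtain ⟨ε, hε, hmin⟩ := hh k
    have hmono : Monotone (fun n : ℕ => mcell K y h k (1 / ((n : ℝ) + 1))) := by
      intro a b hab x hx
      refine ⟨hx.1, fun l hl => ?_⟩
      have h1 := hx.2 l hl
      have h2 : 1 / ((b : ℝ) + 1) ≤ 1 / ((a : ℝ) + 1) := by
        apply one_div_le_one_div_of_le (by positivity)
        have : (a : ℝ) ≤ b := by exact_mod_cast hab
        linarith
      linarith
    have hU : (⋃ n : ℕ, mcell K y h k (1 / ((n : ℝ) + 1))) ⊆ K :=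
      iUnion_subset (fun n x hx => hx.1)
    have ht := tendsto_setIntegral_of_monotone (μ := volume) (f := g)
      (fun n : ℕ => measurableSet_mcell hKm y h k (1 / ((n : ℝ) + 1))) hmono (ig.mono_set hU)
    apply le_of_tendsto ht
    have h2 : ∀ᶠ n : ℕ in atTop, 1 / ((n : ℝ) + 1) < ε :=
      (tendsto_one_div_add_atTop_nhds_zero_nat (𝕜 := ℝ)).eventually_lt_const hε
    filter_upwards [h2] with n hn
    exact first_order hKR hKtop hKm hy hgm hg0 hg2 (by positivity) (hmin _ (by positivity) hn)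
  have hs : ∑ k, ∫ x in cell K y h k, g x = ∑ k, m k := by
    rw [sum_cells hKm hinj h ig, hsum]
  exact fun k => (Finset.sum_eq_sum_iff_of_le (fun k _ => hle k)).1 hs k (Finset.mem_univ k)

end Vale.Agent.Lib.P074
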