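import Vale.Agent.Lib.P074.Masses

/-!
Approximation of general measures by discrete ones, and the sharp exponent.
-/

open MeasureTheory ENNReal NNReal Set Metric Filter Topology

namespace Vale.Agent.Lib.P074

variable {d : ℕ}

/-- The cost of the image coupling bounds the Wasserstein distance. -/
lemma W2sq_map_le {X : Type*} [MeasurableSpace X] (π : Measure X) {U V : X → Eu d} (hU : Measurable U)
    (hV : Measurable V) : W2sq (π.map U) (π.map V) ≤ ∫⁻ x, ‖U x - V x‖ₑ ^ 2 ∂π := by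
  have hUV : Measurable fun x => (U x, V x) := hU.prodMk hV
  unfold W2sq
  refine iInf₂_le_of_le (π.map (fun x => (U x, V x))) ⟨?_, ?_⟩ (le_of_eq ?_)
  · rw [Measure.map_map measurable_fst hUV]
    rfl
  · rw [Measure.map_map measurable_snd hUV]
    rfl
  · rw [lintegral_map (by fun_prop) hUV]

/-- The squared distance as a real integral. -/
lemma L2sq_eq {K : Set (Eu d)} (hKc : IsCompact K) {A B : Eu d → Eu d} (hA : Measurable A)
    (hB : Measurable B) {M : ℝ} (hAb : ∀ x, ‖A x‖ ≤ M) (hBb : ∀ x, ‖B x‖ ≤ M) :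
    L2sq (unif K) A B = ENNReal.ofReal ((volume K).toReal⁻¹ * ∫ x in K, ‖A x - B x‖ ^ 2) := by
  have hKtop : volume K ≠ ⊤ := hKc.measure_lt_top.ne
  unfold L2sq
  rw [unif, lintegral_smul_measure]
  have hbd : Integrable (fun x => ‖A x - B x‖ ^ 2) (volume.restrict K) :=
    integrableOn_of_bound (C := (2 * M) ^ 2) (by fun_prop) (fun x => by
      rw [abs_of_nonneg (by positivity)]
      have : ‖A x - B x‖ ≤ 2 * M := (norm_sub_le _ _).trans (by linarith [hAb x, hBb x])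
      gcongr) hKtop
  have e2 := ofReal_integral_eq_lintegral_ofReal hbd (Eventually.of_forall fun x => by positivity)
  have e3 : ∫⁻ x, ‖A x - B x‖ₑ ^ 2 ∂(volume.restrict K)
      = ENNReal.ofReal (∫ x in K, ‖A x - B x‖ ^ 2) := by
    rw [e2]
    apply lintegral_congr
    intro x
    rw [← ofReal_norm, ENNReal.ofReal_pow (norm_nonneg _)]
  rw [e3, smul_eq_mul]
  by_cases hV : (volume K) = 0
  · simp [hV]
  · have hVpos : 0 < (volume K).toReal := ENNReal.toReal_pos hV hKtop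
    rw [ENNReal.ofReal_mul (inv_nonneg.2 hVpos.le), ENNReal.ofReal_inv_of_pos hVpos,
      ENNReal.ofReal_toReal hKtop]

/-- The integral of the discretized cost. -/
lemma cost_disc {π : Measure (Eu d × Eu d)} [IsProbabilityMeasure π] {M ε : ℝ} (hM : 0 ≤ M)
    (hε : 0 < ε) (hae1 : ∀ᵐ p ∂π, ‖p.1‖ ≤ M) (hae2 : ∀ᵐ p ∂π, ‖p.2‖ ≤ M)
    {D : Eu d × Eu d → ℝ} (hDi : Integrable (fun p => D p ^ 2) π)
    (hD : ∀ᵐ p ∂π, |D p| ≤ ‖p.1 - p.2‖ + 2 * ε) :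
    ∫ p, D p ^ 2 ∂π ≤ (∫ p, ‖p.1 - p.2‖ ^ 2 ∂π) + 8 * M * ε + 4 * ε ^ 2 := by
  have hi : Integrable (fun p : Eu d × Eu d => ‖p.1 - p.2‖ ^ 2) π := by
    refine Integrable.of_bound (by fun_prop) ((2 * M) ^ 2) ?_
    filter_upwards [hae1, hae2] with p h1 h2
    rw [Real.norm_eq_abs, abs_of_nonneg (by positivity)]
    have : ‖p.1 - p.2‖ ≤ 2 * M := (norm_sub_le _ _).trans (by linarith)
    gcongr
  have e : (∫ p, ‖p.1 - p.2‖ ^ 2 ∂π) + 8 * M * ε + 4 * ε ^ 2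
      = ∫ p : Eu d × Eu d, (‖p.1 - p.2‖ ^ 2 + (8 * M * ε + 4 * ε ^ 2)) ∂π := by
    rw [integral_add hi (integrable_const _)]
    simp
    ring
  rw [e]
  have hi2 : Integrable (fun p : Eu d × Eu d => ‖p.1 - p.2‖ ^ 2 + (8 * M * ε + 4 * ε ^ 2)) π :=
    hi.add (integrable_const _)
  apply integral_mono_ae hDi hi2
  filter_upwards [hae1, hae2, hD] with p h1 h2 h3
  have h4 : ‖p.1 - p.2‖ ≤ 2 * M := (norm_sub_le _ _).trans (by linarith)
  have h5 : D p ^ 2 ≤ (‖p.1 - p.2‖ + 2 * ε) ^ 2 := by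
    rw [← sq_abs]
    exact pow_le_pow_left₀ (abs_nonneg _) h3 2
  refine h5.trans ?_
  have h6 : 0 ≤ ‖p.1 - p.2‖ := norm_nonneg _
  nlinarith

/-- The discretization of a coupling. -/
theorem exists_disc (hd : 1 ≤ d) {K : Set (Eu d)} (hKc : IsCompact K) (hKconv : Convex ℝ K)
    (hK0 : volume K ≠ 0) {R : ℝ} (hR : 0 < R) (hKR : ∀ x ∈ K, ‖x‖ ≤ R)
    {π : Measure (Eu d × Eu d)} [IsProbabilityMeasure π] {M ε : ℝ} (hM : 0 ≤ M)
    (hε : 0 < ε) (hε1 : ε ≤ 1) (hae1 : ∀ᵐ p ∂π, ‖p.1‖ ≤ M) (hae2 : ∀ᵐ p ∂π, ‖p.2‖ ≤ M) :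
    ∃ (I : Type) (_ : Fintype I) (_ : Nonempty I) (y₀ y₁ : I → Eu d) (m h₀ h₁ : I → ℝ)
      (A B : Eu d × Eu d → Eu d),
      PD K R y₀ y₁ m ∧
      (∀ k, ∫ x in cell K y₀ h₀ k, (1 : ℝ) = m k) ∧
      (∀ k, ∫ x in cell K y₁ h₁ k, (1 : ℝ) = m k) ∧
      (∀ k, ‖y₀ k‖ ≤ M + 1) ∧ (∀ k, ‖y₁ k‖ ≤ M + 1) ∧
      Measurable A ∧ Measurable B ∧ (∀ p, ‖A p‖ ≤ M + 1) ∧ (∀ p, ‖B p‖ ≤ M + 1) ∧
      (unif K).map (lagT y₀ h₀) = π.map A ∧ (unif K).map (lagT y₁ h₁) = π.map B ∧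
      (∀ᵐ p ∂π, ‖p.1 - A p‖ ≤ 2 * ε) ∧ (∀ᵐ p ∂π, ‖p.2 - B p‖ ≤ 2 * ε) ∧
      ∑ k, m k * ‖y₁ k - y₀ k‖ ^ 2
        ≤ (volume K).toReal * ((∫ p, ‖p.1 - p.2‖ ^ 2 ∂π) + 8 * M * ε + 4 * ε ^ 2) := by
  classical
  have hKm := hKc.measurableSet
  have hKtop : volume K ≠ ⊤ := hKc.measure_lt_top.ne
  have hV : 0 < (volume K).toReal := ENNReal.toReal_pos hK0 hKtop
  obtain ⟨J, _, _, a, q, hq, haM, hqz⟩ := exists_quantizer (d := d) hM hε
  obtain ⟨Q, hQd⟩ : ∃ Q : Eu d × Eu d → J × J, Q = fun p => (q p.1, q p.2) := ⟨_, rfl⟩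
  have hQ : ∀ k, MeasurableSet (Q ⁻¹' {k}) := by
    rintro ⟨i, j⟩
    have : Q ⁻¹' {(i, j)} = (Prod.fst ⁻¹' (q ⁻¹' {i})) ∩ (Prod.snd ⁻¹' (q ⁻¹' {j})) := by
      ext p
      simp [hQd]
    rw [this]
    exact (measurable_fst (hq i)).inter (measurable_snd (hq j))
  obtain ⟨g, hginj, hgb⟩ := exists_inj_family hd (J × J)
  obtain ⟨δ, hδ0, hδε, hδinj⟩ := exists_delta (fun p : J × J => a p.1) (fun p : J × J => a p.2) g hginj hε
  obtain ⟨G₀, hG₀d⟩ : ∃ G₀ : J × J → Eu d, G₀ = fun p => a p.1 + δ • g p := ⟨_, rfl⟩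
  obtain ⟨G₁, hG₁d⟩ : ∃ G₁ : J × J → Eu d, G₁ = fun p => a p.2 + δ • g p := ⟨_, rfl⟩
  have hinj : ∀ r : ℚ, Function.Injective (fun p => G₀ p + (r : ℝ) • (G₁ p - G₀ p)) := by
    rw [hG₀d, hG₁d]
    exact hδinj
  have hG₀ : Function.Injective G₀ := by
    have := hinj 0
    simpa using this
  have hG₁ : Function.Injective G₁ := by
    have := hinj 1
    simpa using this
  have hδg : ∀ p, ‖δ • g p‖ ≤ ε := fun p => by
    rw [norm_smul, Real.norm_eq_abs, abs_of_pos hδ0]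
    have := hgb p
    nlinarith [norm_nonneg (g p)]
  have hG₀b : ∀ p, ‖G₀ p‖ ≤ M + 1 := fun p => by
    rw [hG₀d]
    exact (norm_add_le _ _).trans (add_le_add (haM _) ((hδg p).trans hε1))
  have hG₁b : ∀ p, ‖G₁ p‖ ≤ M + 1 := fun p => by
    rw [hG₁d]
    exact (norm_add_le _ _).trans (add_le_add (haM _) ((hδg p).trans hε1))
  have hIf : Fintype (PosIdx π Q) := Fintype.ofFinite _
  have hIn : Nonempty (PosIdx π Q) := posIdx_nonempty hQ
  have hG₀I : Function.Injective (fun k : PosIdx π Q => G₀ k.1) :=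
    hG₀.comp Subtype.val_injective
  have hG₁I : Function.Injective (fun k : PosIdx π Q => G₁ k.1) :=
    hG₁.comp Subtype.val_injective
  obtain ⟨h₀, hb₀, hpush₀⟩ := disc_one hKc hK0 hR.le hKR hQ hG₀I
  obtain ⟨h₁, hb₁, hpush₁⟩ := disc_one hKc hK0 hR.le hKR hQ hG₁I
  have hP : PD K R (fun k : PosIdx π Q => G₀ k.1) (fun k : PosIdx π Q => G₁ k.1)
      (fun k : PosIdx π Q => (volume K).toReal * massOf π Q k.1) := by
    refine ⟨hR, hKR, hKm, hKtop, hKconv, fun r => (hinj r).comp Subtype.val_injective,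
      fun k => mul_pos hV k.2, ?_⟩
    have h1 := sum_posIdx π Q (fun _ => (1 : ℝ))
    simp only [mul_one] at h1
    rw [← Finset.mul_sum, h1, sum_massOf hQ, mul_one]
  have hae : ∀ᵐ p ∂π, ‖p.1 - a (q p.1)‖ ≤ ε ∧ ‖p.2 - a (q p.2)‖ ≤ ε := by
    filter_upwards [hae1, hae2] with p h1 h2
    exact ⟨hqz _ h1, hqz _ h2⟩
  refine ⟨PosIdx π Q, hIf, hIn, fun k => G₀ k.1, fun k => G₁ k.1,
    fun k => (volume K).toReal * massOf π Q k.1, h₀, h₁,
    fun p => G₀ (Q p), fun p => G₁ (Q p), hP, hb₀, hb₁, fun k => hG₀b _, fun k => hG₁b _,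
    fin_measurable hQ G₀, fin_measurable hQ G₁, fun p => hG₀b _, fun p => hG₁b _, hpush₀, hpush₁,
    ?_, ?_, ?_⟩
  · filter_upwards [hae] with p hp
    rw [hG₀d, hQd]
    simp only
    have e : p.1 - (a (q p.1) + δ • g (q p.1, q p.2)) = (p.1 - a (q p.1)) - δ • g (q p.1, q p.2) := by
      abel
    rw [e]
    refine (norm_sub_le _ _).trans ?_
    linarith [hp.1, hδg (q p.1, q p.2)]
  · filter_upwards [hae] with p hp
    rw [hG₁d, hQd]
    simp only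
    have e : p.2 - (a (q p.2) + δ • g (q p.1, q p.2)) = (p.2 - a (q p.2)) - δ • g (q p.1, q p.2) := by
      abel
    rw [e]
    refine (norm_sub_le _ _).trans ?_
    linarith [hp.2, hδg (q p.1, q p.2)]
  · have e1 : ∑ k : PosIdx π Q, (volume K).toReal * massOf π Q k.1 * ‖G₁ k.1 - G₀ k.1‖ ^ 2
        = (volume K).toReal * ∫ p, ‖G₁ (Q p) - G₀ (Q p)‖ ^ 2 ∂π := by
      rw [integral_fin (π := π) hQ (fun p => ‖G₁ p - G₀ p‖ ^ 2),
        ← sum_posIdx π Q (fun p => ‖G₁ p - G₀ p‖ ^ 2), Finset.mul_sum]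
      exact Finset.sum_congr rfl (fun k _ => by ring)
    rw [e1]
    apply mul_le_mul_of_nonneg_left _ hV.le
    apply cost_disc hM hε hae1 hae2 (D := fun p => ‖G₁ (Q p) - G₀ (Q p)‖)
    · refine Integrable.of_bound ?_ ((2 * (M + 1)) ^ 2) (Eventually.of_forall fun p => ?_)
      · exact (fin_measurable hQ (fun p => ‖G₁ p - G₀ p‖ ^ 2)).aestronglyMeasurable
      · rw [Real.norm_eq_abs, abs_of_nonneg (by positivity)]
        apply pow_le_pow_left₀ (norm_nonneg _)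
        exact (norm_sub_le _ _).trans (by linarith [hG₀b (Q p), hG₁b (Q p)])
    · filter_upwards [hae] with p hp
      rw [abs_of_nonneg (norm_nonneg _), hG₀d, hG₁d, hQd]
      simp only
      have e : a (q p.2) + δ • g (q p.1, q p.2) - (a (q p.1) + δ • g (q p.1, q p.2))
          = (p.1 - a (q p.1)) - (p.1 - p.2) - (p.2 - a (q p.2)) := by
        abel
      rw [e]
      refine (norm_sub_le _ _).trans ?_
      have h1 := norm_sub_le (p.1 - a (q p.1)) (p.1 - p.2)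
      linarith [hp.1, hp.2]

/-- A bound in the extended reals from an almost everywhere bound. -/
lemma lintegral_sq_le {X : Type*} [MeasurableSpace X] {π : Measure X} [IsProbabilityMeasure π]
    {U V : X → Eu d} {b : ℝ} (hb : 0 ≤ b) (h : ∀ᵐ x ∂π, ‖U x - V x‖ ≤ b) :
    ∫⁻ x, ‖U x - V x‖ₑ ^ 2 ∂π ≤ ENNReal.ofReal (b ^ 2) := by
  have h1 : ∀ᵐ x ∂π, ‖U x - V x‖ₑ ^ 2 ≤ ENNReal.ofReal (b ^ 2) := by
    filter_upwards [h] with x hx
    rw [ENNReal.ofReal_pow hb]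
    gcongr
    rw [← ofReal_norm]
    exact ENNReal.ofReal_le_ofReal hx
  calc ∫⁻ x, ‖U x - V x‖ₑ ^ 2 ∂π ≤ ∫⁻ _, ENNReal.ofReal (b ^ 2) ∂π := lintegral_mono_ae h1
    _ = _ := by simp

/-- The constant in the estimate at level `ε`. -/
noncomputable def bdE (d : ℕ) (M R r τ X : ℝ) : ℝ :=
  d * (16 * (M + 1) ^ 2 * (d * (τ / r)) + 7680 * R ^ 2 * X / τ ^ 2)

/-- The distance of the two discrete maps. -/
lemma disc_L2 {K : Set (Eu d)} (hKc : IsCompact K) (hKconv : Convex ℝ K) {c : Eu d} {r : ℝ}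
    (hr : 0 < r) (hball : closedBall c r ⊆ K) (hK0 : volume K ≠ 0)
    {R : ℝ} {I : Type} [Fintype I] [Nonempty I] {y₀ y₁ : I → Eu d} {m : I → ℝ}
    (P : PD K R y₀ y₁ m) {h₀ h₁ : I → ℝ}
    (hh₀ : ∀ k, ∫ x in cell K y₀ h₀ k, (1 : ℝ) = m k)
    (hh₁ : ∀ k, ∫ x in cell K y₁ h₁ k, (1 : ℝ) = m k) {M : ℝ} (hy₀ : ∀ k, ‖y₀ k‖ ≤ M + 1)
    (hy₁ : ∀ k, ‖y₁ k‖ ≤ M + 1) {τ : ℝ} (hτ : 0 < τ) (hτr : τ < r) {X : ℝ}
    (hX : ∑ k, m k * ‖y₁ k - y₀ k‖ ^ 2 ≤ (volume K).toReal * X) :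
    L2sq (unif K) (lagT y₀ h₀) (lagT y₁ h₁) ≤ ENNReal.ofReal (bdE d M R r τ X) := by
  have hKtop : volume K ≠ ⊤ := hKc.measure_lt_top.ne
  have hV : 0 < (volume K).toReal := ENNReal.toReal_pos hK0 hKtop
  rw [L2sq_eq hKc (measurable_lagT _ _) (measurable_lagT _ _) (norm_lagT_le hy₀ h₀)
    (norm_lagT_le hy₁ h₁)]
  apply ENNReal.ofReal_le_ofReal
  have key := map_estimate hKc hKconv hr hball P hh₀ hh₁ hy₀ hy₁ hτ hτr
  rw [inv_mul_le_iff₀ hV]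
  refine key.trans ?_
  unfold bdE
  have hτ2 : 0 < τ ^ 2 := by positivity
  have h1 : 7680 * R ^ 2 * (∑ k, m k * ‖y₁ k - y₀ k‖ ^ 2) / τ ^ 2
      ≤ 7680 * R ^ 2 * ((volume K).toReal * X) / τ ^ 2 := by
    gcongr
  have hd0 : (0 : ℝ) ≤ d := Nat.cast_nonneg d
  calc (d : ℝ) * (16 * (M + 1) ^ 2 * (d * (τ / r) * (volume K).toReal)
        + 7680 * R ^ 2 * (∑ k, m k * ‖y₁ k - y₀ k‖ ^ 2) / τ ^ 2)
      ≤ d * (16 * (M + 1) ^ 2 * (d * (τ / r) * (volume K).toReal)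
        + 7680 * R ^ 2 * ((volume K).toReal * X) / τ ^ 2) := by gcongr
    _ = _ := by ring

/-- The estimate at level `ε`. -/
theorem eps_bound (hd : 1 ≤ d) {K : Set (Eu d)} (hKc : IsCompact K) (hKconv : Convex ℝ K) {c : Eu d}
    {r : ℝ} (hr : 0 < r) (hball : closedBall c r ⊆ K) (hK0 : volume K ≠ 0)
    {R : ℝ} (hR : 0 < R) (hKR : ∀ x ∈ K, ‖x‖ ≤ R) {M : ℝ} (hM : 0 ≤ M) {Cq : ℝ≥0}
    (hq : ∀ μ ν : Measure (Eu d), IsProbabilityMeasure μ → IsProbabilityMeasure ν →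
      μ (closedBall 0 (M + 1))ᶜ = 0 → ν (closedBall 0 (M + 1))ᶜ = 0 →
      ∀ T S : Eu d → Eu d, IsOTMap (unif K) μ T → IsOTMap (unif K) ν S →
        (L2sq (unif K) T S) ^ (1 / 2 : ℝ) ≤ (Cq : ℝ≥0∞) * (W2sq μ ν) ^ ((1 / 4 : ℝ) / 2))
    {μ ν : Measure (Eu d)} [IsProbabilityMeasure μ] [IsProbabilityMeasure ν]
    (hμ : μ (closedBall 0 M)ᶜ = 0) (hν : ν (closedBall 0 M)ᶜ = 0) {T S : Eu d → Eu d}
    (hT : IsOTMap (unif K) μ T) (hS : IsOTMap (unif K) ν S) {π : Measure (Eu d × Eu d)}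
    (hπ : IsCoupling π μ ν) {τ : ℝ} (hτ : 0 < τ) (hτr : τ < r) {ε : ℝ} (hε : 0 < ε) (hε1 : ε ≤ 1) :
    (L2sq (unif K) T S) ^ (1 / 2 : ℝ)
      ≤ (Cq : ℝ≥0∞) * (ENNReal.ofReal ((2 * ε) ^ 2)) ^ ((1 / 4 : ℝ) / 2)
        + (ENNReal.ofReal (bdE d M R r τ ((∫ p, ‖p.1 - p.2‖ ^ 2 ∂π) + 8 * M * ε + 4 * ε ^ 2)))
            ^ (1 / 2 : ℝ)
        + (Cq : ℝ≥0∞) * (ENNReal.ofReal ((2 * ε) ^ 2)) ^ ((1 / 4 : ℝ) / 2) := by
  obtain ⟨hπ1, hπ2⟩ := hπ
  have hπprob : IsProbabilityMeasure π := by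
    constructor
    have := Measure.map_apply (μ := π) (f := Prod.fst) measurable_fst MeasurableSet.univ
    rw [hπ1] at this
    simpa using this.symm.trans measure_univ
  have hae1 : ∀ᵐ p ∂π, ‖p.1‖ ≤ M := by
    have : π (Prod.fst ⁻¹' (closedBall (0 : Eu d) M)ᶜ) = 0 := by
      rw [← Measure.map_apply measurable_fst measurableSet_closedBall.compl, hπ1, hμ]
    filter_upwards [measure_eq_zero_iff_ae_notMem.1 this] with p hp
    simpa using hp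
  have hae2 : ∀ᵐ p ∂π, ‖p.2‖ ≤ M := by
    have : π (Prod.snd ⁻¹' (closedBall (0 : Eu d) M)ᶜ) = 0 := by
      rw [← Measure.map_apply measurable_snd measurableSet_closedBall.compl, hπ2, hν]
    filter_upwards [measure_eq_zero_iff_ae_notMem.1 this] with p hp
    simpa using hp
  obtain ⟨I, _, _, y₀, y₁, m, h₀, h₁, A, B, P, hb₀, hb₁, hy₀, hy₁, hA, hB, hAb, hBb, hpush₀, hpush₁,
    hAe, hBe, hcost⟩ := exists_disc hd hKc hKconv hK0 hR hKR hM hε hε1 hae1 hae2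
  have hinj₀ := P.inj₀
  have hinj₁ := P.inj₁
  have hT' : IsOTMap (unif K) (π.map A) (lagT y₀ h₀) := by
    rw [← hpush₀]
    exact lag_isOT hKc hK0 hinj₀ h₀
  have hS' : IsOTMap (unif K) (π.map B) (lagT y₁ h₁) := by
    rw [← hpush₁]
    exact lag_isOT hKc hK0 hinj₁ h₁
  have hμ'p : IsProbabilityMeasure (π.map A) := Measure.isProbabilityMeasure_map hA.aemeasurable
  have hν'p : IsProbabilityMeasure (π.map B) := Measure.isProbabilityMeasure_map hB.aemeasurable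
  have hcar : ∀ {U : Eu d × Eu d → Eu d}, Measurable U → (∀ p, ‖U p‖ ≤ M + 1) →
      (π.map U) (closedBall 0 (M + 1))ᶜ = 0 := by
    intro U hU hUb
    rw [Measure.map_apply hU measurableSet_closedBall.compl]
    have : U ⁻¹' (closedBall (0 : Eu d) (M + 1))ᶜ = ∅ := by
      ext p
      simp [hUb p]
    rw [this, measure_empty]
  have hsub : (closedBall (0 : Eu d) (M + 1))ᶜ ⊆ (closedBall (0 : Eu d) M)ᶜ :=
    compl_subset_compl.2 (closedBall_subset_closedBall (by linarith))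
  have hμ1 : μ (closedBall 0 (M + 1))ᶜ = 0 := measure_mono_null hsub hμ
  have hν1 : ν (closedBall 0 (M + 1))ᶜ = 0 := measure_mono_null hsub hν
  have hε0 : 0 ≤ 2 * ε := by positivity
  have hW1 : W2sq μ (π.map A) ≤ ENNReal.ofReal ((2 * ε) ^ 2) := by
    rw [← hπ1]
    exact (W2sq_map_le π measurable_fst hA).trans (lintegral_sq_le hε0 hAe)
  have hW2 : W2sq (π.map B) ν ≤ ENNReal.ofReal ((2 * ε) ^ 2) := by
    rw [← hπ2]
    refine (W2sq_map_le π hB measurable_snd).trans (lintegral_sq_le hε0 ?_)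
    filter_upwards [hBe] with p hp
    rwa [norm_sub_rev]
  have h1 := hq μ (π.map A) inferInstance hμ'p hμ1 (hcar hA hAb) T _ hT hT'
  have h3 := hq (π.map B) ν hν'p inferInstance (hcar hB hBb) hν1 _ S hS' hS
  have h1' : (L2sq (unif K) T (lagT y₀ h₀)) ^ (1 / 2 : ℝ)
      ≤ (Cq : ℝ≥0∞) * (ENNReal.ofReal ((2 * ε) ^ 2)) ^ ((1 / 4 : ℝ) / 2) :=
    h1.trans (by gcongr)
  have h3' : (L2sq (unif K) (lagT y₁ h₁) S) ^ (1 / 2 : ℝ)
      ≤ (Cq : ℝ≥0∞) * (ENNReal.ofReal ((2 * ε) ^ 2)) ^ ((1 / 4 : ℝ) / 2) :=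
    h3.trans (by gcongr)
  have h2 := disc_L2 hKc hKconv hr hball hK0 P hb₀ hb₁ hy₀ hy₁ hτ hτr hcost
  have h2' : (L2sq (unif K) (lagT y₀ h₀) (lagT y₁ h₁)) ^ (1 / 2 : ℝ)
      ≤ (ENNReal.ofReal (bdE d M R r τ ((∫ p, ‖p.1 - p.2‖ ^ 2 ∂π) + 8 * M * ε + 4 * ε ^ 2)))
          ^ (1 / 2 : ℝ) := by
    gcongr
  have hTm := hT.1
  have hSm := hS.1
  have hT'm := measurable_lagT y₀ h₀
  have hS'm := measurable_lagT y₁ h₁
  calc (L2sq (unif K) T S) ^ (1 / 2 : ℝ)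
      ≤ (L2sq (unif K) T (lagT y₁ h₁)) ^ (1 / 2 : ℝ) + (L2sq (unif K) (lagT y₁ h₁) S) ^ (1 / 2 : ℝ) :=
        L2_triangle hTm hS'm hSm
    _ ≤ ((L2sq (unif K) T (lagT y₀ h₀)) ^ (1 / 2 : ℝ)
          + (L2sq (unif K) (lagT y₀ h₀) (lagT y₁ h₁)) ^ (1 / 2 : ℝ))
        + (L2sq (unif K) (lagT y₁ h₁) S) ^ (1 / 2 : ℝ) := by
        gcongr
        exact L2_triangle hTm hT'm hS'm
    _ ≤ _ := by gcongr

/-- The estimate in the limit `ε → 0`. -/
theorem tau_bound (hd : 1 ≤ d) {K : Set (Eu d)} (hKc : IsCompact K) (hKconv : Convex ℝ K) {c : Eu d}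
    {r : ℝ} (hr : 0 < r) (hball : closedBall c r ⊆ K) (hK0 : volume K ≠ 0)
    {R : ℝ} (hR : 0 < R) (hKR : ∀ x ∈ K, ‖x‖ ≤ R) {M : ℝ} (hM : 0 ≤ M) {Cq : ℝ≥0}
    (hq : ∀ μ ν : Measure (Eu d), IsProbabilityMeasure μ → IsProbabilityMeasure ν →
      μ (closedBall 0 (M + 1))ᶜ = 0 → ν (closedBall 0 (M + 1))ᶜ = 0 →
      ∀ T S : Eu d → Eu d, IsOTMap (unif K) μ T → IsOTMap (unif K) ν S →
        (L2sq (unif K) T S) ^ (1 / 2 : ℝ) ≤ (Cq : ℝ≥0∞) * (W2sq μ ν) ^ ((1 / 4 : ℝ) / 2))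
    {μ ν : Measure (Eu d)} [IsProbabilityMeasure μ] [IsProbabilityMeasure ν]
    (hμ : μ (closedBall 0 M)ᶜ = 0) (hν : ν (closedBall 0 M)ᶜ = 0) {T S : Eu d → Eu d}
    (hT : IsOTMap (unif K) μ T) (hS : IsOTMap (unif K) ν S) {π : Measure (Eu d × Eu d)}
    (hπ : IsCoupling π μ ν) {τ : ℝ} (hτ : 0 < τ) (hτr : τ < r) :
    L2sq (unif K) T S ≤ ENNReal.ofReal (bdE d M R r τ (∫ p, ‖p.1 - p.2‖ ^ 2 ∂π)) := by
  obtain ⟨cost, hcost⟩ : ∃ cost, cost = ∫ p, ‖p.1 - p.2‖ ^ 2 ∂π := ⟨_, rfl⟩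
  rw [← hcost]
  have hcost0 : 0 ≤ cost := by
    rw [hcost]
    exact integral_nonneg (fun p => sq_nonneg _)
  have hd0 : (0 : ℝ) ≤ d := Nat.cast_nonneg d
  -- the real function of `ε`
  obtain ⟨f, hf⟩ : ∃ f : ℝ → ℝ, f = fun ε => 2 * (Cq : ℝ) * ((2 * ε) ^ 2) ^ ((1 / 4 : ℝ) / 2)
      + (bdE d M R r τ (cost + 8 * M * ε + 4 * ε ^ 2)) ^ (1 / 2 : ℝ) := ⟨_, rfl⟩
  have hfc : Continuous f := by
    rw [hf]
    refine Continuous.add ?_ ?_
    · refine continuous_const.mul (Continuous.rpow_const (by fun_prop) (fun _ => Or.inr (by norm_num)))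
    · refine Continuous.rpow_const ?_ (fun _ => Or.inr (by norm_num))
      unfold bdE
      fun_prop
  have hf0 : f 0 = (bdE d M R r τ cost) ^ (1 / 2 : ℝ) := by
    rw [hf]
    simp only
    have e1 : ((2 * (0 : ℝ)) ^ 2) ^ ((1 / 4 : ℝ) / 2) = 0 := by
      rw [mul_zero]
      norm_num
    have e2 : cost + 8 * M * 0 + 4 * (0 : ℝ) ^ 2 = cost := by ring
    rw [e1, e2, mul_zero, zero_add]
  have hbd0 : ∀ X, 0 ≤ X → 0 ≤ bdE d M R r τ X := fun X hX => by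
    unfold bdE
    positivity
  have hstep : ∀ ε, 0 < ε → ε ≤ 1 →
      (L2sq (unif K) T S) ^ (1 / 2 : ℝ) ≤ ENNReal.ofReal (f ε) := by
    intro ε hε hε1
    have h1 := eps_bound hd hKc hKconv hr hball hK0 hR hKR hM hq hμ hν hT hS hπ hτ hτr hε hε1
    rw [← hcost] at h1
    refine h1.trans (le_of_eq ?_)
    have hX : 0 ≤ cost + 8 * M * ε + 4 * ε ^ 2 := by positivity
    rw [hf]
    simp only
    have hCq : (Cq : ℝ≥0∞) = ENNReal.ofReal (Cq : ℝ) := by simp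
    have hu0 : 0 ≤ ((2 * ε) ^ 2) ^ ((1 / 4 : ℝ) / 2) := Real.rpow_nonneg (by positivity) _
    have hv0 : 0 ≤ (bdE d M R r τ (cost + 8 * M * ε + 4 * ε ^ 2)) ^ (1 / 2 : ℝ) :=
      Real.rpow_nonneg (hbd0 _ hX) _
    have hCq0 : 0 ≤ (Cq : ℝ) := Cq.2
    rw [ENNReal.ofReal_rpow_of_nonneg (by positivity) (by norm_num),
      ENNReal.ofReal_rpow_of_nonneg (hbd0 _ hX) (by norm_num), hCq,
      ← ENNReal.ofReal_mul hCq0, ← ENNReal.ofReal_add (mul_nonneg hCq0 hu0) hv0,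
      ← ENNReal.ofReal_add (add_nonneg (mul_nonneg hCq0 hu0) hv0) (mul_nonneg hCq0 hu0)]
    congr 1
    ring
  have hlim : Tendsto (fun ε => ENNReal.ofReal (f ε)) (𝓝[>] 0) (𝓝 (ENNReal.ofReal (f 0))) := by
    apply Tendsto.mono_left _ nhdsWithin_le_nhds
    exact (ENNReal.continuous_ofReal.comp hfc).tendsto 0
  have hle : (L2sq (unif K) T S) ^ (1 / 2 : ℝ) ≤ ENNReal.ofReal (f 0) := by
    apply ge_of_tendsto hlim
    have h1 : Ioc (0 : ℝ) 1 ∈ 𝓝[>] (0 : ℝ) := Ioc_mem_nhdsGT (by norm_num)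
    filter_upwards [h1] with ε hε
    exact hstep ε hε.1 hε.2
  rw [hf0, ← ENNReal.ofReal_rpow_of_nonneg (hbd0 _ hcost0) (by norm_num)] at hle
  have h2 := ENNReal.rpow_le_rpow hle (z := (2 : ℝ)) (by norm_num)
  rw [← ENNReal.rpow_mul, ← ENNReal.rpow_mul] at h2
  norm_num at h2
  exact h2

/-- Optimizing the step size. -/
lemma real_opt {a cost A r R D : ℝ} {dd : ℝ} (hdd : 1 ≤ dd) (ha : 0 ≤ a) (hcost : 0 ≤ cost)
    (hA : 0 ≤ A) (hr : 0 < r) (hR : 0 < R) (hD : 0 ≤ D) (haA : a ≤ A)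
    (hτ : ∀ τ, 0 < τ → τ < r → a ≤ dd * (D * (dd * (τ / r)) + 7680 * R ^ 2 * cost / τ ^ 2)) :
    a ^ 3 ≤ (dd * (D * dd / r + 7680 * R ^ 2) + A / r) ^ 3 * cost := by
  set C := dd * (D * dd / r + 7680 * R ^ 2) + A / r with hC
  have hdd0 : 0 < dd := by linarith
  have hC1 : 0 ≤ dd * (D * dd / r + 7680 * R ^ 2) := by positivity
  have hC2 : 0 ≤ A / r := by positivity
  have hC0 : 0 ≤ C := by rw [hC]; positivity
  set t := cost ^ ((1 : ℝ) / 3) with ht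
  have ht0 : 0 ≤ t := by rw [ht]; positivity
  have ht3 : t ^ 3 = cost := by
    rw [ht, ← Real.rpow_natCast, ← Real.rpow_mul hcost]
    norm_num
  have hat : a ≤ C * t := by
    rcases ht0.eq_or_lt with h0 | h0
    · -- the case of zero cost
      have hc0 : cost = 0 := by
        rw [← ht3, ← h0]
        norm_num
      have h1 : a ≤ 0 := by
        by_contra hpos
        rw [not_le] at hpos
        set E := dd * (D * dd) / r with hE
        have hE0 : 0 ≤ E := by rw [hE]; positivity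
        set τ := min (r / 2) (a / (2 * (E + 1))) with hτd
        have hτ0 : 0 < τ := lt_min (by linarith) (by positivity)
        have hτr : τ < r := (min_le_left _ _).trans_lt (by linarith)
        have h2 := hτ τ hτ0 hτr
        rw [hc0] at h2
        have e1 : dd * (D * (dd * (τ / r)) + 7680 * R ^ 2 * 0 / τ ^ 2) = E * τ := by
          rw [hE]
          field_simp
          ring
        rw [e1] at h2
        have h3 : τ ≤ a / (2 * (E + 1)) := min_le_right _ _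
        have h4 : E * τ ≤ E * (a / (2 * (E + 1))) := by gcongr
        have h5 : E * (a / (2 * (E + 1))) < a := by
          rw [mul_div_assoc', div_lt_iff₀ (by positivity)]
          nlinarith
        linarith
      rw [← h0, mul_zero]
      exact h1
    · rcases lt_or_ge t r with htr | htr
      · have h2 := hτ t h0 htr
        have e1 : dd * (D * (dd * (t / r)) + 7680 * R ^ 2 * cost / t ^ 2)
            = (dd * (D * dd / r + 7680 * R ^ 2)) * t := by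
          rw [← ht3]
          field_simp
        rw [e1] at h2
        have h3 : (dd * (D * dd / r + 7680 * R ^ 2)) * t ≤ C * t := by
          gcongr
          rw [hC]
          linarith
        linarith
      · have h2 : A ≤ A / r * t := by
          rw [div_mul_eq_mul_div, le_div_iff₀ hr]
          gcongr
        have h3 : A / r * t ≤ C * t := by
          gcongr
          rw [hC]
          linarith
        linarith
  calc a ^ 3 ≤ (C * t) ^ 3 := pow_le_pow_left₀ ha hat 3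
    _ = C ^ 3 * t ^ 3 := by ring
    _ = _ := by rw [ht3]

/-- Passage to exponents in the extended nonnegative reals. -/
lemma final_pow3 {a q C₆ : ℝ} (ha : 0 ≤ a) (hC : 0 ≤ C₆) (h : a ^ 3 ≤ C₆ * q)
    {W : ℝ≥0∞} (hW : ENNReal.ofReal q ≤ W) :
    (ENNReal.ofReal a) ^ (1 / 2 : ℝ)
      ≤ ENNReal.ofReal (C₆ ^ (1 / 6 : ℝ)) * W ^ ((1 / 3 : ℝ) / 2) := by
  have e1 : (1 / 3 : ℝ) / 2 = 1 / 6 := by norm_num
  rw [e1]
  have h1 : (ENNReal.ofReal a) ^ (1 / 2 : ℝ) = (ENNReal.ofReal (a ^ 3)) ^ (1 / 6 : ℝ) := by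
    rw [ENNReal.ofReal_pow ha, ← ENNReal.rpow_natCast, ← ENNReal.rpow_mul]
    norm_num
  rw [h1, ← ENNReal.ofReal_rpow_of_nonneg hC (by norm_num)]
  calc (ENNReal.ofReal (a ^ 3)) ^ (1 / 6 : ℝ)
      ≤ (ENNReal.ofReal C₆ * W) ^ (1 / 6 : ℝ) := by
        gcongr
        calc ENNReal.ofReal (a ^ 3) ≤ ENNReal.ofReal (C₆ * q) := ENNReal.ofReal_le_ofReal h
          _ = ENNReal.ofReal C₆ * ENNReal.ofReal q := ENNReal.ofReal_mul hC
          _ ≤ _ := by gcongr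
    _ = _ := ENNReal.mul_rpow_of_nonneg _ _ (by norm_num)

/-- The cost of a coupling as a real integral. -/
lemma coupling_cost {μ ν : Measure (Eu d)} [IsProbabilityMeasure μ] {M : ℝ}
    (hμ : μ (closedBall 0 M)ᶜ = 0) (hν : ν (closedBall 0 M)ᶜ = 0) {π : Measure (Eu d × Eu d)}
    (hπ : IsCoupling π μ ν) :
    ∫⁻ p, ‖p.1 - p.2‖ₑ ^ 2 ∂π = ENNReal.ofReal (∫ p, ‖p.1 - p.2‖ ^ 2 ∂π) := by
  obtain ⟨hπ1, hπ2⟩ := hπ
  have hπprob : IsProbabilityMeasure π := by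
    constructor
    have := Measure.map_apply (μ := π) (f := Prod.fst) measurable_fst MeasurableSet.univ
    rw [hπ1] at this
    simpa using this.symm.trans measure_univ
  have hae1 : ∀ᵐ p ∂π, ‖p.1‖ ≤ M := by
    have : π (Prod.fst ⁻¹' (closedBall (0 : Eu d) M)ᶜ) = 0 := by
      rw [← Measure.map_apply measurable_fst measurableSet_closedBall.compl, hπ1, hμ]
    filter_upwards [measure_eq_zero_iff_ae_notMem.1 this] with p hp
    simpa using hp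
  have hae2 : ∀ᵐ p ∂π, ‖p.2‖ ≤ M := by
    have : π (Prod.snd ⁻¹' (closedBall (0 : Eu d) M)ᶜ) = 0 := by
      rw [← Measure.map_apply measurable_snd measurableSet_closedBall.compl, hπ2, hν]
    filter_upwards [measure_eq_zero_iff_ae_notMem.1 this] with p hp
    simpa using hp
  have hi : Integrable (fun p : Eu d × Eu d => ‖p.1 - p.2‖ ^ 2) π := by
    refine Integrable.of_bound (by fun_prop) ((2 * M) ^ 2) ?_
    filter_upwards [hae1, hae2] with p h1 h2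
    rw [Real.norm_eq_abs, abs_of_nonneg (by positivity)]
    have : ‖p.1 - p.2‖ ≤ 2 * M := (norm_sub_le _ _).trans (by linarith)
    gcongr
  rw [ofReal_integral_eq_lintegral_ofReal hi (Eventually.of_forall fun p => by positivity)]
  apply lintegral_congr
  intro p
  exact enorm_sq' _

/-- An optimal map takes its values in the carrying ball almost everywhere. -/
lemma ae_norm_le {μ : Measure (Eu d)} {K : Set (Eu d)} {T : Eu d → Eu d} (hT : IsOTMap (unif K) μ T)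
    {M : ℝ} (hμ : μ (closedBall 0 M)ᶜ = 0) : ∀ᵐ x ∂(unif K), ‖T x‖ ≤ M := by
  have h1 : unif K (T ⁻¹' (closedBall (0 : Eu d) M)ᶜ) = 0 := by
    rw [← Measure.map_apply hT.1 measurableSet_closedBall.compl, hT.2.1, hμ]
  filter_upwards [measure_eq_zero_iff_ae_notMem.1 h1] with x hx
  simpa using hx

/-- The exponent one third is admissible in every dimension `d ≥ 1`. -/
theorem admissible_one_third (hd : 1 ≤ d) : Admissible d (1 / 3) := by
  intro K hKc hKconv hKint Y hYc _hYne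
  have hKtop : volume K ≠ ⊤ := hKc.measure_lt_top.ne
  have hKpos : 0 < volume K := by
    obtain ⟨c, hc⟩ := hKint
    have : volume (interior K) ≠ 0 :=
      (isOpen_interior.measure_pos volume ⟨c, hc⟩).ne'
    exact lt_of_lt_of_le (pos_iff_ne_zero.2 this) (measure_mono interior_subset)
  have hK0 : volume K ≠ 0 := hKpos.ne'
  obtain ⟨c, hc⟩ := id hKint
  obtain ⟨r, hr, hball⟩ : ∃ r > 0, closedBall c r ⊆ K := by
    have := mem_interior_iff_mem_nhds.1 hc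
    exact Metric.nhds_basis_closedBall.mem_iff.1 this
  obtain ⟨R₀, hR₀⟩ := hKc.isBounded.exists_norm_le
  obtain ⟨R, hRdef⟩ : ∃ R : ℝ, R = |R₀| + 1 := ⟨_, rfl⟩
  have hRpos : 0 < R := by rw [hRdef]; positivity
  have hR : ∀ x ∈ K, ‖x‖ ≤ R := by
    intro x hx
    have := hR₀ x hx
    have := le_abs_self R₀
    rw [hRdef]
    linarith
  obtain ⟨M₀, hM₀⟩ := hYc.isBounded.exists_norm_le
  obtain ⟨M, hMdef⟩ : ∃ M : ℝ, M = |M₀| + 1 := ⟨_, rfl⟩
  have hM : 0 ≤ M := by rw [hMdef]; positivity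
  have hYM : Y ⊆ closedBall 0 M := by
    intro y hy
    have := hM₀ y hy
    have := le_abs_self M₀
    simp only [mem_closedBall_zero_iff]
    rw [hMdef]
    linarith
  obtain ⟨Cq, hCq⟩ := admissible_one_quarter hd K hKc hKconv hKint (closedBall 0 (M + 1))
    (isCompact_closedBall _ _) ⟨0, by simp; linarith⟩
  have hq : ∀ μ ν : Measure (Eu d), IsProbabilityMeasure μ → IsProbabilityMeasure ν →
      μ (closedBall 0 (M + 1))ᶜ = 0 → ν (closedBall 0 (M + 1))ᶜ = 0 →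
      ∀ T S : Eu d → Eu d, IsOTMap (unif K) μ T → IsOTMap (unif K) ν S →
        (L2sq (unif K) T S) ^ (1 / 2 : ℝ) ≤ (Cq : ℝ≥0∞) * (W2sq μ ν) ^ ((1 / 4 : ℝ) / 2) :=
    fun μ ν h1 h2 h3 h4 T S h5 h6 => hCq μ ν h1 h2 h3 h4 T S h5 h6
  obtain ⟨dd, hdd⟩ : ∃ dd : ℝ, dd = d := ⟨_, rfl⟩
  have hdd1 : 1 ≤ dd := by rw [hdd]; exact_mod_cast hd
  obtain ⟨D, hD⟩ : ∃ D : ℝ, D = 16 * (M + 1) ^ 2 := ⟨_, rfl⟩
  have hD0 : 0 ≤ D := by rw [hD]; positivity
  obtain ⟨A, hA⟩ : ∃ A : ℝ, A = (2 * M) ^ 2 := ⟨_, rfl⟩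
  have hA0 : 0 ≤ A := by rw [hA]; positivity
  obtain ⟨C, hC⟩ : ∃ C : ℝ, C = dd * (D * dd / r + 7680 * R ^ 2) + A / r := ⟨_, rfl⟩
  have hCpos : 0 < C := by
    rw [hC]
    have h1 : 0 < dd * (D * dd / r + 7680 * R ^ 2) := by positivity
    have h2 : 0 ≤ A / r := by positivity
    linarith
  refine ⟨((C ^ 3) ^ (1 / 6 : ℝ)).toNNReal, ?_⟩
  intro μ ν hμp hνp hμ hν T S hT hS
  have hμ' : μ (closedBall 0 M)ᶜ = 0 := measure_mono_null (compl_subset_compl.2 hYM) hμ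
  have hν' : ν (closedBall 0 M)ᶜ = 0 := measure_mono_null (compl_subset_compl.2 hYM) hν
  have hρ : IsProbabilityMeasure (unif K) := isProb_unif hK0 hKtop
  have hXA : L2sq (unif K) T S ≤ ENNReal.ofReal A := by
    rw [hA]
    apply lintegral_sq_le (by positivity)
    filter_upwards [ae_norm_le hT hμ', ae_norm_le hS hν'] with x h1 h2
    exact (norm_sub_le _ _).trans (by linarith)
  have hXtop : L2sq (unif K) T S ≠ ⊤ := (hXA.trans_lt ENNReal.ofReal_lt_top).ne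
  obtain ⟨a, ha⟩ : ∃ a, a = (L2sq (unif K) T S).toReal := ⟨_, rfl⟩
  have hXa : L2sq (unif K) T S = ENNReal.ofReal a := by
    rw [ha, ENNReal.ofReal_toReal hXtop]
  have ha0 : 0 ≤ a := by rw [ha]; exact ENNReal.toReal_nonneg
  rw [hXa] at hXA ⊢
  have haA : a ≤ A := (ENNReal.ofReal_le_ofReal_iff hA0).1 hXA
  have hW : ENNReal.ofReal (a ^ 3 / C ^ 3) ≤ W2sq μ ν := by
    unfold W2sq
    refine le_iInf₂ fun π hπ => ?_
    rw [coupling_cost hμ' hν' hπ]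
    apply ENNReal.ofReal_le_ofReal
    rw [div_le_iff₀ (by positivity), mul_comm]
    rw [hC]
    have hcost0 : 0 ≤ ∫ p, ‖p.1 - p.2‖ ^ 2 ∂π := integral_nonneg (fun p => sq_nonneg _)
    apply real_opt hdd1 ha0 hcost0 hA0 hr hRpos hD0 haA
    intro τ hτ hτr
    have h1 := tau_bound hd hKc hKconv hr hball hK0 hRpos hR hM hq hμ' hν' hT hS hπ hτ hτr
    rw [hXa] at h1
    have h2 : 0 ≤ bdE d M R r τ (∫ p, ‖p.1 - p.2‖ ^ 2 ∂π) := by
      unfold bdE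
      positivity
    have h3 := (ENNReal.ofReal_le_ofReal_iff h2).1 h1
    rw [hdd, hD]
    exact h3
  have hfin : a ^ 3 ≤ C ^ 3 * (a ^ 3 / C ^ 3) := by
    apply le_of_eq
    field_simp
  have := final_pow3 ha0 (by positivity) hfin hW
  exact this

end Vale.Agent.Lib.P074
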