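import Vale.Agent.Lib.P074.Cell2

/-!
Laguerre cells: basic facts, and the comparison of barycenters.
-/

open MeasureTheory ENNReal NNReal Set Metric Filter Topology

namespace Vale.Agent.Lib.P074

variable {d : ℕ} {I : Type*} [Fintype I] [Nonempty I]

/-- The affine functions. -/
noncomputable def aff (y : I → Eu d) (h : I → ℝ) (k : I) (x : Eu d) : ℝ := inner ℝ x (y k) - h k

/-- The piecewise affine convex function. -/
noncomputable def lagPhi (y : I → Eu d) (h : I → ℝ) (x : Eu d) : ℝ :=
  Finset.univ.sup' Finset.univ_nonempty (fun k => aff y h k x)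

/-- The Laguerre cells. -/
def cell (K : Set (Eu d)) (y : I → Eu d) (h : I → ℝ) (k : I) : Set (Eu d) :=
  {x | x ∈ K ∧ ∀ l, aff y h l x ≤ aff y h k x}

lemma aff_le_lagPhi (y : I → Eu d) (h : I → ℝ) (k : I) (x : Eu d) : aff y h k x ≤ lagPhi y h x :=
  Finset.le_sup' (fun k => aff y h k x) (Finset.mem_univ k)

lemma exists_lagPhi_eq (y : I → Eu d) (h : I → ℝ) (x : Eu d) : ∃ k, lagPhi y h x = aff y h k x := by
  obtain ⟨k, -, hk⟩ := Finset.exists_mem_eq_sup' Finset.univ_nonempty (fun k => aff y h k x)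
  exact ⟨k, hk⟩

lemma lagPhi_eq_of_mem {K : Set (Eu d)} {y : I → Eu d} {h : I → ℝ} {k : I} {x : Eu d}
    (hx : x ∈ cell K y h k) : lagPhi y h x = aff y h k x := by
  apply le_antisymm _ (aff_le_lagPhi y h k x)
  exact Finset.sup'_le _ _ (fun l _ => hx.2 l)

lemma continuous_aff (y : I → Eu d) (h : I → ℝ) (k : I) : Continuous (aff y h k) := by
  unfold aff
  fun_prop

lemma continuous_lagPhi (y : I → Eu d) (h : I → ℝ) : Continuous (lagPhi y h) := by
  unfold lagPhi
  have : (fun x => Finset.univ.sup' Finset.univ_nonempty (fun k => aff y h k x))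
      = Finset.univ.sup' Finset.univ_nonempty (fun k => aff y h k) := by
    ext x
    rw [Finset.sup'_apply]
  rw [this]
  exact Continuous.finset_sup' _ (fun k _ => continuous_aff y h k)

lemma measurableSet_cell {K : Set (Eu d)} (hK : MeasurableSet K) (y : I → Eu d) (h : I → ℝ) (k : I) :
    MeasurableSet (cell K y h k) := by
  have : cell K y h k = K ∩ ⋂ l, {x | aff y h l x ≤ aff y h k x} := by
    ext x
    simp [cell]
  rw [this]
  apply hK.inter
  apply MeasurableSet.iInter
  intro l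
  exact measurableSet_le (continuous_aff y h l).measurable (continuous_aff y h k).measurable

lemma cell_subset (K : Set (Eu d)) (y : I → Eu d) (h : I → ℝ) (k : I) : cell K y h k ⊆ K :=
  fun _ hx => hx.1

lemma iUnion_cell (K : Set (Eu d)) (y : I → Eu d) (h : I → ℝ) : ⋃ k, cell K y h k = K := by
  apply subset_antisymm
  · exact iUnion_subset (cell_subset K y h)
  · intro x hx
    obtain ⟨k, hk⟩ := exists_lagPhi_eq y h x
    refine mem_iUnion.2 ⟨k, hx, fun l => ?_⟩
    rw [← hk]
    exact aff_le_lagPhi y h l x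

/-- A hyperplane is a null set. -/
lemma volume_hyperplane {w : Eu d} (hw : w ≠ 0) (c : ℝ) : volume {x : Eu d | inner ℝ x w = c} = 0 := by
  by_cases hne : ∃ x₀ : Eu d, inner ℝ x₀ w = c
  · obtain ⟨x₀, hx₀⟩ := hne
    set L : Submodule ℝ (Eu d) := LinearMap.ker (innerSL ℝ w).toLinearMap with hL
    have hLtop : L ≠ ⊤ := by
      intro h
      have hmem : w ∈ L := by rw [h]; exact Submodule.mem_top
      have : inner ℝ w w = 0 := by simpa [hL] using hmem
      exact hw (inner_self_eq_zero.1 this)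
    have h0 : volume (L : Set (Eu d)) = 0 := Measure.addHaar_submodule volume L hLtop
    have e : {x : Eu d | inner ℝ x w = c} = (fun z => z + (-x₀)) ⁻¹' (L : Set (Eu d)) := by
      ext x
      simp only [mem_setOf_eq, mem_preimage, SetLike.mem_coe, hL, LinearMap.mem_ker]
      simp only [ContinuousLinearMap.coe_coe, innerSL_apply_apply]
      rw [inner_add_right, inner_neg_right, real_inner_comm x w, real_inner_comm x₀ w, hx₀]
      constructor
      · intro h; rw [h]; ring
      · intro h; linarith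
    rw [e, measure_preimage_add_right, h0]
  · have : {x : Eu d | inner ℝ x w = c} = ∅ := by
      ext x
      simp only [mem_setOf_eq, mem_empty_iff_false, iff_false]
      exact fun hx => hne ⟨x, hx⟩
    rw [this, measure_empty]

/-- Distinct cells are almost disjoint. -/
lemma aedisjoint_cell {K : Set (Eu d)} {y : I → Eu d} (hy : Function.Injective y) (h : I → ℝ) :
    Pairwise (Function.onFun (AEDisjoint volume) (cell K y h)) := by
  intro k l hkl
  have hw : y k - y l ≠ 0 := sub_ne_zero.2 (fun e => hkl (hy e))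
  apply measure_mono_null _ (volume_hyperplane hw (h k - h l))
  rintro x ⟨hx, hx'⟩
  have h1 := hx.2 l
  have h2 := hx'.2 k
  simp only [mem_setOf_eq, inner_sub_right]
  unfold aff at h1 h2
  linarith

/-- Sums over the cells. -/
lemma sum_cells {K : Set (Eu d)} (hK : MeasurableSet K) {y : I → Eu d}
    (hy : Function.Injective y) (h : I → ℝ) {E : Type*} [NormedAddCommGroup E] [NormedSpace ℝ E]
    {f : Eu d → E} (hf : IntegrableOn f K) :
    ∑ k, ∫ x in cell K y h k, f x = ∫ x in K, f x := by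
  have := integral_iUnion_ae (μ := volume) (s := cell K y h) (f := f)
    (fun k => (measurableSet_cell hK y h k).nullMeasurableSet) (aedisjoint_cell hy h)
    (by rwa [iUnion_cell])
  rw [iUnion_cell, tsum_fintype] at this
  exact this.symm

/-- Midpoints of points of two cells are in the mid cell. -/
lemma midpoint_mem_cell {K : Set (Eu d)} (hK : Convex ℝ K) {y : I → Eu d} {h h' : I → ℝ} {k : I}
    {x x' : Eu d} (hx : x ∈ cell K y h k) (hx' : x' ∈ cell K y h' k) :
    (1 / 2 : ℝ) • (x + x') ∈ cell K y (fun l => (h l + h' l) / 2) k := by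
  refine ⟨?_, fun l => ?_⟩
  · have := hK hx.1 hx'.1 (a := 1 / 2) (b := 1 / 2) (by norm_num) (by norm_num) (by norm_num)
    rwa [smul_add]
  · have h1 := hx.2 l
    have h2 := hx'.2 l
    unfold aff at h1 h2 ⊢
    simp only [inner_smul_left, inner_add_left]
    simp
    linarith

/-- The pointwise bound of the integrand. -/
lemma integrand_bound {g : ℝ} (h1 : 1 / 2 ≤ g) (h2 : g ≤ 2) :
    1 - g + g * Real.log g + g * Real.log g ^ 2 / 10 ≤ 6 / 5 * (g - 1) ^ 2 := by
  have h0 : 0 < g := by linarith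
  have hl1 := Real.log_le_sub_one_of_pos h0
  have hl2 := Real.one_sub_inv_le_log_of_pos h0
  have e0 : g * g⁻¹ = 1 := mul_inv_cancel₀ h0.ne'
  have h3 : g * Real.log g ≤ g * (g - 1) := by gcongr
  have h4 : g * Real.log g ^ 2 ≤ 2 * (g - 1) ^ 2 := by
    rcases le_total 1 g with h5 | h5
    · have h6 : 0 ≤ Real.log g := Real.log_nonneg h5
      have h7 : Real.log g ^ 2 ≤ (g - 1) ^ 2 := by gcongr
      nlinarith [sq_nonneg (g - 1)]
    · have h6 : Real.log g ≤ 0 := Real.log_nonpos h0.le h5
      -- `-log g ≤ g⁻¹ - 1`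
      have h7 : -Real.log g ≤ g⁻¹ - 1 := by linarith
      have h8 : Real.log g ^ 2 ≤ (g⁻¹ - 1) ^ 2 := by
        have : Real.log g ^ 2 = (-Real.log g) ^ 2 := by ring
        rw [this]
        gcongr
        linarith
      have h9 : g * (g⁻¹ - 1) ^ 2 = (1 - g) ^ 2 * g⁻¹ := by
        field_simp
      have h10 : g⁻¹ ≤ 2 := by
        rw [inv_le_comm₀ h0 (by norm_num)]
        linarith
      calc g * Real.log g ^ 2 ≤ g * (g⁻¹ - 1) ^ 2 := by gcongr
        _ = (1 - g) ^ 2 * g⁻¹ := h9
        _ ≤ (1 - g) ^ 2 * 2 := by gcongr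
        _ = _ := by ring
  nlinarith

/-- Nonnegativity of the integrand. -/
lemma integrand_nonneg {g : ℝ} (h1 : 0 < g) : 0 ≤ 1 - g + g * Real.log g + g * Real.log g ^ 2 / 10 := by
  have hl2 := Real.one_sub_inv_le_log_of_pos h1
  have e0 : g * g⁻¹ = 1 := mul_inv_cancel₀ h1.ne'
  have h3 : g * (1 - g⁻¹) ≤ g * Real.log g := by gcongr
  have h4 : 0 ≤ g * Real.log g ^ 2 / 10 := by positivity
  nlinarith

/-- The comparison of barycenters of two Laguerre tessellations with the same sites. -/
theorem bary_compare {K : Set (Eu d)} {R : ℝ} (hR : 0 < R) (hKR : ∀ x ∈ K, ‖x‖ ≤ R)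
    (hKm : MeasurableSet K) (hKtop : volume K ≠ ⊤) (hKconv : Convex ℝ K) {y : I → Eu d}
    (hy : Function.Injective y) {m : I → ℝ} (hm : ∀ k, 0 < m k) {h h' : I → ℝ}
    (hb : ∀ k, (volume (cell K y h k)).toReal = m k)
    {g : Eu d → ℝ} (hgm : Measurable g) (hg1 : ∀ x ∈ K, 1 / 2 ≤ g x) (hg2 : ∀ x ∈ K, g x ≤ 2)
    (hb' : ∀ k, ∫ x in cell K y h' k, g x = m k) :
    ∑ k, m k * ‖(m k)⁻¹ • (∫ x in cell K y h k, x) - (m k)⁻¹ • ∫ x in cell K y h' k, g x • x‖ ^ 2
      ≤ 160 * R ^ 2 * ∫ x in K, (g x - 1) ^ 2 := by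
  have hcell := fun k => cell_ineq (m := m k) hR hKR hKtop (cell_subset K y h k)
    (cell_subset K y h' k) (cell_subset K y (fun l => (h l + h' l) / 2) k)
    (measurableSet_cell hKm y h k) (measurableSet_cell hKm y h' k)
    (measurableSet_cell hKm y _ k)
    (fun x hx x' hx' => midpoint_mem_cell hKconv hx hx') hgm hg1 hg2 (hm k) (hb k) (hb' k)
  have hsum := Finset.sum_le_sum (fun k (_ : k ∈ Finset.univ) => hcell k)
  set D2 : I → ℝ := fun k =>
    ‖(m k)⁻¹ • (∫ x in cell K y h k, x) - (m k)⁻¹ • ∫ x in cell K y h' k, g x • x‖ ^ 2 with hD2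
  have hωm : Measurable (wgt R : Eu d → ℝ) := (continuous_wgt R).measurable
  have iω : IntegrableOn (wgt R) K := intOn_real hKtop subset_rfl hKm hωm (fun x _ => abs_wgt_le R x)
  have hg0 : ∀ x ∈ K, 0 < g x := fun x hx => by linarith [hg1 x hx]
  have hlm : Measurable fun x => Real.log (g x) := Real.measurable_log.comp hgm
  have hgωb : ∀ x ∈ K, |g x * wgt R x| ≤ 2 * 1 := fun x hx => by
    rw [abs_mul, abs_of_pos (hg0 x hx)]
    exact mul_le_mul (hg2 x hx) (abs_wgt_le R x) (abs_nonneg _) (by norm_num)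
  have hlog : ∀ x ∈ K, |Real.log (g x)| ≤ 1 := fun x hx => abs_log_le_one (hg1 x hx) (hg2 x hx)
  have iW : IntegrableOn (fun x => g x * wgt R x) K :=
    intOn_real hKtop subset_rfl hKm (hgm.mul hωm) hgωb
  have iL : IntegrableOn (fun x => g x * wgt R x * Real.log (g x)) K :=
    intOn_real hKtop subset_rfl hKm ((hgm.mul hωm).mul hlm) (B := 2 * 1 * 1) (fun x hx => by
      rw [abs_mul]
      exact mul_le_mul (hgωb x hx) (hlog x hx) (abs_nonneg _) (by norm_num))
  have iΛ : IntegrableOn (fun x => g x * wgt R x * Real.log (g x) ^ 2) K :=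
    intOn_real hKtop subset_rfl hKm ((hgm.mul hωm).mul (hlm.pow_const 2)) (B := 2 * 1 * 1) (fun x hx => by
      rw [abs_mul, abs_pow]
      refine mul_le_mul (hgωb x hx) ?_ (by positivity) (by norm_num)
      have := hlog x hx
      have h0 := abs_nonneg (Real.log (g x))
      nlinarith)
  have e1 := sum_cells hKm hy (fun l => (h l + h' l) / 2) iω
  have e2 := sum_cells hKm hy h iω
  have e3 := sum_cells hKm hy h' iW
  have e4 := sum_cells hKm hy h' iL
  have e5 := sum_cells hKm hy h' iΛ
  have hrhs : ∑ k, (2 * (∫ x in cell K y (fun l => (h l + h' l) / 2) k, wgt R x)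
        - (∫ x in cell K y h k, wgt R x) - (∫ x in cell K y h' k, g x * wgt R x)
        + (∫ x in cell K y h' k, g x * wgt R x * Real.log (g x))
        + (∫ x in cell K y h' k, g x * wgt R x * Real.log (g x) ^ 2) / 10)
      = (∫ x in K, wgt R x) - (∫ x in K, g x * wgt R x)
        + (∫ x in K, g x * wgt R x * Real.log (g x))
        + (∫ x in K, g x * wgt R x * Real.log (g x) ^ 2) / 10 := by
    simp only [Finset.sum_add_distrib, Finset.sum_sub_distrib, ← Finset.sum_div, ← Finset.mul_sum]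
    rw [e1, e2, e3, e4, e5]
    ring
  rw [hrhs] at hsum
  have e6 : ∑ k, 63 / (8000 * R ^ 2) * m k * D2 k = 63 / (8000 * R ^ 2) * ∑ k, m k * D2 k := by
    rw [Finset.mul_sum]
    exact Finset.sum_congr rfl (fun k _ => by ring)
  have hsq : IntegrableOn (fun x => (g x - 1) ^ 2) K :=
    intOn_real hKtop subset_rfl hKm ((hgm.sub measurable_const).pow_const 2) (B := 9) (fun x hx => by
      rw [abs_of_nonneg (by positivity)]
      have := hg1 x hx
      have := hg2 x hx
      nlinarith)
  have hint : (∫ x in K, wgt R x) - (∫ x in K, g x * wgt R x)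
        + (∫ x in K, g x * wgt R x * Real.log (g x))
        + (∫ x in K, g x * wgt R x * Real.log (g x) ^ 2) / 10
      ≤ 6 / 5 * ∫ x in K, (g x - 1) ^ 2 := by
    have i1 : IntegrableOn (fun x => wgt R x - g x * wgt R x) K := iω.sub iW
    have i2 : IntegrableOn (fun x => wgt R x - g x * wgt R x + g x * wgt R x * Real.log (g x)) K :=
      i1.add iL
    have i3 : IntegrableOn (fun x => g x * wgt R x * Real.log (g x) ^ 2 / 10) K := iΛ.div_const _
    rw [← integral_div, ← integral_sub iω iW, ← integral_add i1 iL, ← integral_add i2 i3,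
      ← integral_const_mul]
    have i4 : IntegrableOn (fun x => wgt R x - g x * wgt R x + g x * wgt R x * Real.log (g x)
        + g x * wgt R x * Real.log (g x) ^ 2 / 10) K := i2.add i3
    apply setIntegral_mono_on i4 (hsq.const_mul _) hKm
    intro x hx
    have h1 := integrand_bound (hg1 x hx) (hg2 x hx)
    have h2 := integrand_nonneg (hg0 x hx)
    have h3 := wgt_le_one (R := R) x
    have h4 := wgt_pos R x
    have e : wgt R x - g x * wgt R x + g x * wgt R x * Real.log (g x)
        + g x * wgt R x * Real.log (g x) ^ 2 / 10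
        = wgt R x * (1 - g x + g x * Real.log (g x) + g x * Real.log (g x) ^ 2 / 10) := by ring
    rw [e]
    nlinarith
  have hfin := hsum.trans hint
  rw [e6] at hfin
  have hE0 : 0 ≤ ∫ x in K, (g x - 1) ^ 2 := setIntegral_nonneg hKm (fun x _ => by positivity)
  have hR2 : 0 < R ^ 2 := by positivity
  have h7 : ∑ k, m k * D2 k ≤ (8000 * R ^ 2 / 63) * (6 / 5 * ∫ x in K, (g x - 1) ^ 2) := by
    have h8 : 63 / (8000 * R ^ 2) * (8000 * R ^ 2 / 63) = 1 := by
      field_simp
    calc ∑ k, m k * D2 k = (8000 * R ^ 2 / 63) * (63 / (8000 * R ^ 2) * ∑ k, m k * D2 k) := by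
          rw [← mul_assoc, mul_comm (8000 * R ^ 2 / 63), h8, one_mul]
      _ ≤ _ := by gcongr
  refine h7.trans ?_
  have e7 : (8000 * R ^ 2 / 63) * (6 / 5 * ∫ x in K, (g x - 1) ^ 2)
      = (9600 / 63) * (R ^ 2 * ∫ x in K, (g x - 1) ^ 2) := by ring
  have e8 : 160 * R ^ 2 * ∫ x in K, (g x - 1) ^ 2 = 160 * (R ^ 2 * ∫ x in K, (g x - 1) ^ 2) := by ring
  rw [e7, e8]
  have : 0 ≤ R ^ 2 * ∫ x in K, (g x - 1) ^ 2 := by positivity
  linarith

end Vale.Agent.Lib.P074
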