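import Vale.Agent.Lib.P074.PropI
import Vale.Agent.Lib.P074.Estimate

/-!
From the oscillation bound to the `L²` distance between two Laguerre maps.
-/

open MeasureTheory ENNReal NNReal Set Metric Filter Topology

namespace Vale.Agent.Lib.P074

variable {d : ℕ} {I : Type*} [Fintype I] [Nonempty I]

/-- The elementary pointwise inequality. -/
lemma coord_real {τ t s sp sm φp φm φ0 ψp ψm ψ0 M : ℝ} (hτ : 0 < τ)
    (h1 : τ * t ≤ φp - φ0) (h2 : φ0 - φm ≤ τ * t)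
    (h3 : ψp - ψ0 ≤ τ * sp) (h4 : τ * sm ≤ ψ0 - ψm)
    (h5 : τ * s ≤ ψp - ψ0) (h6 : ψ0 - ψm ≤ τ * s) (hM : sp - sm ≤ 2 * M) :
    (t - s) ^ 2 ≤ 3 * (2 * M * (sp - sm)
      + (((φp - ψp) - (φ0 - ψ0)) ^ 2 + ((φm - ψm) - (φ0 - ψ0)) ^ 2) / τ ^ 2) := by
  set a₁ := (φp - ψp) - (φ0 - ψ0) with ha₁
  set a₂ := (φm - ψm) - (φ0 - ψ0) with ha₂
  have hs1 : s ≤ sp := by
    have : τ * s ≤ τ * sp := by linarith
    exact le_of_mul_le_mul_left this hτ
  have hs2 : sm ≤ s := by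
    have : τ * sm ≤ τ * s := by linarith
    exact le_of_mul_le_mul_left this hτ
  have hM0 : 0 ≤ sp - sm := by linarith
  have e1 : a₁ ^ 2 / τ ^ 2 = (a₁ / τ) ^ 2 := by rw [div_pow]
  have e2 : a₂ ^ 2 / τ ^ 2 = (a₂ / τ) ^ 2 := by rw [div_pow]
  have e3 : (a₁ ^ 2 + a₂ ^ 2) / τ ^ 2 = (a₁ / τ) ^ 2 + (a₂ / τ) ^ 2 := by
    rw [add_div, e1, e2]
  rw [e3]
  set b₁ := a₁ / τ with hb₁
  set b₂ := a₂ / τ with hb₂
  have hb₁e : τ * b₁ = a₁ := by rw [hb₁]; field_simp
  have hb₂e : τ * b₂ = a₂ := by rw [hb₂]; field_simp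
  have hu : t - s ≤ (sp - sm) + |b₁| := by
    have : τ * (t - s) ≤ τ * ((sp - s) + b₁) := by
      rw [mul_add, hb₁e, mul_sub, mul_sub]
      rw [ha₁]
      linarith
    have h7 := le_of_mul_le_mul_left this hτ
    have h8 := le_abs_self b₁
    linarith
  have hl : -((sp - sm) + |b₂|) ≤ t - s := by
    have : τ * ((sm - s) - b₂) ≤ τ * (t - s) := by
      rw [mul_sub, mul_sub, hb₂e, mul_sub]
      rw [ha₂]
      linarith
    have h7 := le_of_mul_le_mul_left this hτ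
    have h8 := le_abs_self b₂
    linarith
  have hb : |t - s| ≤ (sp - sm) + |b₁| + |b₂| := by
    rw [abs_le]
    constructor
    · have := abs_nonneg b₁
      linarith
    · have := abs_nonneg b₂
      linarith
  have hsq : (t - s) ^ 2 ≤ ((sp - sm) + |b₁| + |b₂|) ^ 2 := by
    rw [← sq_abs (t - s)]
    exact pow_le_pow_left₀ (abs_nonneg _) hb 2
  refine hsq.trans ?_
  have h9 : (sp - sm) ^ 2 ≤ 2 * M * (sp - sm) := by nlinarith
  have h10 : |b₁| ^ 2 = b₁ ^ 2 := sq_abs _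
  have h11 : |b₂| ^ 2 = b₂ ^ 2 := sq_abs _
  nlinarith [sq_nonneg ((sp - sm) - |b₁|), sq_nonneg ((sp - sm) - |b₂|), sq_nonneg (|b₁| - |b₂|)]

lemma inner_single_smul (w : Eu d) (j : Fin d) (τ : ℝ) :
    inner ℝ w (τ • (EuclideanSpace.single j (1 : ℝ) : Eu d)) = τ * w j := by
  rw [real_inner_smul_right, EuclideanSpace.inner_single_right]
  simp

/-- The integrated pointwise inequality for one coordinate on the shrunk set. -/
lemma coord_on_shrunk {K K' : Set (Eu d)} (hKc : IsCompact K) (hK'c : IsCompact K') (hK'K : K' ⊆ K)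
    {R : ℝ} {y₀ y₁ : I → Eu d} {m : I → ℝ} (P : PD K R y₀ y₁ m) {h₀ h₁ : I → ℝ}
    (hh₀ : ∀ k, ∫ x in cell K y₀ h₀ k, (1 : ℝ) = m k)
    (hh₁ : ∀ k, ∫ x in cell K y₁ h₁ k, (1 : ℝ) = m k) {M : ℝ} (hy₀ : ∀ k, ‖y₀ k‖ ≤ M)
    (hy₁ : ∀ k, ‖y₁ k‖ ≤ M) (j : Fin d) {τ : ℝ} (hτ : 0 < τ)
    (hplus : ∀ x ∈ K', x + τ • (EuclideanSpace.single j (1 : ℝ) : Eu d) ∈ K)
    (hminus : ∀ x ∈ K', x - τ • (EuclideanSpace.single j (1 : ℝ) : Eu d) ∈ K) :
    ∫ x in K', (lagT y₀ h₀ x j - lagT y₁ h₁ x j) ^ 2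
      ≤ 12 * M ^ 2 * ((volume K).toReal - (volume K').toReal)
        + 7680 * R ^ 2 * (∑ k, m k * ‖y₁ k - y₀ k‖ ^ 2) / τ ^ 2 := by
  obtain ⟨e, he⟩ : ∃ e : Eu d, e = τ • (EuclideanSpace.single j (1 : ℝ) : Eu d) := ⟨_, rfl⟩
  rw [← he] at hplus hminus
  have hKm := hKc.measurableSet
  have hK'm := hK'c.measurableSet
  have hKtop : volume K ≠ ⊤ := hKc.measure_lt_top.ne
  have hK'top : volume K' ≠ ⊤ := hK'c.measure_lt_top.ne
  obtain ⟨k₀⟩ := ‹Nonempty I›
  have hM0 : 0 ≤ M := (norm_nonneg _).trans (hy₀ k₀)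
  obtain ⟨φ, hφ⟩ : ∃ φ, φ = lagPhi y₀ h₀ := ⟨_, rfl⟩
  obtain ⟨ψ, hψ⟩ : ∃ ψ, ψ = lagPhi y₁ h₁ := ⟨_, rfl⟩
  have hφc : Continuous φ := by rw [hφ]; exact continuous_lagPhi _ _
  have hψc : Continuous ψ := by rw [hψ]; exact continuous_lagPhi _ _
  obtain ⟨T, hT⟩ : ∃ T, T = lagT y₀ h₀ := ⟨_, rfl⟩
  obtain ⟨S, hS⟩ : ∃ S, S = lagT y₁ h₁ := ⟨_, rfl⟩
  have hTm : Measurable T := by rw [hT]; exact measurable_lagT _ _
  have hSm : Measurable S := by rw [hS]; exact measurable_lagT _ _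
  have hTb : ∀ x, ‖T x‖ ≤ M := fun x => by rw [hT]; exact norm_lagT_le hy₀ h₀ x
  have hSb : ∀ x, ‖S x‖ ≤ M := fun x => by rw [hS]; exact norm_lagT_le hy₁ h₁ x
  have hsubT : ∀ z w, φ z + inner ℝ (T z) (w - z) ≤ φ w := fun z w => by
    rw [hφ, hT]; exact lagPhi_subgrad _ _ z w
  have hsubS : ∀ z w, ψ z + inner ℝ (S z) (w - z) ≤ ψ w := fun z w => by
    rw [hψ, hS]; exact lagPhi_subgrad _ _ z w
  have hcm : ∀ (U : Eu d → Eu d), Measurable U → Measurable fun x => U x j := by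
    intro U hU
    have h1 : Measurable fun v : Eu d => v j :=
      (measurable_pi_apply j).comp (PiLp.volume_preserving_ofLp (Fin d)).measurable
    exact h1.comp hU
  have hie : ∀ w : Eu d, inner ℝ w e = τ * w j := fun w => by rw [he]; exact inner_single_smul w j τ
  have hcoord : ∀ w : Eu d, ‖w‖ ≤ M → |w j| ≤ M := fun w hw => (abs_coord_le w j).trans hw
  obtain ⟨f, hf⟩ : ∃ f : Eu d → ℝ, f = fun x => (T x j - S x j) ^ 2 := ⟨_, rfl⟩
  obtain ⟨a₁, ha₁⟩ : ∃ a₁ : Eu d → ℝ, a₁ = fun x => ((φ (x + e) - ψ (x + e)) - (φ x - ψ x)) ^ 2 :=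
    ⟨_, rfl⟩
  obtain ⟨a₂, ha₂⟩ : ∃ a₂ : Eu d → ℝ, a₂ = fun x => ((φ (x + -e) - ψ (x + -e)) - (φ x - ψ x)) ^ 2 :=
    ⟨_, rfl⟩
  have ha₁c : Continuous a₁ := by rw [ha₁]; fun_prop
  have ha₂c : Continuous a₂ := by rw [ha₂]; fun_prop
  obtain ⟨b, hb⟩ : ∃ b : Eu d → ℝ, b = fun x => S x j := ⟨_, rfl⟩
  have hbm : Measurable b := by rw [hb]; exact hcm S hSm
  have hbC : ∀ x, |b x| ≤ M := fun x => by rw [hb]; exact hcoord _ (hSb x)
  have hbp : Measurable fun x => b (x + e) := hbm.comp (measurable_id.add_const e)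
  have hbq : Measurable fun x => b (x - e) := hbm.comp (measurable_id.sub_const e)
  have ibp : IntegrableOn (fun x => b (x + e)) K' :=
    integrableOn_of_bound hbp (fun x => hbC _) hK'top
  have ibq : IntegrableOn (fun x => b (x - e)) K' :=
    integrableOn_of_bound hbq (fun x => hbC _) hK'top
  have ia₁ : IntegrableOn a₁ K' := ha₁c.continuousOn.integrableOn_compact hK'c
  have ia₂ : IntegrableOn a₂ K' := ha₂c.continuousOn.integrableOn_compact hK'c
  have hfm : Measurable f := by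
    rw [hf]
    exact ((hcm T hTm).sub (hcm S hSm)).pow_const 2
  have hfb : ∀ x, |f x| ≤ (2 * M) ^ 2 := by
    intro x
    rw [hf]
    simp only
    rw [abs_pow]
    apply pow_le_pow_left₀ (abs_nonneg _)
    have h1 := hcoord _ (hTb x)
    have h2 := hcoord _ (hSb x)
    calc |T x j - S x j| ≤ |T x j| + |S x j| := abs_sub _ _
      _ ≤ 2 * M := by linarith
  have iF : IntegrableOn f K' := integrableOn_of_bound hfm hfb hK'top
  -- the pointwise inequality
  have hpt : ∀ x, f x ≤ 3 * (2 * M * (b (x + e) - b (x - e)) + (a₁ x + a₂ x) / τ ^ 2) := by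
    intro x
    have e1 : x + e - x = e := by abel
    have e2 : x - e - x = -e := by abel
    have e3 : x - (x + e) = -e := by abel
    have e4 : x - (x - e) = e := by abel
    have h1 := hsubT x (x + e)
    rw [e1, hie] at h1
    have h2 := hsubT x (x - e)
    rw [e2, inner_neg_right, hie] at h2
    have h3 := hsubS (x + e) x
    rw [e3, inner_neg_right, hie] at h3
    have h4 := hsubS (x - e) x
    rw [e4, hie] at h4
    have h5 := hsubS x (x + e)
    rw [e1, hie] at h5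
    have h6 := hsubS x (x - e)
    rw [e2, inner_neg_right, hie] at h6
    have h7 : S (x + e) j - S (x - e) j ≤ 2 * M := by
      have := (abs_le.1 (hcoord _ (hSb (x + e)))).2
      have := (abs_le.1 (hcoord _ (hSb (x - e)))).1
      linarith
    have key := coord_real (τ := τ) (t := T x j) (s := S x j) (sp := S (x + e) j) (sm := S (x - e) j)
      (φp := φ (x + e)) (φm := φ (x - e)) (φ0 := φ x) (ψp := ψ (x + e)) (ψm := ψ (x - e)) (ψ0 := ψ x)
      (M := M) hτ (by linarith) (by linarith) (by linarith) (by linarith) (by linarith) (by linarith) h7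
    rw [hf, hb, ha₁, ha₂]
    simp only
    rw [← sub_eq_add_neg]
    exact key
  have hint : ∫ x in K', f x
      ≤ 3 * (2 * M * ((∫ x in K', b (x + e)) - ∫ x in K', b (x - e))
        + ((∫ x in K', a₁ x) + ∫ x in K', a₂ x) / τ ^ 2) := by
    have i1 : IntegrableOn (fun x => b (x + e) - b (x - e)) K' := ibp.sub ibq
    have i2 : IntegrableOn (fun x => a₁ x + a₂ x) K' := ia₁.add ia₂
    have i3 : IntegrableOn (fun x => 3 * (2 * M * (b (x + e) - b (x - e)) + (a₁ x + a₂ x) / τ ^ 2)) K' :=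
      ((i1.const_mul _).add (i2.div_const _)).const_mul 3
    have e5 : ∫ x in K', 3 * (2 * M * (b (x + e) - b (x - e)) + (a₁ x + a₂ x) / τ ^ 2)
        = 3 * (2 * M * ((∫ x in K', b (x + e)) - ∫ x in K', b (x - e))
          + ((∫ x in K', a₁ x) + ∫ x in K', a₂ x) / τ ^ 2) := by
      have i4 : IntegrableOn (fun x => 2 * M * (b (x + e) - b (x - e))) K' := i1.const_mul _
      have i5 : IntegrableOn (fun x => (a₁ x + a₂ x) / τ ^ 2) K' := i2.div_const _
      rw [integral_const_mul, integral_add i4 i5, integral_const_mul, integral_sub ibp ibq,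
        integral_div, integral_add ia₁ ia₂]
    rw [← e5]
    exact setIntegral_mono_on iF i3 hK'm (fun x _ => hpt x)
  have htr := translate_bound hKtop hK'm hplus hminus hbm hbC
  -- the two oscillation integrals
  have hosc : ∀ v : Eu d, (∀ x ∈ K', x + v ∈ K) → ∀ a : Eu d → ℝ,
      a = (fun x => ((φ (x + v) - ψ (x + v)) - (φ x - ψ x)) ^ 2) →
      ∫ x in K', a x ≤ 1280 * R ^ 2 * ∑ k, m k * ‖y₁ k - y₀ k‖ ^ 2 := by
    intro v hv a ha
    have h1 := prop_I P hh₀ hh₁ v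
    rw [← hφ, ← hψ, ← ha] at h1
    refine le_trans ?_ h1
    have hac : Continuous a := by rw [ha]; fun_prop
    have hsm : MeasurableSet {x | x ∈ K ∧ x + v ∈ K} := hKm.inter ((measurable_id.add_const v) hKm)
    apply setIntegral_mono_set
    · exact (hac.continuousOn.integrableOn_compact hKc).mono_set (fun x hx => hx.1)
    · filter_upwards with x
      rw [ha]
      exact sq_nonneg _
    · exact Eventually.of_forall (fun x hx => ⟨hK'K hx, hv x hx⟩)
  have ho₁ := hosc e hplus a₁ ha₁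
  have ho₂ := hosc (-e) (fun x hx => by rw [← sub_eq_add_neg]; exact hminus x hx) a₂ ha₂
  have e6 : ∫ x in K', (lagT y₀ h₀ x j - lagT y₁ h₁ x j) ^ 2 = ∫ x in K', f x := by
    rw [hf, hT, hS]
  rw [e6]
  refine hint.trans ?_
  have hτ2 : 0 < τ ^ 2 := by positivity
  have h8 : ((∫ x in K', a₁ x) + ∫ x in K', a₂ x) / τ ^ 2
      ≤ (2 * (1280 * R ^ 2 * ∑ k, m k * ‖y₁ k - y₀ k‖ ^ 2)) / τ ^ 2 := by
    gcongr
    linarith
  have h9 : 2 * M * ((∫ x in K', b (x + e)) - ∫ x in K', b (x - e))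
      ≤ 2 * M * (2 * M * ((volume K).toReal - (volume K').toReal)) := by
    gcongr
  have e7 : 12 * M ^ 2 * ((volume K).toReal - (volume K').toReal)
        + 7680 * R ^ 2 * (∑ k, m k * ‖y₁ k - y₀ k‖ ^ 2) / τ ^ 2
      = 3 * (2 * M * (2 * M * ((volume K).toReal - (volume K').toReal))
        + (2 * (1280 * R ^ 2 * ∑ k, m k * ‖y₁ k - y₀ k‖ ^ 2)) / τ ^ 2) := by
    ring
  rw [e7]
  gcongr

/-- The distance between the two Laguerre maps. -/
theorem map_estimate {K : Set (Eu d)} (hKc : IsCompact K) (hKconv : Convex ℝ K) {c : Eu d} {r : ℝ}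
    (hr : 0 < r) (hball : closedBall c r ⊆ K)
    {R : ℝ} {y₀ y₁ : I → Eu d} {m : I → ℝ} (P : PD K R y₀ y₁ m) {h₀ h₁ : I → ℝ}
    (hh₀ : ∀ k, ∫ x in cell K y₀ h₀ k, (1 : ℝ) = m k)
    (hh₁ : ∀ k, ∫ x in cell K y₁ h₁ k, (1 : ℝ) = m k) {M : ℝ} (hy₀ : ∀ k, ‖y₀ k‖ ≤ M)
    (hy₁ : ∀ k, ‖y₁ k‖ ≤ M) {τ : ℝ} (hτ : 0 < τ) (hτr : τ < r) :
    ∫ x in K, ‖lagT y₀ h₀ x - lagT y₁ h₁ x‖ ^ 2
      ≤ d * (16 * M ^ 2 * (d * (τ / r) * (volume K).toReal)
        + 7680 * R ^ 2 * (∑ k, m k * ‖y₁ k - y₀ k‖ ^ 2) / τ ^ 2) := by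
  have hKm := hKc.measurableSet
  have hKtop : volume K ≠ ⊤ := hKc.measure_lt_top.ne
  obtain ⟨k₀⟩ := ‹Nonempty I›
  have hM0 : 0 ≤ M := (norm_nonneg _).trans (hy₀ k₀)
  obtain ⟨lam, hlam⟩ : ∃ lam : ℝ, lam = 1 - τ / r := ⟨_, rfl⟩
  have hτr' : τ / r < 1 := (div_lt_one hr).2 hτr
  have hτr0 : 0 < τ / r := div_pos hτ hr
  have hlam0 : 0 ≤ lam := by rw [hlam]; linarith
  have hlam1 : lam < 1 := by rw [hlam]; linarith
  obtain ⟨K', hK'⟩ : ∃ K', K' = shrink K c lam := ⟨_, rfl⟩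
  have hK'c : IsCompact K' := by rw [hK']; exact isCompact_shrink hKc c lam
  have hK'm : MeasurableSet K' := hK'c.measurableSet
  have hK'sub : K' ⊆ K := by rw [hK']; exact shrink_subset hKconv hr hball hlam0 hlam1
  -- volumes
  have hvol : (volume K').toReal = lam ^ d * (volume K).toReal := by
    rw [hK', volume_shrink K c hlam0, ENNReal.toReal_mul, ENNReal.toReal_ofReal (by positivity)]
  have hbern : 1 - lam ^ d ≤ d * (τ / r) := by
    have := one_add_mul_le_pow (a := -(τ / r)) (by linarith) d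
    have e2 : 1 + -(τ / r) = lam := by rw [hlam]; ring
    rw [e2] at this
    nlinarith
  have hV0 : 0 ≤ (volume K).toReal := ENNReal.toReal_nonneg
  have hgap : (volume K).toReal - (volume K').toReal ≤ d * (τ / r) * (volume K).toReal := by
    rw [hvol]
    nlinarith
  have hone : ∀ j : Fin d, ∫ x in K, (lagT y₀ h₀ x j - lagT y₁ h₁ x j) ^ 2
      ≤ 16 * M ^ 2 * (d * (τ / r) * (volume K).toReal)
        + 7680 * R ^ 2 * (∑ k, m k * ‖y₁ k - y₀ k‖ ^ 2) / τ ^ 2 := by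
    intro j
    obtain ⟨e, he⟩ : ∃ e : Eu d, e = τ • (EuclideanSpace.single j (1 : ℝ) : Eu d) := ⟨_, rfl⟩
    have hen : ‖e‖ = τ := by rw [he]; exact norm_smul_single j hτ.le
    have henle : ‖e‖ ≤ r * (1 - lam) := by
      rw [hen, hlam]
      have : r * (1 - (1 - τ / r)) = τ := by field_simp; ring
      rw [this]
    have hplus : ∀ x ∈ K', x + e ∈ K := fun x hx =>
      shrink_add_mem hKconv hball hlam0 hlam1 (by rw [← hK']; exact hx) henle
    have hminus : ∀ x ∈ K', x - e ∈ K := fun x hx => by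
      rw [sub_eq_add_neg]
      exact shrink_add_mem hKconv hball hlam0 hlam1 (by rw [← hK']; exact hx) (by rwa [norm_neg])
    have h1 := coord_on_shrunk hKc hK'c hK'sub P hh₀ hh₁ hy₀ hy₁ j hτ
      (by rw [← he]; exact hplus) (by rw [← he]; exact hminus)
    have hcm : ∀ (U : Eu d → Eu d), Measurable U → Measurable fun x => U x j := by
      intro U hU
      have h1 : Measurable fun v : Eu d => v j :=
        (measurable_pi_apply j).comp (PiLp.volume_preserving_ofLp (Fin d)).measurable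
      exact h1.comp hU
    have hfm : Measurable fun x => (lagT y₀ h₀ x j - lagT y₁ h₁ x j) ^ 2 :=
      ((hcm _ (measurable_lagT y₀ h₀)).sub (hcm _ (measurable_lagT y₁ h₁))).pow_const 2
    have hfb : ∀ x, |(lagT y₀ h₀ x j - lagT y₁ h₁ x j) ^ 2| ≤ (2 * M) ^ 2 := by
      intro x
      rw [abs_pow]
      apply pow_le_pow_left₀ (abs_nonneg _)
      have h1 := (abs_coord_le _ j).trans (norm_lagT_le hy₀ h₀ x)
      have h2 := (abs_coord_le _ j).trans (norm_lagT_le hy₁ h₁ x)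
      calc |lagT y₀ h₀ x j - lagT y₁ h₁ x j| ≤ |lagT y₀ h₀ x j| + |lagT y₁ h₁ x j| := abs_sub _ _
        _ ≤ 2 * M := by linarith
    have h2 := setIntegral_bound hfm hfb hKtop hK'm hK'sub
    have h3 := (abs_le.1 h2).2
    have hgap0 : 0 ≤ (volume K).toReal - (volume K').toReal := by
      have := ENNReal.toReal_mono hKtop (measure_mono hK'sub)
      linarith
    have hM2 : 16 * M ^ 2 * ((volume K).toReal - (volume K').toReal)
        ≤ 16 * M ^ 2 * (d * (τ / r) * (volume K).toReal) := by gcongr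
    nlinarith
  have hint : ∀ j ∈ (Finset.univ : Finset (Fin d)),
      IntegrableOn (fun x => (lagT y₀ h₀ x j - lagT y₁ h₁ x j) ^ 2) K := by
    intro j _
    have hcm : ∀ (U : Eu d → Eu d), Measurable U → Measurable fun x => U x j := by
      intro U hU
      have h1 : Measurable fun v : Eu d => v j :=
        (measurable_pi_apply j).comp (PiLp.volume_preserving_ofLp (Fin d)).measurable
      exact h1.comp hU
    refine integrableOn_of_bound
      (((hcm _ (measurable_lagT y₀ h₀)).sub (hcm _ (measurable_lagT y₁ h₁))).pow_const 2)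
      (C := (2 * M) ^ 2) (fun x => ?_) hKtop
    rw [abs_pow]
    apply pow_le_pow_left₀ (abs_nonneg _)
    have h1 := (abs_coord_le _ j).trans (norm_lagT_le hy₀ h₀ x)
    have h2 := (abs_coord_le _ j).trans (norm_lagT_le hy₁ h₁ x)
    calc |lagT y₀ h₀ x j - lagT y₁ h₁ x j| ≤ |lagT y₀ h₀ x j| + |lagT y₁ h₁ x j| := abs_sub _ _
      _ ≤ 2 * M := by linarith
  have e1 : ∀ x, ‖lagT y₀ h₀ x - lagT y₁ h₁ x‖ ^ 2 = ∑ j, (lagT y₀ h₀ x j - lagT y₁ h₁ x j) ^ 2 := by
    intro x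
    rw [EuclideanSpace.norm_sq_eq]
    apply Finset.sum_congr rfl
    intro j _
    rw [Real.norm_eq_abs, sq_abs]
    rfl
  simp only [e1]
  rw [integral_finset_sum _ hint]
  calc ∑ j, ∫ x in K, (lagT y₀ h₀ x j - lagT y₁ h₁ x j) ^ 2
      ≤ ∑ _j : Fin d, (16 * M ^ 2 * (d * (τ / r) * (volume K).toReal)
        + 7680 * R ^ 2 * (∑ k, m k * ‖y₁ k - y₀ k‖ ^ 2) / τ ^ 2) :=
        Finset.sum_le_sum (fun j _ => hone j)
    _ = _ := by
        rw [Finset.sum_const, Finset.card_univ, Fintype.card_fin, nsmul_eq_mul]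

end Vale.Agent.Lib.P074
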