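import Vale.Agent.Lib.P074.Cube

open MeasureTheory ENNReal NNReal Set

namespace Vale.Agent.Lib.P074

lemma U_apply {s : Set ℝ} (hs : MeasurableSet s) : U s = volume (s ∩ Icc (-1/2) (1/2)) := by
  rw [U, Measure.restrict_apply hs]

lemma U_Ioi {a : ℝ} (h1 : -1/2 ≤ a) : U (Ioi a) = ENNReal.ofReal (1/2 - a) := by
  rw [U_apply measurableSet_Ioi]
  have : Ioi a ∩ Icc (-1/2 : ℝ) (1/2) = Ioc a (1/2) := by
    ext x; simp only [mem_inter_iff, mem_Ioi, mem_Icc, mem_Ioc]
    constructor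
    · rintro ⟨h, -, h'⟩; exact ⟨h, h'⟩
    · rintro ⟨h, h'⟩; exact ⟨h, by linarith, h'⟩
  rw [this, Real.volume_Ioc]

lemma U_Iio {a : ℝ} (h2 : a ≤ 1/2) : U (Iio a) = ENNReal.ofReal (a + 1/2) := by
  rw [U_apply measurableSet_Iio]
  have : Iio a ∩ Icc (-1/2 : ℝ) (1/2) = Ico (-1/2) a := by
    ext x; simp only [mem_inter_iff, mem_Iio, mem_Icc, mem_Ico]
    constructor
    · rintro ⟨h, h', -⟩; exact ⟨h', h⟩
    · rintro ⟨h, h'⟩; exact ⟨h', h, by linarith⟩
  rw [this, Real.volume_Ico]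
  congr 1; ring

lemma integral_affine (c t : ℝ) :
    ∫ y in Icc (-1/2 : ℝ) (1/2), (c + t * y) = c := by
  rw [integral_Icc_eq_integral_Ioc, ← intervalIntegral.integral_of_le (by norm_num)]
  rw [intervalIntegral.integral_add (by simp) (by apply Continuous.intervalIntegrable; fun_prop)]
  rw [intervalIntegral.integral_const_mul]
  simp
  norm_num

lemma lintegral_affine (c t : ℝ) (h : ∀ y ∈ Icc (-1/2 : ℝ) (1/2), 0 ≤ c + t * y) :
    ∫⁻ y in Icc (-1/2 : ℝ) (1/2), ENNReal.ofReal (c + t * y) = ENNReal.ofReal c := by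
  have hi : Integrable (fun y : ℝ => c + t * y) (volume.restrict (Icc (-1/2 : ℝ) (1/2))) := by
    apply Continuous.integrableOn_Icc
    fun_prop
  have hn : 0 ≤ᵐ[volume.restrict (Icc (-1/2 : ℝ) (1/2))] fun y : ℝ => c + t * y := by
    filter_upwards [ae_restrict_mem measurableSet_Icc] with y hy
    exact h y hy
  have := ofReal_integral_eq_lintegral_ofReal hi hn
  rw [integral_affine c t] at this
  exact this.symm

/-- Mass of the region to the right of a slanted line. -/
lemma mass_right {a t : ℝ} (h : ∀ y ∈ Icc (-1/2 : ℝ) (1/2), -1/2 ≤ a + t * y ∧ a + t * y ≤ 1/2) :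
    (U.prod U) {p : ℝ × ℝ | a + t * p.2 < p.1} = ENNReal.ofReal (1/2 - a) := by
  have hm : MeasurableSet {p : ℝ × ℝ | a + t * p.2 < p.1} := by
    apply measurableSet_lt <;> fun_prop
  rw [Measure.prod_apply_symm hm]
  have : ∫⁻ y, U ((fun x => (x, y)) ⁻¹' {p : ℝ × ℝ | a + t * p.2 < p.1}) ∂U
      = ∫⁻ y in Icc (-1/2 : ℝ) (1/2), ENNReal.ofReal ((1/2 - a) + (-t) * y) := by
    rw [U]
    apply setLIntegral_congr_fun measurableSet_Icc
    intro y hy
    have : (fun x => (x, y)) ⁻¹' {p : ℝ × ℝ | a + t * p.2 < p.1} = Ioi (a + t * y) := by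
      ext x; simp
    change U _ = _
    rw [this, U_Ioi (h y hy).1]
    congr 1; ring
  rw [this, lintegral_affine]
  intro y hy
  have := (h y hy).2
  linarith

/-- Mass of the region to the left of a slanted line. -/
lemma mass_left {a t : ℝ} (h : ∀ y ∈ Icc (-1/2 : ℝ) (1/2), -1/2 ≤ a + t * y ∧ a + t * y ≤ 1/2) :
    (U.prod U) {p : ℝ × ℝ | p.1 < -a - t * p.2} = ENNReal.ofReal (1/2 - a) := by
  have hm : MeasurableSet {p : ℝ × ℝ | p.1 < -a - t * p.2} := by
    apply measurableSet_lt <;> fun_prop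
  rw [Measure.prod_apply_symm hm]
  have : ∫⁻ y, U ((fun x => (x, y)) ⁻¹' {p : ℝ × ℝ | p.1 < -a - t * p.2}) ∂U
      = ∫⁻ y in Icc (-1/2 : ℝ) (1/2), ENNReal.ofReal ((1/2 - a) + (-t) * y) := by
    rw [U]
    apply setLIntegral_congr_fun measurableSet_Icc
    intro y hy
    have : (fun x => (x, y)) ⁻¹' {p : ℝ × ℝ | p.1 < -a - t * p.2} = Iio (-a - t * y) := by
      ext x; simp
    change U _ = _
    have h1 := (h y hy).1
    rw [this, U_Iio (by linarith)]
    congr 1; ring
  rw [this, lintegral_affine]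
  intro y hy
  have := (h y hy).2
  linarith

/-- Mass of a rectangle. -/
lemma mass_rect {a b c e : ℝ} (h1 : -1/2 ≤ a) (h2 : b ≤ 1/2) (h3 : -1/2 ≤ c) (h4 : e ≤ 1/2) :
    (U.prod U) (Ioo a b ×ˢ Icc c e) = ENNReal.ofReal (b - a) * ENNReal.ofReal (e - c) := by
  rw [Measure.prod_prod, U_apply measurableSet_Ioo, U_apply measurableSet_Icc]
  rw [inter_eq_left.2, inter_eq_left.2, Real.volume_Ioo, Real.volume_Icc]
  · exact Icc_subset_Icc h3 h4
  · intro x hx
    exact ⟨by linarith [hx.1], by linarith [hx.2]⟩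

/-- Pushforward of a measure under a map that takes three values on three regions. -/
lemma map_three {α β : Type*} [MeasurableSpace α] [MeasurableSpace β]
    (ρ : Measure α) {f : α → β} (hf : Measurable f) {R1 R2 : Set α}
    (h1 : MeasurableSet R1) (h2 : MeasurableSet R2) (hd : Disjoint R1 R2) (a b c : β)
    (ha : ∀ x ∈ R1, f x = a) (hb : ∀ x ∈ R2, f x = b) (hc : ∀ x ∈ (R1 ∪ R2)ᶜ, f x = c) :
    ρ.map f = ρ R1 • Measure.dirac a + ρ R2 • Measure.dirac b
      + ρ (R1 ∪ R2)ᶜ • Measure.dirac c := by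
  have hρ : ρ = ρ.restrict R1 + ρ.restrict R2 + ρ.restrict (R1 ∪ R2)ᶜ := by
    rw [← Measure.restrict_union hd h2, Measure.restrict_add_restrict_compl (h1.union h2)]
  have e1 : (ρ.restrict R1).map f = ρ R1 • Measure.dirac a := by
    rw [Measure.map_congr (g := fun _ => a), Measure.map_const]
    · simp
    · filter_upwards [ae_restrict_mem h1] with x hx using ha x hx
  have e2 : (ρ.restrict R2).map f = ρ R2 • Measure.dirac b := by
    rw [Measure.map_congr (g := fun _ => b), Measure.map_const]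
    · simp
    · filter_upwards [ae_restrict_mem h2] with x hx using hb x hx
  have e3 : (ρ.restrict (R1 ∪ R2)ᶜ).map f = ρ (R1 ∪ R2)ᶜ • Measure.dirac c := by
    rw [Measure.map_congr (g := fun _ => c), Measure.map_const]
    · simp
    · filter_upwards [ae_restrict_mem (h1.union h2).compl] with x hx using hc x hx
  conv_lhs => rw [hρ]
  rw [Measure.map_add _ _ hf, Measure.map_add _ _ hf, e1, e2, e3]

end Vale.Agent.Lib.P074
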