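import Vale.Agent.Lib.P074.Quant

/-!
Discrete masses of a quantized probability measure; the corresponding Laguerre tessellations.
-/

open MeasureTheory ENNReal NNReal Set Metric Filter Topology

namespace Vale.Agent.Lib.P074

variable {d : ℕ}

/-- The mass of a fibre. -/
noncomputable def massOf {X P : Type*} [MeasurableSpace X] (π : Measure X) (s : X → P) (p : P) : ℝ :=
  (π (s ⁻¹' {p})).toReal

/-- The index set of the fibres of positive mass. -/
abbrev PosIdx {X P : Type*} [MeasurableSpace X] (π : Measure X) (s : X → P) : Type _ :=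
  {p : P // 0 < massOf π s p}

lemma sum_pos {P : Type*} [Fintype P] (Q : P → Prop) [Fintype {p // Q p}] (F : P → ℝ)
    (hF : ∀ p, ¬ Q p → F p = 0) : ∑ k : {p // Q p}, F k.1 = ∑ p, F p := by
  classical
  rw [← Finset.sum_subtype (Finset.univ.filter Q) (by simp) F]
  apply Finset.sum_filter_of_ne
  intro p _ hp
  by_contra h
  exact hp (hF p h)

/-- Integrating a function through a finitely valued map. -/
lemma integral_fin {X P : Type*} [MeasurableSpace X] [Fintype P] {π : Measure X}
    [IsFiniteMeasure π] {s : X → P} (hs : ∀ k, MeasurableSet (s ⁻¹' {k})) (F : P → ℝ) :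
    ∫ x, F (s x) ∂π = ∑ p, massOf π s p * F p := by
  classical
  have e : ∀ x, F (s x) = ∑ p, (s ⁻¹' {p}).indicator (fun _ => F p) x := by
    intro x
    rw [Finset.sum_eq_single (s x)]
    · simp
    · intro p _ hp
      apply indicator_of_notMem
      simp only [mem_preimage, mem_singleton_iff]
      exact fun e => hp e.symm
    · simp
  simp only [e]
  rw [integral_finset_sum]
  · apply Finset.sum_congr rfl
    intro p _
    rw [integral_indicator_const _ (hs p)]
    simp [massOf, Measure.real]
  · intro p _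
    exact (integrable_const _).indicator (hs p)

lemma sum_massOf {X P : Type*} [MeasurableSpace X] [Fintype P] {π : Measure X}
    [IsProbabilityMeasure π] {s : X → P} (hs : ∀ k, MeasurableSet (s ⁻¹' {k})) :
    ∑ p, massOf π s p = 1 := by
  have := integral_fin (π := π) hs (fun _ => 1)
  simpa using this.symm

lemma posIdx_nonempty {X P : Type*} [MeasurableSpace X] [Fintype P] {π : Measure X}
    [IsProbabilityMeasure π] {s : X → P} (hs : ∀ k, MeasurableSet (s ⁻¹' {k})) :
    Nonempty (PosIdx π s) := by
  by_contra h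
  have h0 : ∀ p, massOf π s p = 0 := by
    intro p
    by_contra hp
    have hp0 : 0 ≤ massOf π s p := ENNReal.toReal_nonneg
    exact h ⟨⟨p, lt_of_le_of_ne hp0 (Ne.symm hp)⟩⟩
  have := sum_massOf (π := π) hs
  simp [h0] at this

lemma sum_posIdx {X P : Type*} [MeasurableSpace X] [Fintype P] (π : Measure X) (s : X → P)
    [Fintype (PosIdx π s)] (F : P → ℝ) :
    ∑ k : PosIdx π s, massOf π s k.1 * F k.1 = ∑ p, massOf π s p * F p := by
  apply sum_pos (fun p => 0 < massOf π s p) (fun p => massOf π s p * F p)
  intro p hp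
  have hp0 : 0 ≤ massOf π s p := ENNReal.toReal_nonneg
  have : massOf π s p = 0 := le_antisymm (not_lt.1 hp) hp0
  rw [this, zero_mul]

lemma massOf_zero {X P : Type*} [MeasurableSpace X] {π : Measure X} [IsFiniteMeasure π] {s : X → P}
    {p : P} (hp : ¬ 0 < massOf π s p) : π (s ⁻¹' {p}) = 0 := by
  have hp0 : 0 ≤ massOf π s p := ENNReal.toReal_nonneg
  have h1 : massOf π s p = 0 := le_antisymm (not_lt.1 hp) hp0
  unfold massOf at h1
  rcases (ENNReal.toReal_eq_zero_iff _).1 h1 with h | h
  · exact h
  · exact absurd h (measure_ne_top _ _)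

/-- The Laguerre tessellation for given quantized masses. -/
theorem disc_one {K : Set (Eu d)} (hKc : IsCompact K) (hK0 : volume K ≠ 0) {R : ℝ} (hR : 0 ≤ R)
    (hKR : ∀ x ∈ K, ‖x‖ ≤ R) {X P : Type*} [MeasurableSpace X] [Fintype P] {π : Measure X}
    [IsProbabilityMeasure π] {s : X → P} (hs : ∀ k, MeasurableSet (s ⁻¹' {k})) {G : P → Eu d}
    [Fintype (PosIdx π s)] [Nonempty (PosIdx π s)]
    (hG : Function.Injective (fun k : PosIdx π s => G k.1)) :
    ∃ h : PosIdx π s → ℝ,
      (∀ k, ∫ x in cell K (fun k : PosIdx π s => G k.1) h k, (1 : ℝ)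
        = (volume K).toReal * massOf π s k.1) ∧
      (unif K).map (lagT (fun k : PosIdx π s => G k.1) h) = π.map (fun x => G (s x)) := by
  classical
  have hKm := hKc.measurableSet
  have hKtop : volume K ≠ ⊤ := hKc.measure_lt_top.ne
  have hV : 0 < (volume K).toReal := ENNReal.toReal_pos hK0 hKtop
  obtain ⟨y, hy⟩ : ∃ y : PosIdx π s → Eu d, y = fun k => G k.1 := ⟨_, rfl⟩
  rw [← hy] at hG ⊢
  have hsum : ∑ k : PosIdx π s, (volume K).toReal * massOf π s k.1 = ∫ x in K, (1 : ℝ) := by
    have h1 := sum_posIdx π s (fun _ => (1 : ℝ))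
    simp only [mul_one] at h1
    rw [← Finset.mul_sum, h1, sum_massOf hs]
    simp [Measure.real]
  obtain ⟨h, hh⟩ := exists_balanced (g := fun _ => (1 : ℝ)) hR hKR hKtop hKm hG measurable_const
    (fun _ _ => zero_le_one) (fun _ _ => one_le_two)
    (m := fun k : PosIdx π s => (volume K).toReal * massOf π s k.1)
    (fun k => mul_pos hV k.2) hsum
  refine ⟨h, hh, ?_⟩
  have hs' : ∀ p : P, MeasurableSet ((fun x => (sel y h x).1) ⁻¹' {p}) := by
    intro p
    by_cases hp : 0 < massOf π s p
    · have : (fun x => (sel y h x).1) ⁻¹' {p} = sel y h ⁻¹' {⟨p, hp⟩} := by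
        ext x
        simp [Subtype.ext_iff]
      rw [this]
      exact measurableSet_sel y h _
    · have : (fun x => (sel y h x).1) ⁻¹' {p} = ∅ := by
        ext x
        simp only [mem_preimage, mem_singleton_iff, mem_empty_iff_false, iff_false]
        intro e
        exact hp (e ▸ (sel y h x).2)
      rw [this]
      exact MeasurableSet.empty
  have hmass : ∀ p : P, π (s ⁻¹' {p}) = unif K ((fun x => (sel y h x).1) ⁻¹' {p}) := by
    intro p
    by_cases hp : 0 < massOf π s p
    · have e1 : (fun x => (sel y h x).1) ⁻¹' {p} = sel y h ⁻¹' {⟨p, hp⟩} := by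
        ext x
        simp [Subtype.ext_iff]
      rw [e1, unif_sel hKm hG h]
      have h1 := hh ⟨p, hp⟩
      have h2 : (volume (cell K y h ⟨p, hp⟩)).toReal = (volume K).toReal * massOf π s p := by
        rw [← h1]
        simp [Measure.real]
      have h3 : volume (cell K y h ⟨p, hp⟩) ≠ ⊤ :=
        (measure_lt_top_of_subset (cell_subset K y h _) hKtop).ne
      have h4 : volume (cell K y h ⟨p, hp⟩) = volume K * π (s ⁻¹' {p}) := by
        rw [← ENNReal.ofReal_toReal h3, h2, ENNReal.ofReal_mul hV.le, ENNReal.ofReal_toReal hKtop]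
        unfold massOf
        rw [ENNReal.ofReal_toReal (measure_ne_top _ _)]
      rw [h4, ← mul_assoc, ENNReal.inv_mul_cancel hK0 hKtop, one_mul]
    · have e1 : (fun x => (sel y h x).1) ⁻¹' {p} = ∅ := by
        ext x
        simp only [mem_preimage, mem_singleton_iff, mem_empty_iff_false, iff_false]
        intro e
        exact hp (e ▸ (sel y h x).2)
      rw [e1, measure_empty, massOf_zero hp]
  have key := map_eq_of_masses hs hs' hmass G
  rw [key]
  congr 1
  funext x
  unfold lagT
  rw [hy]

end Vale.Agent.Lib.P074
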