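import Vale.Agent.Lib.P074.Defs

/-!
The Prékopa–Leindler inequality, midpoint form, on Euclidean space.
-/

open MeasureTheory ENNReal NNReal Set

namespace Vale.Agent.Lib.P074

/-- One-dimensional Brunn–Minkowski inequality for compact sets, midpoint form. -/
lemma bm_compact {A B C : Set ℝ} (hA : IsCompact A) (hB : IsCompact B) (hAne : A.Nonempty)
    (hBne : B.Nonempty) (h : ∀ x ∈ A, ∀ y ∈ B, (x + y) / 2 ∈ C) :
    volume A + volume B ≤ 2 * volume C := by
  set a := sSup A with ha
  set b := sInf B with hb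
  have haA : a ∈ A := hA.sSup_mem hAne
  have hbB : b ∈ B := hB.sInf_mem hBne
  have hale : ∀ x ∈ A, x ≤ a := fun x hx => le_csSup hA.bddAbove hx
  have hble : ∀ y ∈ B, b ≤ y := fun y hy => csInf_le hB.bddBelow hy
  set P : Set ℝ := (fun z => 2 * z) ⁻¹' ((fun w => w + (-b)) ⁻¹' A) with hP
  set Q : Set ℝ := (fun z => 2 * z) ⁻¹' ((fun w => w + (-a)) ⁻¹' B) with hQ
  have hvP : volume P = ENNReal.ofReal 2⁻¹ * volume A := by
    rw [hP, Real.volume_preimage_mul_left (by norm_num), measure_preimage_add_right]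
    norm_num
  have hvQ : volume Q = ENNReal.ofReal 2⁻¹ * volume B := by
    rw [hQ, Real.volume_preimage_mul_left (by norm_num), measure_preimage_add_right]
    norm_num
  have hPm : MeasurableSet P := by
    apply (measurable_const.mul measurable_id)
    apply (measurable_id.add_const _)
    exact hA.measurableSet
  have hQm : MeasurableSet Q := by
    apply (measurable_const.mul measurable_id)
    apply (measurable_id.add_const _)
    exact hB.measurableSet
  have hPC : P ⊆ C := by
    intro z hz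
    have hz' : 2 * z + -b ∈ A := hz
    have := h _ hz' b hbB
    have e : (2 * z + -b + b) / 2 = z := by ring
    rwa [e] at this
  have hQC : Q ⊆ C := by
    intro z hz
    have hz' : 2 * z + -a ∈ B := hz
    have := h a haA _ hz'
    have e : (a + (2 * z + -a)) / 2 = z := by ring
    rwa [e] at this
  have hPQ : volume (P ∩ Q) = 0 := by
    apply measure_mono_null (t := {(a + b) / 2}) _ (by simp)
    rintro z ⟨hz1, hz2⟩
    have h1 : 2 * z + -b ∈ A := hz1
    have h2 : 2 * z + -a ∈ B := hz2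
    have h3 := hale _ h1
    have h4 := hble _ h2
    simp only [mem_singleton_iff]
    linarith
  have hsum : volume P + volume Q ≤ volume C := by
    have e := measure_union_add_inter P hQm (μ := volume)
    rw [hPQ, add_zero] at e
    rw [← e]
    exact measure_mono (union_subset hPC hQC)
  have h2 : (2 : ℝ≥0∞) * ENNReal.ofReal 2⁻¹ = 1 := by
    rw [show (2 : ℝ≥0∞) = ENNReal.ofReal 2 by norm_num, ← ENNReal.ofReal_mul (by norm_num)]
    norm_num
  calc volume A + volume B = 2 * (volume P + volume Q) := by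
        rw [hvP, hvQ, mul_add, ← mul_assoc, ← mul_assoc, h2, one_mul, one_mul]
    _ ≤ 2 * volume C := by gcongr

/-- One-dimensional Brunn–Minkowski inequality for measurable sets, midpoint form. -/
lemma bm_meas {A B C : Set ℝ} (hA : MeasurableSet A) (hB : MeasurableSet B) (hAne : A.Nonempty)
    (hBne : B.Nonempty) (h : ∀ x ∈ A, ∀ y ∈ B, (x + y) / 2 ∈ C) :
    volume A + volume B ≤ 2 * volume C := by
  obtain ⟨x0, hx0⟩ := hAne
  obtain ⟨y0, hy0⟩ := hBne
  -- compact subsets
  have key : ∀ A' B' : Set ℝ, A' ⊆ A → B' ⊆ B → IsCompact A' → IsCompact B' →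
      volume A' + volume B' ≤ 2 * volume C := by
    intro A' B' hA' hB' hA'c hB'c
    have h1 : volume A' ≤ volume (insert x0 A') := measure_mono (subset_insert _ _)
    have h2 : volume B' ≤ volume (insert y0 B') := measure_mono (subset_insert _ _)
    refine (add_le_add h1 h2).trans ?_
    apply bm_compact (hA'c.insert x0) (hB'c.insert y0) (insert_nonempty _ _) (insert_nonempty _ _)
    intro x hx y hy
    apply h
    · rcases hx with rfl | hx
      · exact hx0
      · exact hA' hx
    · rcases hy with rfl | hy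
      · exact hy0
      · exact hB' hy
  apply le_of_forall_lt
  intro c hc
  by_cases hA0 : volume A = 0
  · rw [hA0, zero_add] at hc
    obtain ⟨K, hK, hKc, hlt⟩ := hB.exists_lt_isCompact hc
    have := key ∅ K (empty_subset _) hK isCompact_empty hKc
    rw [measure_empty, zero_add] at this
    exact hlt.trans_le this
  by_cases hB0 : volume B = 0
  · rw [hB0, add_zero] at hc
    obtain ⟨K, hK, hKc, hlt⟩ := hA.exists_lt_isCompact hc
    have := key K ∅ hK (empty_subset _) hKc isCompact_empty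
    rw [measure_empty, add_zero] at this
    exact hlt.trans_le this
  obtain ⟨r, hr, s, hs, hrs⟩ := ENNReal.exists_lt_add_of_lt_add hc hA0 hB0
  obtain ⟨K1, hK1, hK1c, hlt1⟩ := hA.exists_lt_isCompact hr
  obtain ⟨K2, hK2, hK2c, hlt2⟩ := hB.exists_lt_isCompact hs
  exact hrs.trans_le ((add_le_add hlt1.le hlt2.le).trans (key K1 K2 hK1 hK2 hK1c hK2c))

/-- The layer cake formula for functions with values in the extended nonnegative reals. -/
lemma layer_cake {f : ℝ → ℝ≥0∞} (hf : Measurable f) :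
    ∫⁻ x, f x = ∫⁻ t in Ioi (0 : ℝ), volume {x | ENNReal.ofReal t < f x} := by
  have h1 : ∀ v : ℝ≥0∞, ∫⁻ t in Ioi (0 : ℝ), (if ENNReal.ofReal t < v then 1 else 0) = v := by
    intro v
    have hs : MeasurableSet {t : ℝ | ENNReal.ofReal t < v} :=
      measurableSet_lt ENNReal.measurable_ofReal measurable_const
    have e0 : (fun t : ℝ => if ENNReal.ofReal t < v then (1 : ℝ≥0∞) else 0)
        = {t : ℝ | ENNReal.ofReal t < v}.indicator 1 := by
      ext t
      simp [indicator]
    rw [e0, lintegral_indicator_one₀ ?_]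
    swap
    · exact (hs.nullMeasurableSet)
    · rw [Measure.restrict_apply hs]
      by_cases hv : v = ⊤
      · subst hv
        have : {t : ℝ | ENNReal.ofReal t < ⊤} ∩ Ioi 0 = Ioi 0 := by
          ext t; simp
        rw [this]
        simp
      · have : {t : ℝ | ENNReal.ofReal t < v} ∩ Ioi 0 = Ioo 0 v.toReal := by
          ext t
          simp only [mem_inter_iff, mem_ofPred_eq, mem_Ioi, mem_Ioo]
          constructor
          · rintro ⟨h1, h2⟩
            exact ⟨h2, (ENNReal.ofReal_lt_iff_lt_toReal h2.le hv).1 h1⟩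
          · rintro ⟨h1, h2⟩
            exact ⟨(ENNReal.ofReal_lt_iff_lt_toReal h1.le hv).2 h2, h1⟩
        rw [this, Real.volume_Ioo, sub_zero, ENNReal.ofReal_toReal hv]
  have hmeas : Measurable (Function.uncurry fun (x t : ℝ) =>
      if ENNReal.ofReal t < f x then (1 : ℝ≥0∞) else 0) := by
    apply Measurable.ite
    · exact measurableSet_lt (ENNReal.measurable_ofReal.comp measurable_snd) (hf.comp measurable_fst)
    · exact measurable_const
    · exact measurable_const
  calc ∫⁻ x, f x = ∫⁻ x, ∫⁻ t in Ioi (0 : ℝ), (if ENNReal.ofReal t < f x then 1 else 0) := by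
        apply lintegral_congr
        intro x
        rw [h1]
    _ = ∫⁻ t in Ioi (0 : ℝ), ∫⁻ x, (if ENNReal.ofReal t < f x then 1 else 0) := by
        apply lintegral_lintegral_swap
        exact hmeas.aemeasurable
    _ = _ := by
        apply lintegral_congr
        intro t
        have hs : MeasurableSet {x : ℝ | ENNReal.ofReal t < f x} :=
          measurableSet_lt measurable_const hf
        have e0 : (fun x : ℝ => if ENNReal.ofReal t < f x then (1 : ℝ≥0∞) else 0)
            = {x : ℝ | ENNReal.ofReal t < f x}.indicator 1 := by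
          ext x
          simp [indicator]
        rw [e0, lintegral_indicator_one hs]

/-- The normalized one-dimensional inequality. -/
lemma pl_norm {a b c : ℝ → ℝ≥0∞} (ha : Measurable a) (hb : Measurable b) (hc : Measurable c)
    (ha1 : ∀ x, a x ≤ 1) (hb1 : ∀ x, b x ≤ 1)
    (hsa : ∀ u < (1 : ℝ≥0∞), ∃ x, u < a x) (hsb : ∀ u < (1 : ℝ≥0∞), ∃ x, u < b x)
    (h : ∀ x y, a x * b y ≤ c ((x + y) / 2) ^ 2) :
    (∫⁻ x, a x) + ∫⁻ x, b x ≤ 2 * ∫⁻ x, c x := by
  rw [layer_cake ha, layer_cake hb, layer_cake hc]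
  have hma : Measurable fun t : ℝ => volume {x | ENNReal.ofReal t < a x} := by
    apply Antitone.measurable
    intro s t hst
    apply measure_mono
    intro x hx
    exact lt_of_le_of_lt (ENNReal.ofReal_le_ofReal hst) hx
  rw [← lintegral_add_left hma, ← lintegral_const_mul' _ _ (by simp)]
  apply setLIntegral_mono' measurableSet_Ioi
  intro t ht
  by_cases ht1 : ENNReal.ofReal t < 1
  · apply bm_meas (measurableSet_lt measurable_const ha) (measurableSet_lt measurable_const hb)
      (hsa _ ht1) (hsb _ ht1)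
    intro x hx y hy
    have hx' : ENNReal.ofReal t < a x := hx
    have hy' : ENNReal.ofReal t < b y := hy
    have h2 : ENNReal.ofReal t * ENNReal.ofReal t < a x * b y :=
      ENNReal.mul_lt_mul hx' hy'
    have h3 : (ENNReal.ofReal t) ^ 2 < c ((x + y) / 2) ^ 2 := by
      rw [sq]
      exact h2.trans_le (h x y)
    change ENNReal.ofReal t < c ((x + y) / 2)
    by_contra hle
    have hle' := not_lt.1 hle
    exact absurd h3 (not_lt.2 (pow_le_pow_left' hle' 2))
  · have e1 : {x | ENNReal.ofReal t < a x} = ∅ := by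
      ext x
      simp only [mem_ofPred_eq, mem_empty_iff_false, iff_false, not_lt]
      exact (ha1 x).trans (not_lt.1 ht1)
    have e2 : {x | ENNReal.ofReal t < b x} = ∅ := by
      ext x
      simp only [mem_ofPred_eq, mem_empty_iff_false, iff_false, not_lt]
      exact (hb1 x).trans (not_lt.1 ht1)
    rw [e1, e2]
    simp

/-- The one-dimensional inequality for bounded functions. -/
lemma pl_one_bdd {a b c : ℝ → ℝ≥0∞} (ha : Measurable a) (hb : Measurable b) (hc : Measurable c)
    {N : ℝ≥0∞} (hN : N ≠ ⊤) (haN : ∀ x, a x ≤ N) (hbN : ∀ x, b x ≤ N)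
    (h : ∀ x y, a x * b y ≤ c ((x + y) / 2) ^ 2) :
    (∫⁻ x, a x) * ∫⁻ x, b x ≤ (∫⁻ x, c x) ^ 2 := by
  set A := ⨆ x, a x with hA
  set B := ⨆ x, b x with hB
  have hAN : A ≤ N := iSup_le haN
  have hBN : B ≤ N := iSup_le hbN
  have hAtop : A ≠ ⊤ := ne_top_of_le_ne_top hN hAN
  have hBtop : B ≠ ⊤ := ne_top_of_le_ne_top hN hBN
  by_cases hA0 : A = 0
  · have : ∀ x, a x = 0 := fun x => by
      have := le_iSup a x
      rw [← hA, hA0] at this
      simpa using this
    simp [this]
  by_cases hB0 : B = 0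
  · have : ∀ x, b x = 0 := fun x => by
      have := le_iSup b x
      rw [← hB, hB0] at this
      simpa using this
    simp [this]
  by_cases hctop : ∫⁻ x, c x = ⊤
  · rw [hctop]
    have : (⊤ : ℝ≥0∞) ^ 2 = ⊤ := by norm_num
    rw [this]
    exact le_top
  set S : ℝ≥0∞ := (A * B) ^ (1 / 2 : ℝ) with hS
  have hABtop : A * B ≠ ⊤ := ENNReal.mul_ne_top hAtop hBtop
  have hAB0 : A * B ≠ 0 := mul_ne_zero hA0 hB0
  have hS2 : S ^ 2 = A * B := by
    rw [hS, ← ENNReal.rpow_natCast, ← ENNReal.rpow_mul]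
    norm_num
  have hS0 : S ≠ 0 := by
    intro h0
    rw [h0] at hS2
    apply hAB0
    rw [← hS2]
    simp
  have hStop : S ≠ ⊤ := by
    intro h0
    rw [h0] at hS2
    apply hABtop
    rw [← hS2]
    norm_num
  -- normalized functions
  have hnorm := pl_norm (a := fun x => a x * A⁻¹) (b := fun x => b x * B⁻¹) (c := fun x => c x * S⁻¹)
    (ha.mul_const _) (hb.mul_const _) (hc.mul_const _)
    (fun x => by
      have := le_iSup a x
      calc a x * A⁻¹ ≤ A * A⁻¹ := by gcongr
        _ = 1 := ENNReal.mul_inv_cancel hA0 hAtop)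
    (fun x => by
      have := le_iSup b x
      calc b x * B⁻¹ ≤ B * B⁻¹ := by gcongr
        _ = 1 := ENNReal.mul_inv_cancel hB0 hBtop)
    (fun u hu => by
      have hlt : u * A < A := by
        have h1 : u * A < 1 * A := (ENNReal.mul_lt_mul_iff_left hA0 hAtop).2 hu
        simpa using h1
      obtain ⟨x, hx⟩ := lt_iSup_iff.1 hlt
      refine ⟨x, ?_⟩
      calc u = u * A * A⁻¹ := by
            rw [mul_assoc, ENNReal.mul_inv_cancel hA0 hAtop, mul_one]
        _ < a x * A⁻¹ := by
            exact (ENNReal.mul_lt_mul_iff_left (ENNReal.inv_ne_zero.2 hAtop)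
              (ENNReal.inv_ne_top.2 hA0)).2 hx)
    (fun u hu => by
      have hlt : u * B < B := by
        have h1 : u * B < 1 * B := (ENNReal.mul_lt_mul_iff_left hB0 hBtop).2 hu
        simpa using h1
      obtain ⟨x, hx⟩ := lt_iSup_iff.1 hlt
      refine ⟨x, ?_⟩
      calc u = u * B * B⁻¹ := by
            rw [mul_assoc, ENNReal.mul_inv_cancel hB0 hBtop, mul_one]
        _ < b x * B⁻¹ := by
            exact (ENNReal.mul_lt_mul_iff_left (ENNReal.inv_ne_zero.2 hBtop)
              (ENNReal.inv_ne_top.2 hB0)).2 hx)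
    (fun x y => by
      have h1 := h x y
      have e1 : (S⁻¹) ^ 2 = A⁻¹ * B⁻¹ := by
        rw [← ENNReal.inv_pow, hS2, ENNReal.mul_inv (Or.inl hA0) (Or.inl hAtop)]
      calc a x * A⁻¹ * (b y * B⁻¹) = a x * b y * (A⁻¹ * B⁻¹) := by ring
        _ ≤ c ((x + y) / 2) ^ 2 * (A⁻¹ * B⁻¹) := by gcongr
        _ = (c ((x + y) / 2) * S⁻¹) ^ 2 := by rw [mul_pow, e1])
  rw [lintegral_mul_const _ ha, lintegral_mul_const _ hb, lintegral_mul_const _ hc] at hnorm
  set Ia := ∫⁻ x, a x with hIa
  set Ib := ∫⁻ x, b x with hIb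
  set Ic := ∫⁻ x, c x with hIc
  -- pass to real numbers
  have hlhs : Ia * A⁻¹ + Ib * B⁻¹ ≠ ⊤ := by
    apply ne_top_of_le_ne_top _ hnorm
    exact ENNReal.mul_ne_top (by norm_num) (ENNReal.mul_ne_top hctop (ENNReal.inv_ne_top.2 hS0))
  have hX : Ia * A⁻¹ ≠ ⊤ := fun h0 => hlhs (by rw [h0]; simp)
  have hY : Ib * B⁻¹ ≠ ⊤ := fun h0 => hlhs (by rw [h0]; simp)
  set X := Ia * A⁻¹ with hXdef
  set Y := Ib * B⁻¹ with hYdef
  set Z := Ic * S⁻¹ with hZdef
  have hZ : Z ≠ ⊤ := ENNReal.mul_ne_top hctop (ENNReal.inv_ne_top.2 hS0)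
  have hXYZ : X * Y ≤ Z ^ 2 := by
    have e0 : (X + Y) ≤ 2 * Z := hnorm
    have hr : (X.toReal + Y.toReal) ≤ 2 * Z.toReal := by
      have := ENNReal.toReal_mono (ENNReal.mul_ne_top (by norm_num) hZ) e0
      have e : (2 * Z).toReal = 2 * Z.toReal := by simp
      rwa [ENNReal.toReal_add hX hY, e] at this
    have hr2 : X.toReal * Y.toReal ≤ Z.toReal ^ 2 := by
      have hx0 := ENNReal.toReal_nonneg (a := X)
      have hy0 := ENNReal.toReal_nonneg (a := Y)
      nlinarith [sq_nonneg (X.toReal - Y.toReal)]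
    have e1 : X * Y = ENNReal.ofReal (X.toReal * Y.toReal) := by
      rw [ENNReal.ofReal_mul ENNReal.toReal_nonneg, ENNReal.ofReal_toReal hX, ENNReal.ofReal_toReal hY]
    have e2 : Z ^ 2 = ENNReal.ofReal (Z.toReal ^ 2) := by
      rw [ENNReal.ofReal_pow ENNReal.toReal_nonneg, ENNReal.ofReal_toReal hZ]
    rw [e1, e2]
    exact ENNReal.ofReal_le_ofReal hr2
  -- multiply back
  have e1 : Ia * Ib = X * Y * (A * B) := by
    rw [hXdef, hYdef]
    calc Ia * Ib = Ia * (A⁻¹ * A) * (Ib * (B⁻¹ * B)) := by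
          rw [ENNReal.inv_mul_cancel hA0 hAtop, ENNReal.inv_mul_cancel hB0 hBtop, mul_one, mul_one]
      _ = _ := by ring
  have e2 : Ic ^ 2 = Z ^ 2 * (A * B) := by
    rw [hZdef, ← hS2, mul_pow, mul_assoc, ← mul_pow, ENNReal.inv_mul_cancel hS0 hStop]
    simp
  rw [e1, e2]
  gcongr

/-- The one-dimensional Prékopa–Leindler inequality. -/
lemma pl_one {a b c : ℝ → ℝ≥0∞} (ha : Measurable a) (hb : Measurable b) (hc : Measurable c)
    (h : ∀ x y, a x * b y ≤ c ((x + y) / 2) ^ 2) :
    (∫⁻ x, a x) * ∫⁻ x, b x ≤ (∫⁻ x, c x) ^ 2 := by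
  have hN : ∀ n : ℕ, (∫⁻ x, min (a x) n) * ∫⁻ x, min (b x) n ≤ (∫⁻ x, c x) ^ 2 := by
    intro n
    apply pl_one_bdd (ha.min measurable_const) (hb.min measurable_const) hc
      (N := n) (ENNReal.natCast_ne_top n) (fun x => min_le_right _ _) (fun x => min_le_right _ _)
    intro x y
    refine le_trans ?_ (h x y)
    gcongr
    · exact min_le_left _ _
    · exact min_le_left _ _
  have hlim : ∀ f : ℝ → ℝ≥0∞, Measurable f → ∫⁻ x, f x = ⨆ n : ℕ, ∫⁻ x, min (f x) n := by
    intro f hf
    rw [← lintegral_iSup (fun n => hf.min measurable_const)]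
    · apply lintegral_congr
      intro x
      apply le_antisymm
      · by_cases hv : f x = ⊤
        · rw [hv]
          simp [ENNReal.iSup_natCast]
        · obtain ⟨n, hn⟩ := ENNReal.exists_nat_gt hv
          refine le_trans ?_ (le_iSup _ n)
          rw [min_eq_left hn.le]
      · exact iSup_le fun n => min_le_left _ _
    · intro m n hmn x
      exact min_le_min_left _ (by exact_mod_cast hmn)
  rw [hlim a ha, hlim b hb, ENNReal.iSup_mul]
  apply iSup_le
  intro m
  rw [ENNReal.mul_iSup]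
  apply iSup_le
  intro n
  refine le_trans ?_ (hN (max m n))
  gcongr
  · exact_mod_cast le_max_left m n
  · exact_mod_cast le_max_right m n

/-- The Prékopa–Leindler inequality on `ℝⁿ`. -/
theorem pl_pi : ∀ (n : ℕ) (a b c : (Fin n → ℝ) → ℝ≥0∞), Measurable a → Measurable b → Measurable c →
    (∀ x y, a x * b y ≤ c ((1 / 2 : ℝ) • (x + y)) ^ 2) →
    (∫⁻ x, a x) * ∫⁻ x, b x ≤ (∫⁻ x, c x) ^ 2 := by
  intro n
  induction n with
  | zero =>
    intro a b c _ _ _ h
    have e : ∀ f : (Fin 0 → ℝ) → ℝ≥0∞, ∫⁻ x, f x = f default := by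
      intro f
      rw [volume_pi, Measure.pi_of_empty]
      rw [lintegral_dirac]
      congr 1
      exact Subsingleton.elim _ _
    rw [e a, e b, e c]
    have := h default default
    have e2 : (1 / 2 : ℝ) • ((default : Fin 0 → ℝ) + default) = default := Subsingleton.elim _ _
    rwa [e2] at this
  | succ n ih =>
    intro a b c ha hb hc h
    set E := MeasurableEquiv.piFinSuccAbove (fun _ : Fin (n + 1) => ℝ) 0 with hE
    have hmp : MeasurePreserving E volume volume := volume_preserving_piFinSuccAbove _ 0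
    have hmps := hmp.symm
    have hint : ∀ f : (Fin (n + 1) → ℝ) → ℝ≥0∞, Measurable f →
        ∫⁻ x, f x = ∫⁻ t : ℝ, ∫⁻ w : Fin n → ℝ, f (E.symm (t, w)) := by
      intro f hf
      rw [← hmps.lintegral_comp hf]
      have : (volume : Measure (ℝ × (Fin n → ℝ))) = (volume : Measure ℝ).prod volume := rfl
      rw [this]
      exact lintegral_prod (fun z => f (E.symm z)) (hf.comp E.symm.measurable).aemeasurable
    have hslice : ∀ f : (Fin (n + 1) → ℝ) → ℝ≥0∞, Measurable f →
        Measurable fun t : ℝ => ∫⁻ w : Fin n → ℝ, f (E.symm (t, w)) := by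
      intro f hf
      exact (hf.comp E.symm.measurable).lintegral_prod_right'
    have hsec : ∀ f : (Fin (n + 1) → ℝ) → ℝ≥0∞, Measurable f → ∀ t : ℝ,
        Measurable fun w : Fin n → ℝ => f (E.symm (t, w)) := by
      intro f hf t
      exact (hf.comp E.symm.measurable).comp measurable_prodMk_left
    have hmid : ∀ (t t' : ℝ) (w w' : Fin n → ℝ), (1 / 2 : ℝ) • (E.symm (t, w) + E.symm (t', w'))
        = E.symm ((t + t') / 2, (1 / 2 : ℝ) • (w + w')) := by
      intro t t' w w'
      have h1 : ∀ p : ℝ × (Fin n → ℝ), (E.symm p) 0 = p.1 := by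
        intro p
        exact congrArg Prod.fst (E.apply_symm_apply p)
      have h2 : ∀ (p : ℝ × (Fin n → ℝ)) (j : Fin n), (E.symm p) (Fin.succ j) = p.2 j := by
        intro p j
        have := congrArg Prod.snd (E.apply_symm_apply p)
        exact congrFun this j
      ext i
      refine Fin.cases ?_ (fun j => ?_) i
      · simp [h1]
        ring
      · simp [h2]
        ring
    rw [hint a ha, hint b hb, hint c hc]
    apply pl_one (hslice a ha) (hslice b hb) (hslice c hc)
    intro t t'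
    apply ih _ _ _ (hsec a ha t) (hsec b hb t') (hsec c hc _)
    intro w w'
    have := h (E.symm (t, w)) (E.symm (t', w'))
    rwa [hmid] at this

/-- The Prékopa–Leindler inequality on Euclidean space. -/
theorem pl_eu {d : ℕ} {a b c : Eu d → ℝ≥0∞} (ha : Measurable a) (hb : Measurable b)
    (hc : Measurable c) (h : ∀ x y, a x * b y ≤ c ((1 / 2 : ℝ) • (x + y)) ^ 2) :
    (∫⁻ x, a x) * ∫⁻ x, b x ≤ (∫⁻ x, c x) ^ 2 := by
  have hp := PiLp.volume_preserving_toLp (Fin d)
  have hq := PiLp.volume_preserving_ofLp (Fin d)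
  have e : ∀ f : Eu d → ℝ≥0∞, Measurable f →
      ∫⁻ x, f x = ∫⁻ v : Fin d → ℝ, f (WithLp.toLp 2 v) := by
    intro f hf
    rw [hp.lintegral_comp hf]
  rw [e a ha, e b hb, e c hc]
  apply pl_pi d _ _ _ (ha.comp hp.measurable) (hb.comp hp.measurable) (hc.comp hp.measurable)
  intro v w
  have := h (WithLp.toLp 2 v) (WithLp.toLp 2 w)
  have e2 : (1 / 2 : ℝ) • (WithLp.toLp 2 v + WithLp.toLp 2 w) = WithLp.toLp 2 ((1 / 2 : ℝ) • (v + w)) := by
    rfl
  rwa [e2] at this

/-- The Prékopa–Leindler inequality for integrable real functions. -/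
theorem pl_real {d : ℕ} {a b c : Eu d → ℝ} (ha : Measurable a) (hb : Measurable b)
    (hc : Measurable c) (ha0 : ∀ x, 0 ≤ a x) (hb0 : ∀ x, 0 ≤ b x) (hc0 : ∀ x, 0 ≤ c x)
    (hai : Integrable a) (hbi : Integrable b) (hci : Integrable c)
    (h : ∀ x y, a x * b y ≤ c ((1 / 2 : ℝ) • (x + y)) ^ 2) :
    (∫ x, a x) * ∫ x, b x ≤ (∫ x, c x) ^ 2 := by
  have key := pl_eu (a := fun x => ENNReal.ofReal (a x)) (b := fun x => ENNReal.ofReal (b x))
    (c := fun x => ENNReal.ofReal (c x)) ha.ennreal_ofReal hb.ennreal_ofReal hc.ennreal_ofReal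
    (fun x y => by
      rw [← ENNReal.ofReal_mul (ha0 x), ← ENNReal.ofReal_pow (hc0 _)]
      exact ENNReal.ofReal_le_ofReal (h x y))
  rw [← ofReal_integral_eq_lintegral_ofReal hai (Filter.Eventually.of_forall ha0),
    ← ofReal_integral_eq_lintegral_ofReal hbi (Filter.Eventually.of_forall hb0),
    ← ofReal_integral_eq_lintegral_ofReal hci (Filter.Eventually.of_forall hc0),
    ← ENNReal.ofReal_mul (integral_nonneg ha0), ← ENNReal.ofReal_pow (integral_nonneg hc0)] at key
  have h0 : 0 ≤ ∫ x, c x := integral_nonneg hc0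
  exact (ENNReal.ofReal_le_ofReal_iff (by positivity)).1 key

end Vale.Agent.Lib.P074
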