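import Vale.Agent.Lib.P074.Dual

/-!
The variation of the value along a path of sites.
-/

open MeasureTheory ENNReal NNReal Set Metric Filter Topology

namespace Vale.Agent.Lib.P074

variable {d : ℕ} {I : Type*} [Fintype I] [Nonempty I]

/-- An abstract telescoping inequality. -/
lemma telescope {N : ℕ} (hN : 0 < N) {Vg V1 βg β1 : ℕ → ℝ} {E A : ℝ}
    (h1 : ∀ i, i < N → Vg (i + 1) - Vg i ≤ βg (i + 1) / N)
    (h2 : ∀ i, i < N → β1 i / N ≤ V1 (i + 1) - V1 i)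
    (hE : ∀ i, i ≤ N → βg i - β1 i ≤ E)
    (hA : ∀ i, i ≤ N → |β1 i| ≤ A) :
    (Vg N - V1 N) - (Vg 0 - V1 0) ≤ E + 2 * A / N := by
  have hNpos : (0 : ℝ) < N := by exact_mod_cast hN
  have key : ∀ n, n ≤ N → (Vg n - V1 n) - (Vg 0 - V1 0) ≤ n * E / N + (β1 n - β1 0) / N := by
    intro n
    induction n with
    | zero =>
      intro _
      simp
    | succ n ih =>
      intro hn
      have h3 := ih (by omega)
      have h4 := h1 n (by omega)
      have h5 := h2 n (by omega)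
      have h6 := hE (n + 1) hn
      have h7 : (βg (n + 1) - β1 (n + 1)) / N ≤ E / N := by gcongr
      have e1 : ((n + 1 : ℕ) : ℝ) * E / N = n * E / N + E / N := by
        push_cast
        ring
      have e2 : (β1 (n + 1) - β1 0) / N = (β1 n - β1 0) / N + (β1 (n + 1) - β1 n) / N := by ring
      have e3 : (βg (n + 1) - β1 (n + 1)) / N = βg (n + 1) / N - β1 (n + 1) / N := by ring
      have e4 : (β1 (n + 1) - β1 n) / N = β1 (n + 1) / N - β1 n / N := by ring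
      rw [e1, e2, e4]
      rw [e3] at h7
      linarith
  have h3 := key N le_rfl
  have e1 : (N : ℝ) * E / N = E := by field_simp
  rw [e1] at h3
  refine h3.trans ?_
  have h4 := abs_le.1 (hA N le_rfl)
  have h5 := abs_le.1 (hA 0 (Nat.zero_le _))
  have h6 : (β1 N - β1 0) / N ≤ 2 * A / N := by
    gcongr
    linarith [h4.2, h5.1]
  linarith

/-- The density one as an object. -/
lemma dens_one {K : Set (Eu d)} {R : ℝ} (hKR : ∀ x ∈ K, ‖x‖ ≤ R) (hKtop : volume K ≠ ⊤)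
    (hKm : MeasurableSet K) : Dens K R (fun _ => (1 : ℝ)) :=
  ⟨hKR, hKtop, hKm, measurable_const, fun _ _ => zero_le_one, fun _ _ => one_le_two⟩

lemma bint_one (K : Set (Eu d)) (y : I → Eu d) (h : I → ℝ) (k : I) :
    bint K (fun _ => (1 : ℝ)) y h k = ∫ x in cell K y h k, x := by
  unfold bint
  simp

/-- Weighted Cauchy–Schwarz for finite sums of inner products. -/
lemma sum_inner_sq_le {m : I → ℝ} (hm : ∀ k, 0 < m k) (e Δ : I → Eu d) :
    (∑ k, m k * inner ℝ (e k) (Δ k)) ^ 2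
      ≤ (∑ k, m k * ‖Δ k‖ ^ 2) * ∑ k, m k * ‖e k‖ ^ 2 := by
  have h1 : |∑ k, m k * inner ℝ (e k) (Δ k)|
      ≤ ∑ k, (Real.sqrt (m k) * ‖Δ k‖) * (Real.sqrt (m k) * ‖e k‖) := by
    refine (Finset.abs_sum_le_sum_abs _ _).trans (Finset.sum_le_sum (fun k _ => ?_))
    rw [abs_mul, abs_of_pos (hm k)]
    have h2 := abs_real_inner_le_norm (e k) (Δ k)
    have h3 : (Real.sqrt (m k) * ‖Δ k‖) * (Real.sqrt (m k) * ‖e k‖)
        = (Real.sqrt (m k) * Real.sqrt (m k)) * (‖e k‖ * ‖Δ k‖) := by ring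
    rw [h3, Real.mul_self_sqrt (hm k).le]
    exact mul_le_mul_of_nonneg_left h2 (hm k).le
  have h2 := Finset.sum_mul_sq_le_sq_mul_sq Finset.univ (fun k => Real.sqrt (m k) * ‖Δ k‖)
    (fun k => Real.sqrt (m k) * ‖e k‖)
  have h3 : ∀ v : Eu d, ∀ k, (Real.sqrt (m k) * ‖v‖) ^ 2 = m k * ‖v‖ ^ 2 := by
    intro v k
    rw [mul_pow, Real.sq_sqrt (hm k).le]
  simp only [h3] at h2
  calc (∑ k, m k * inner ℝ (e k) (Δ k)) ^ 2 = |∑ k, m k * inner ℝ (e k) (Δ k)| ^ 2 := (sq_abs _).symm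
    _ ≤ (∑ k, (Real.sqrt (m k) * ‖Δ k‖) * (Real.sqrt (m k) * ‖e k‖)) ^ 2 := by gcongr
    _ ≤ _ := h2

/-- The difference of the speeds. -/
lemma beta_diff_sq {K : Set (Eu d)} {R : ℝ} (hR : 0 < R) (hKR : ∀ x ∈ K, ‖x‖ ≤ R)
    (hKm : MeasurableSet K) (hKtop : volume K ≠ ⊤) (hKconv : Convex ℝ K) {y : I → Eu d}
    (hy : Function.Injective y) {m : I → ℝ} (hm : ∀ k, 0 < m k) {h h' : I → ℝ}
    (hb : ∀ k, ∫ x in cell K y h k, (1 : ℝ) = m k)
    {g : Eu d → ℝ} (hgm : Measurable g) (hg1 : ∀ x ∈ K, 1 / 2 ≤ g x) (hg2 : ∀ x ∈ K, g x ≤ 2)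
    (hb' : ∀ k, ∫ x in cell K y h' k, g x = m k) (Δ : I → Eu d) :
    (∑ k, inner ℝ (bint K g y h' k) (Δ k) - ∑ k, inner ℝ (bint K (fun _ => 1) y h k) (Δ k)) ^ 2
      ≤ (∑ k, m k * ‖Δ k‖ ^ 2) * (160 * R ^ 2 * ∫ x in K, (g x - 1) ^ 2) := by
  have hb1 : ∀ k, (volume (cell K y h k)).toReal = m k := by
    intro k
    have := hb k
    simpa [Measure.real] using this
  have hc := bary_compare hR hKR hKm hKtop hKconv hy hm hb1 hgm hg1 hg2 hb' (h' := h')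
  set e : I → Eu d := fun k => (m k)⁻¹ • (∫ x in cell K y h' k, g x • x)
    - (m k)⁻¹ • ∫ x in cell K y h k, x with he
  have e1 : ∑ k, inner ℝ (bint K g y h' k) (Δ k) - ∑ k, inner ℝ (bint K (fun _ => 1) y h k) (Δ k)
      = ∑ k, m k * inner ℝ (e k) (Δ k) := by
    rw [← Finset.sum_sub_distrib]
    apply Finset.sum_congr rfl
    intro k _
    rw [bint_one, ← inner_sub_left, ← real_inner_smul_left]
    congr 1
    simp only [he, smul_sub, smul_smul, mul_inv_cancel₀ (hm k).ne', one_smul]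
    rfl
  rw [e1]
  refine (sum_inner_sq_le hm e Δ).trans ?_
  apply mul_le_mul_of_nonneg_left _ (Finset.sum_nonneg (fun k _ => mul_nonneg (hm k).le (sq_nonneg _)))
  refine le_trans (le_of_eq ?_) hc
  apply Finset.sum_congr rfl
  intro k _
  simp only [he]
  rw [norm_sub_rev]

/-- The bound on the speed. -/
lemma beta_bound {K : Set (Eu d)} {R : ℝ} {g : Eu d → ℝ} (D : Dens K R g) {y : I → Eu d} {h m : I → ℝ}
    (hm : ∀ k, 0 < m k) (hb : ∀ k, ∫ x in cell K y h k, g x = m k) (Δ : I → Eu d) :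
    |∑ k, inner ℝ (bint K g y h k) (Δ k)| ≤ ∑ k, R * m k * ‖Δ k‖ := by
  refine (Finset.abs_sum_le_sum_abs _ _).trans (Finset.sum_le_sum (fun k _ => ?_))
  refine (abs_real_inner_le_norm _ _).trans ?_
  apply mul_le_mul_of_nonneg_right _ (norm_nonneg _)
  have h1 := bary_bound D.hKR D.hKtop (cell_subset K y h k) (measurableSet_cell D.hKm y h k) D.hgm
    D.hg0 D.hg2 (hm k) (hb k)
  rw [norm_smul, norm_inv, Real.norm_eq_abs, abs_of_pos (hm k), inv_mul_le_iff₀ (hm k)] at h1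
  unfold bint
  linarith

/-- Variation along the path, with a fixed mesh. -/
theorem path_mesh {K : Set (Eu d)} {R : ℝ} (hR : 0 < R) (hKR : ∀ x ∈ K, ‖x‖ ≤ R)
    (hKm : MeasurableSet K) (hKtop : volume K ≠ ⊤) (hKconv : Convex ℝ K) {y₀ y₁ : I → Eu d}
    (hinj : ∀ r : ℚ, Function.Injective (fun k => y₀ k + (r : ℝ) • (y₁ k - y₀ k)))
    {m : I → ℝ} (hm : ∀ k, 0 < m k) (hsum : ∑ k, m k = (volume K).toReal)
    {g : Eu d → ℝ} (hgm : Measurable g) (hg1 : ∀ x ∈ K, 1 / 2 ≤ g x) (hg2 : ∀ x ∈ K, g x ≤ 2)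
    (hgsum : ∑ k, m k = ∫ x in K, g x)
    {h₀ h₁ k₀ k₁ : I → ℝ}
    (hh₀ : ∀ k, ∫ x in cell K y₀ h₀ k, (1 : ℝ) = m k)
    (hh₁ : ∀ k, ∫ x in cell K y₁ h₁ k, (1 : ℝ) = m k)
    (hk₀ : ∀ k, ∫ x in cell K y₀ k₀ k, g x = m k)
    (hk₁ : ∀ k, ∫ x in cell K y₁ k₁ k, g x = m k) {N : ℕ} (hN : 0 < N) :
    (dualVal K g y₁ k₁ m - dualVal K (fun _ => 1) y₁ h₁ m)
        - (dualVal K g y₀ k₀ m - dualVal K (fun _ => 1) y₀ h₀ m)
      ≤ Real.sqrt ((∑ k, m k * ‖y₁ k - y₀ k‖ ^ 2) * (160 * R ^ 2 * ∫ x in K, (g x - 1) ^ 2))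
        + 2 * (∑ k, R * m k * ‖y₁ k - y₀ k‖) / N := by
  have hNpos : (0 : ℝ) < N := by exact_mod_cast hN
  have D1 := dens_one hKR hKtop hKm
  have Dg : Dens K R g := ⟨hKR, hKtop, hKm, hgm, fun x hx => by linarith [hg1 x hx], hg2⟩
  set Δ : I → Eu d := fun k => y₁ k - y₀ k with hΔ
  set F : ℕ → I → Eu d := fun i k => y₀ k + ((i : ℝ) / N) • Δ k with hF
  have hFinj : ∀ i, Function.Injective (F i) := by
    intro i
    have := hinj ((i : ℚ) / N)
    simpa [hF, hΔ] using this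
  have hF0 : F 0 = y₀ := by
    funext k
    simp [hF]
  have hFN : F N = y₁ := by
    funext k
    simp only [hF, hΔ]
    rw [div_self hNpos.ne', one_smul]
    abel
  have hone : (∑ k, m k) = ∫ x in K, (1 : ℝ) := by
    rw [hsum]
    simp [Measure.real]
  have hexg : ∀ i, ∃ h : I → ℝ, ∀ k, ∫ x in cell K (F i) h k, g x = m k := fun i =>
    exists_balanced hR.le hKR hKtop hKm (hFinj i) hgm Dg.hg0 hg2 hm hgsum
  have hex1 : ∀ i, ∃ h : I → ℝ, ∀ k, ∫ x in cell K (F i) h k, (1 : ℝ) = m k := fun i =>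
    exists_balanced hR.le hKR hKtop hKm (hFinj i) measurable_const D1.hg0 D1.hg2 hm hone
  choose pg hpg using hexg
  choose p1 hp1 using hex1
  have hb0g : ∀ k, ∫ x in cell K y₀ (pg 0) k, g x = m k := by
    have := hpg 0
    rwa [hF0] at this
  have hb01 : ∀ k, ∫ x in cell K y₀ (p1 0) k, (1 : ℝ) = m k := by
    have := hp1 0
    rwa [hF0] at this
  have hbNg : ∀ k, ∫ x in cell K y₁ (pg N) k, g x = m k := by
    have := hpg N
    rwa [hFN] at this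
  have hbN1 : ∀ k, ∫ x in cell K y₁ (p1 N) k, (1 : ℝ) = m k := by
    have := hp1 N
    rwa [hFN] at this
  have hy₀ : Function.Injective y₀ := hF0 ▸ hFinj 0
  have hy₁ : Function.Injective y₁ := hFN ▸ hFinj N
  have e1 : dualVal K g (F 0) (pg 0) m = dualVal K g y₀ k₀ m := by
    rw [hF0]; exact dual_unique Dg hy₀ hb0g hk₀
  have e2 : dualVal K (fun _ => 1) (F 0) (p1 0) m = dualVal K (fun _ => 1) y₀ h₀ m := by
    rw [hF0]; exact dual_unique D1 hy₀ hb01 hh₀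
  have e3 : dualVal K g (F N) (pg N) m = dualVal K g y₁ k₁ m := by
    rw [hFN]; exact dual_unique Dg hy₁ hbNg hk₁
  have e4 : dualVal K (fun _ => 1) (F N) (p1 N) m = dualVal K (fun _ => 1) y₁ h₁ m := by
    rw [hFN]; exact dual_unique D1 hy₁ hbN1 hh₁
  have hstep : ∀ i k, F (i + 1) k - F i k = (1 / (N : ℝ)) • Δ k := by
    intro i k
    simp only [hF]
    rw [add_sub_add_left_eq_sub, ← sub_smul]
    congr 1
    push_cast
    ring
  have hin : ∀ (G : Eu d → ℝ) (p : I → ℝ) (i : ℕ),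
      ∑ k, inner ℝ (bint K G (F i) p k) (F (i + 1) k - F i k)
        = (∑ k, inner ℝ (bint K G (F i) p k) (Δ k)) / N := by
    intro G p i
    simp only [hstep, real_inner_smul_right]
    rw [Finset.sum_div]
    exact Finset.sum_congr rfl (fun k _ => by ring)
  have hin' : ∀ (G : Eu d → ℝ) (p : I → ℝ) (i : ℕ),
      ∑ k, inner ℝ (bint K G (F (i + 1)) p k) (F (i + 1) k - F i k)
        = (∑ k, inner ℝ (bint K G (F (i + 1)) p k) (Δ k)) / N := by
    intro G p i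
    simp only [hstep, real_inner_smul_right]
    rw [Finset.sum_div]
    exact Finset.sum_congr rfl (fun k _ => by ring)
  have key := telescope (N := N) hN
    (Vg := fun i => dualVal K g (F i) (pg i) m)
    (V1 := fun i => dualVal K (fun _ => 1) (F i) (p1 i) m)
    (βg := fun i => ∑ k, inner ℝ (bint K g (F i) (pg i) k) (Δ k))
    (β1 := fun i => ∑ k, inner ℝ (bint K (fun _ => 1) (F i) (p1 i) k) (Δ k))
    (E := Real.sqrt ((∑ k, m k * ‖y₁ k - y₀ k‖ ^ 2) * (160 * R ^ 2 * ∫ x in K, (g x - 1) ^ 2)))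
    (A := ∑ k, R * m k * ‖y₁ k - y₀ k‖)
    (fun i _ => by
      have := step_upper Dg (y := F i) (y' := F (i + 1)) (hFinj (i + 1)) (h := pg i) (hpg (i + 1))
      rw [hin'] at this
      exact this)
    (fun i _ => by
      have := step_lower D1 (y := F i) (y' := F (i + 1)) (hFinj i) (h' := p1 (i + 1)) (hp1 i)
      rw [hin] at this
      exact this)
    (fun i _ => by
      apply Real.le_sqrt_of_sq_le
      exact beta_diff_sq hR hKR hKm hKtop hKconv (hFinj i) hm (hp1 i) hgm hg1 hg2 (hpg i) Δ)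
    (fun i _ => beta_bound D1 hm (hp1 i) Δ)
  rw [e1, e2, e3, e4] at key
  exact key

/-- Variation along the path. -/
theorem path_bound {K : Set (Eu d)} {R : ℝ} (hR : 0 < R) (hKR : ∀ x ∈ K, ‖x‖ ≤ R)
    (hKm : MeasurableSet K) (hKtop : volume K ≠ ⊤) (hKconv : Convex ℝ K) {y₀ y₁ : I → Eu d}
    (hinj : ∀ r : ℚ, Function.Injective (fun k => y₀ k + (r : ℝ) • (y₁ k - y₀ k)))
    {m : I → ℝ} (hm : ∀ k, 0 < m k) (hsum : ∑ k, m k = (volume K).toReal)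
    {g : Eu d → ℝ} (hgm : Measurable g) (hg1 : ∀ x ∈ K, 1 / 2 ≤ g x) (hg2 : ∀ x ∈ K, g x ≤ 2)
    (hgsum : ∑ k, m k = ∫ x in K, g x)
    {h₀ h₁ k₀ k₁ : I → ℝ}
    (hh₀ : ∀ k, ∫ x in cell K y₀ h₀ k, (1 : ℝ) = m k)
    (hh₁ : ∀ k, ∫ x in cell K y₁ h₁ k, (1 : ℝ) = m k)
    (hk₀ : ∀ k, ∫ x in cell K y₀ k₀ k, g x = m k)
    (hk₁ : ∀ k, ∫ x in cell K y₁ k₁ k, g x = m k) :
    (dualVal K g y₁ k₁ m - dualVal K (fun _ => 1) y₁ h₁ m)
        - (dualVal K g y₀ k₀ m - dualVal K (fun _ => 1) y₀ h₀ m)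
      ≤ Real.sqrt ((∑ k, m k * ‖y₁ k - y₀ k‖ ^ 2) * (160 * R ^ 2 * ∫ x in K, (g x - 1) ^ 2)) := by
  have hlim : Tendsto (fun N : ℕ => Real.sqrt ((∑ k, m k * ‖y₁ k - y₀ k‖ ^ 2)
        * (160 * R ^ 2 * ∫ x in K, (g x - 1) ^ 2))
        + 2 * (∑ k, R * m k * ‖y₁ k - y₀ k‖) / N) atTop
      (𝓝 (Real.sqrt ((∑ k, m k * ‖y₁ k - y₀ k‖ ^ 2)
        * (160 * R ^ 2 * ∫ x in K, (g x - 1) ^ 2)) + 0)) :=
    tendsto_const_nhds.add (tendsto_const_div_atTop_nhds_zero_nat _)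
  rw [add_zero] at hlim
  apply ge_of_tendsto hlim
  filter_upwards [eventually_gt_atTop 0] with N hN
  exact path_mesh hR hKR hKm hKtop hKconv hinj hm hsum hgm hg1 hg2 hgsum hh₀ hh₁ hk₀ hk₁ hN

end Vale.Agent.Lib.P074
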