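import Vale.Agent.Lib.P074.Sel

/-!
The oscillation of the difference of two Laguerre potentials.
-/

open MeasureTheory ENNReal NNReal Set Metric Filter Topology

namespace Vale.Agent.Lib.P074

variable {d : ℕ} {I : Type*} [Fintype I] [Nonempty I]

lemma norm_le_sum_norm (y : I → Eu d) (k : I) : ‖y k‖ ≤ ∑ l, ‖y l‖ :=
  Finset.single_le_sum (f := fun l => ‖y l‖) (fun l _ => norm_nonneg _) (Finset.mem_univ k)

/-- The value in terms of the map. -/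
lemma dual_one_eq {K : Set (Eu d)} {R : ℝ} (hKR : ∀ x ∈ K, ‖x‖ ≤ R) (hKtop : volume K ≠ ⊤)
    (hKm : MeasurableSet K) {y : I → Eu d} (hy : Function.Injective y) {h m : I → ℝ}
    (hb : ∀ k, ∫ x in cell K y h k, (1 : ℝ) = m k) :
    dualVal K (fun _ => 1) y h m = ∫ x in K, inner ℝ x (lagT y h x) := by
  have D1 := dens_one hKR hKtop hKm
  rw [strong_dual D1 hy hb]
  have hi : IntegrableOn (fun x => inner ℝ x (y (sel y h x))) K := by
    refine intOn_real hKtop subset_rfl hKm ?_ (B := R * ∑ l, ‖y l‖) (fun x hx => ?_)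
    · exact measurable_comp_sel y h (F := fun k x => inner ℝ x (y k))
        (fun k => (measurable_id.inner measurable_const))
    · refine (abs_real_inner_le_norm _ _).trans ?_
      exact mul_le_mul (hKR x hx) (norm_le_sum_norm y _) (norm_nonneg _)
        ((norm_nonneg _).trans (hKR x hx))
  have := integral_sel (F := fun k x => inner ℝ x (y k)) hKm hy h hi
  unfold lagT
  rw [this]
  apply Finset.sum_congr rfl
  intro k _
  have hvec : IntegrableOn (fun x : Eu d => x) (cell K y h k) :=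
    intOn_vec hKtop (cell_subset K y h k) (measurableSet_cell hKm y h k) measurable_id
      (B := R) (fun x hx => hKR x hx)
  have e := integral_inner (𝕜 := ℝ) hvec (y k)
  rw [bint_one, real_inner_comm, ← e]
  apply integral_congr_ae
  exact Eventually.of_forall (fun x => real_inner_comm _ _)

/-- The integral of a weight through the selection. -/
lemma int_weight_sel {K : Set (Eu d)} (hKtop : volume K ≠ ⊤)
    (hKm : MeasurableSet K) {y : I → Eu d} (hy : Function.Injective y) {h m : I → ℝ}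
    (hb : ∀ k, ∫ x in cell K y h k, (1 : ℝ) = m k) (κ : I → ℝ) :
    ∫ x in K, κ (sel y h x) = ∑ k, m k * κ k := by
  have hi : IntegrableOn (fun x => κ (sel y h x)) K := by
    refine intOn_real hKtop subset_rfl hKm ?_ (B := ∑ l, |κ l|) (fun x _ => ?_)
    · exact measurable_comp_sel y h (F := fun k _ => κ k) (fun _ => measurable_const)
    · exact Finset.single_le_sum (f := fun l => |κ l|) (fun l _ => abs_nonneg _) (Finset.mem_univ _)
  have := integral_sel (F := fun k _ => κ k) hKm hy h hi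
  rw [this]
  apply Finset.sum_congr rfl
  intro k _
  rw [← hb k, integral_const, integral_const]
  simp

/-- Rewriting the integral against a perturbed density. -/
lemma int_perturb {K : Set (Eu d)} (hKm : MeasurableSet K) {Ξ Φ : Eu d → ℝ} {u : Eu d} {s : ℝ}
    (hsupp : ∀ x, Ξ x ≠ 0 → x ∈ K ∧ x + u ∈ K)
    (iΦ : IntegrableOn Φ K) (iΞΦ : IntegrableOn (fun x => Ξ x * Φ x) K)
    (iΞ'Φ : IntegrableOn (fun x => Ξ (x - u) * Φ x) K) {g : Eu d → ℝ}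
    (hg : ∀ x ∈ K, g x = 1 + s * (Ξ (x - u) - Ξ x)) :
    ∫ x in K, g x * Φ x
      = (∫ x in K, Φ x) - s * (∫ x in K, Ξ x * Φ x) + s * ∫ x in K, Ξ x * Φ (x + u) := by
  have e1 : ∫ x in K, g x * Φ x = ∫ x in K, (Φ x - s * (Ξ x * Φ x) + s * (Ξ (x - u) * Φ x)) := by
    apply setIntegral_congr_fun hKm
    intro x hx
    simp only
    rw [hg x hx]
    ring
  have i1 : IntegrableOn (fun x => Φ x - s * (Ξ x * Φ x)) K := iΦ.sub (iΞΦ.const_mul s)
  rw [e1, integral_add i1 (iΞ'Φ.const_mul s), integral_sub iΦ (iΞΦ.const_mul s), integral_const_mul,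
    integral_const_mul, int_shift hsupp]

/-- The lower bound of the dual value against a perturbed density. -/
theorem dual_perturb_lower {K : Set (Eu d)} {R : ℝ} (hR : 0 ≤ R) (hKR : ∀ x ∈ K, ‖x‖ ≤ R)
    (hKtop : volume K ≠ ⊤)
    (hKm : MeasurableSet K) {y : I → Eu d} (hy : Function.Injective y) {h m : I → ℝ}
    (hb : ∀ k, ∫ x in cell K y h k, (1 : ℝ) = m k) {Ξ : Eu d → ℝ} (hΞm : Measurable Ξ)
    (hΞ0 : ∀ x, 0 ≤ Ξ x) {CΞ : ℝ} (hΞC : ∀ x, Ξ x ≤ CΞ) {s : ℝ} (hs1 : ∀ x, s * Ξ x ≤ 1)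
    (hs0 : 0 ≤ s) {u : Eu d} (hsupp : ∀ x, Ξ x ≠ 0 → x ∈ K ∧ x + u ∈ K) {g : Eu d → ℝ}
    (hg : ∀ x ∈ K, g x = 1 + s * (Ξ (x - u) - Ξ x)) (κ : I → ℝ) :
    dualVal K (fun _ => 1) y h m + s * ∫ x in K, Ξ x * inner ℝ (lagT y h x) u
      ≤ dualVal K g y κ m := by
  set M := ∑ l, ‖y l‖ with hM
  have hy' : ∀ k, ‖y k‖ ≤ M := norm_le_sum_norm y
  set Φ := lagPhi y κ with hΦ
  have hΦc : Continuous Φ := continuous_lagPhi y κ
  have hM0 : 0 ≤ M := Finset.sum_nonneg (fun _ _ => norm_nonneg _)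
  have hCΞ : ∀ x, |Ξ x| ≤ CΞ := fun x => by
    rw [abs_of_nonneg (hΞ0 x)]; exact hΞC x
  have hCΞ0 : 0 ≤ CΞ := (abs_nonneg _).trans (hCΞ 0)
  have bΦ : ∀ x ∈ K, |Φ x| ≤ R * M + ‖κ‖ := fun x hx => abs_lagPhi_le hy' κ (hKR x hx)
  have bΦ' : ∀ x ∈ K, |Φ (x + u)| ≤ (R + ‖u‖) * M + ‖κ‖ := fun x hx =>
    abs_lagPhi_le hy' κ (x := x + u) ((norm_add_le _ _).trans (by linarith [hKR x hx]))
  have hu0 : 0 ≤ (R + ‖u‖) * M + ‖κ‖ := by positivity
  have hr0 : 0 ≤ R * M + ‖κ‖ := by positivity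
  have iΦ : IntegrableOn Φ K := intOn_real hKtop subset_rfl hKm hΦc.measurable bΦ
  have iΞΦ : IntegrableOn (fun x => Ξ x * Φ x) K := by
    refine intOn_real hKtop subset_rfl hKm (hΞm.mul hΦc.measurable) (B := CΞ * (R * M + ‖κ‖))
      (fun x hx => ?_)
    rw [abs_mul]
    exact mul_le_mul (hCΞ x) (bΦ x hx) (abs_nonneg _) hCΞ0
  have iΞ'Φ : IntegrableOn (fun x => Ξ (x - u) * Φ x) K := by
    refine intOn_real hKtop subset_rfl hKm ((hΞm.comp (measurable_id.sub_const u)).mul hΦc.measurable)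
      (B := CΞ * (R * M + ‖κ‖)) (fun x hx => ?_)
    rw [abs_mul]
    exact mul_le_mul (hCΞ _) (bΦ x hx) (abs_nonneg _) hCΞ0
  have hΦ'm : Measurable fun x => Φ (x + u) := hΦc.measurable.comp (measurable_id.add_const u)
  have iΞΦ' : IntegrableOn (fun x => Ξ x * Φ (x + u)) K := by
    refine intOn_real hKtop subset_rfl hKm (hΞm.mul hΦ'm)
      (B := CΞ * ((R + ‖u‖) * M + ‖κ‖)) (fun x hx => ?_)
    rw [abs_mul]
    exact mul_le_mul (hCΞ x) (bΦ' x hx) (abs_nonneg _) hCΞ0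
  have hTm := measurable_lagT y h
  have iT : IntegrableOn (fun x => Ξ x * inner ℝ (lagT y h x) u) K := by
    refine intOn_real hKtop subset_rfl hKm (hΞm.mul (hTm.inner measurable_const))
      (B := CΞ * (M * ‖u‖)) (fun x hx => ?_)
    rw [abs_mul]
    refine mul_le_mul (hCΞ x) ?_ (abs_nonneg _) hCΞ0
    refine (abs_real_inner_le_norm _ _).trans ?_
    exact mul_le_mul_of_nonneg_right (norm_lagT_le hy' h x) (norm_nonneg _)
  have iX : IntegrableOn (fun x => inner ℝ x (lagT y h x)) K := by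
    refine intOn_real hKtop subset_rfl hKm (measurable_id.inner hTm) (B := R * M) (fun x hx => ?_)
    refine (abs_real_inner_le_norm _ _).trans ?_
    exact mul_le_mul (hKR x hx) (norm_lagT_le hy' h x) (norm_nonneg _) hR
  have iκ : IntegrableOn (fun x => κ (sel y h x)) K := by
    refine intOn_real hKtop subset_rfl hKm ?_ (B := ∑ l, |κ l|) (fun x _ => ?_)
    · exact measurable_comp_sel y h (F := fun k _ => κ k) (fun _ => measurable_const)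
    · exact Finset.single_le_sum (f := fun l => |κ l|) (fun l _ => abs_nonneg _) (Finset.mem_univ _)
  have e1 := int_perturb hKm hsupp iΦ iΞΦ iΞ'Φ hg
  have i1 : IntegrableOn (fun x => inner ℝ x (lagT y h x) - κ (sel y h x)) K := iX.sub iκ
  have i2 : IntegrableOn (fun x => inner ℝ x (lagT y h x) - κ (sel y h x)
      + s * (Ξ x * inner ℝ (lagT y h x) u)) K := i1.add (iT.const_mul s)
  have i3 : IntegrableOn (fun x => Φ x - s * (Ξ x * Φ x)) K := iΦ.sub (iΞΦ.const_mul s)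
  have i4 : IntegrableOn (fun x => Φ x - s * (Ξ x * Φ x) + s * (Ξ x * Φ (x + u))) K :=
    i3.add (iΞΦ'.const_mul s)
  have key : ∫ x in K, (inner ℝ x (lagT y h x) - κ (sel y h x)
      + s * (Ξ x * inner ℝ (lagT y h x) u))
      ≤ ∫ x in K, (Φ x - s * (Ξ x * Φ x) + s * (Ξ x * Φ (x + u))) := by
    apply setIntegral_mono_on i2 i4 hKm
    intro x _
    have h1 : aff y κ (sel y h x) x ≤ Φ x := aff_le_lagPhi y κ _ x
    have h2 : aff y κ (sel y h x) (x + u) ≤ Φ (x + u) := aff_le_lagPhi y κ _ (x + u)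
    have hc0 : 0 ≤ s * Ξ x := mul_nonneg hs0 (hΞ0 x)
    have hc1 := hs1 x
    have e2 : aff y κ (sel y h x) (x + u)
        = aff y κ (sel y h x) x + inner ℝ (lagT y h x) u := by
      unfold aff lagT
      rw [inner_add_left, real_inner_comm (y (sel y h x)) u]
      ring
    rw [e2] at h2
    have e3 : aff y κ (sel y h x) x = inner ℝ x (lagT y h x) - κ (sel y h x) := rfl
    rw [e3] at h1 h2
    have h3 : (s * Ξ x) * (inner ℝ x (lagT y h x) - κ (sel y h x) + inner ℝ (lagT y h x) u)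
        ≤ (s * Ξ x) * Φ (x + u) := mul_le_mul_of_nonneg_left h2 hc0
    have h4 : (1 - s * Ξ x) * (inner ℝ x (lagT y h x) - κ (sel y h x))
        ≤ (1 - s * Ξ x) * Φ x := mul_le_mul_of_nonneg_left h1 (by linarith)
    nlinarith
  rw [integral_add i1 (iT.const_mul s), integral_sub iX iκ, integral_const_mul,
    integral_add i3 (iΞΦ'.const_mul s), integral_sub iΦ (iΞΦ.const_mul s), integral_const_mul,
    integral_const_mul, int_weight_sel hKtop hKm hy hb κ, ← dual_one_eq hKR hKtop hKm hy hb] at key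
  unfold dualVal at key ⊢
  rw [e1]
  simp only [one_mul] at key ⊢
  linarith

/-- The chain of subgradient inequalities. -/
lemma chain_subgrad (y : I → Eu d) (h : I → ℝ) (x u : Eu d) (n : ℕ) :
    lagPhi y h (x + (n : ℝ) • u) - lagPhi y h x
      ≤ ∑ i ∈ Finset.range n, inner ℝ (lagT y h (x + (i : ℝ) • u)) u
        + (inner ℝ (lagT y h (x + (n : ℝ) • u)) u - inner ℝ (lagT y h x) u) := by
  induction n with
  | zero => simp
  | succ n ih =>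
    rw [Finset.sum_range_succ]
    have e : x + ((n + 1 : ℕ) : ℝ) • u = x + (n : ℝ) • u + u := by
      push_cast
      rw [add_smul, one_smul, add_assoc]
    have h1 := lagPhi_subgrad y h (x + ((n + 1 : ℕ) : ℝ) • u) (x + (n : ℝ) • u)
    have e2 : x + (n : ℝ) • u - (x + ((n + 1 : ℕ) : ℝ) • u) = -u := by
      rw [e]
      abel
    rw [e2, inner_neg_right] at h1
    linarith

/-- Moving a finite sum of translates. -/
lemma sum_shift {K : Set (Eu d)} {ξ f : Eu d → ℝ} {u : Eu d} {n : ℕ}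
    (hsupp : ∀ i ∈ Finset.range n, ∀ x, ξ x ≠ 0 → x ∈ K ∧ x + (i : ℝ) • u ∈ K)
    (hi1 : ∀ i ∈ Finset.range n, IntegrableOn (fun x => ξ (x - (i : ℝ) • u) * f x) K)
    (hi2 : ∀ i ∈ Finset.range n, IntegrableOn (fun x => ξ x * f (x + (i : ℝ) • u)) K) :
    ∫ x in K, (∑ i ∈ Finset.range n, ξ (x - (i : ℝ) • u)) * f x
      = ∫ x in K, ξ x * ∑ i ∈ Finset.range n, f (x + (i : ℝ) • u) := by
  simp only [Finset.sum_mul, Finset.mul_sum]
  rw [integral_finset_sum _ hi1, integral_finset_sum _ hi2]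
  apply Finset.sum_congr rfl
  intro i hi
  exact int_shift (hsupp i hi)

/-- Points of a segment. -/
lemma seg_mem {K : Set (Eu d)} (hK : Convex ℝ K) {z v : Eu d} (hz : z ∈ K) (hzv : z + v ∈ K) {t : ℝ}
    (h0 : 0 ≤ t) (h1 : t ≤ 1) : z + t • v ∈ K := by
  have := hK hz hzv (a := 1 - t) (b := t) (by linarith) h0 (by ring)
  have e : (1 - t) • z + t • (z + v) = z + t • v := by
    rw [smul_add, sub_smul, one_smul]
    abel
  rwa [e] at this

/-- The common hypotheses. -/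
structure PD (K : Set (Eu d)) (R : ℝ) (y₀ y₁ : I → Eu d) (m : I → ℝ) : Prop where
  hR : 0 < R
  hKR : ∀ x ∈ K, ‖x‖ ≤ R
  hKm : MeasurableSet K
  hKtop : volume K ≠ ⊤
  hKconv : Convex ℝ K
  hinj : ∀ r : ℚ, Function.Injective (fun k => y₀ k + (r : ℝ) • (y₁ k - y₀ k))
  hm : ∀ k, 0 < m k
  hsum : ∑ k, m k = (volume K).toReal

lemma PD.inj₀ {K : Set (Eu d)} {R : ℝ} {y₀ y₁ : I → Eu d} {m : I → ℝ} (P : PD K R y₀ y₁ m) :
    Function.Injective y₀ := by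
  have := P.hinj 0
  simpa using this

lemma PD.inj₁ {K : Set (Eu d)} {R : ℝ} {y₀ y₁ : I → Eu d} {m : I → ℝ} (P : PD K R y₀ y₁ m) :
    Function.Injective y₁ := by
  have := P.hinj 1
  simpa using this

/-- Swapping the endpoints. -/
lemma PD.swap {K : Set (Eu d)} {R : ℝ} {y₀ y₁ : I → Eu d} {m : I → ℝ} (P : PD K R y₀ y₁ m) :
    PD K R y₁ y₀ m := by
  refine ⟨P.hR, P.hKR, P.hKm, P.hKtop, P.hKconv, fun r => ?_, P.hm, P.hsum⟩
  have := P.hinj (1 - r)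
  convert this using 2 with k
  push_cast
  rw [sub_smul, one_smul, smul_sub]
  simp only [smul_sub]
  abel

/-- The perturbed density. -/
noncomputable def pdens (ξ : Eu d → ℝ) (v : Eu d) (s : ℝ) (x : Eu d) : ℝ := 1 + s * (ξ (x - v) - ξ x)

lemma measurable_pdens {ξ : Eu d → ℝ} (hξ : Measurable ξ) (v : Eu d) (s : ℝ) :
    Measurable (pdens ξ v s) := by
  unfold pdens
  exact measurable_const.add (measurable_const.mul
    ((hξ.comp (measurable_id.sub_const v)).sub hξ))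

lemma pdens_ge {ξ : Eu d → ℝ} (hξ0 : ∀ x, 0 ≤ ξ x) {C s : ℝ} (hC : ∀ x, ξ x ≤ C) (hs : 0 ≤ s)
    (hsC : s * C ≤ 1 / 2) (v x : Eu d) : 1 / 2 ≤ pdens ξ v s x := by
  unfold pdens
  have h1 := hξ0 (x - v)
  have h2 := hC x
  have h3 : s * ξ x ≤ s * C := mul_le_mul_of_nonneg_left h2 hs
  have h4 : 0 ≤ s * ξ (x - v) := mul_nonneg hs h1
  nlinarith

lemma pdens_le {ξ : Eu d → ℝ} (hξ0 : ∀ x, 0 ≤ ξ x) {C s : ℝ} (hC : ∀ x, ξ x ≤ C) (hs : 0 ≤ s)
    (hsC : s * C ≤ 1 / 2) (v x : Eu d) : pdens ξ v s x ≤ 2 := by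
  unfold pdens
  have h1 := hξ0 x
  have h2 := hC (x - v)
  have h3 : s * ξ (x - v) ≤ s * C := mul_le_mul_of_nonneg_left h2 hs
  have h4 : 0 ≤ s * ξ x := mul_nonneg hs h1
  nlinarith

/-- The total mass of the perturbed density. -/
lemma pdens_integral {K : Set (Eu d)} (hKm : MeasurableSet K) (hKtop : volume K ≠ ⊤) {ξ : Eu d → ℝ}
    (hξm : Measurable ξ) {C : ℝ} (hξ0 : ∀ x, 0 ≤ ξ x) (hξC : ∀ x, ξ x ≤ C) {v : Eu d}
    (hsupp : ∀ x, ξ x ≠ 0 → x ∈ K ∧ x + v ∈ K) (s : ℝ) :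
    ∫ x in K, pdens ξ v s x = (volume K).toReal := by
  have hb : ∀ x, |ξ x| ≤ C := fun x => by rw [abs_of_nonneg (hξ0 x)]; exact hξC x
  have i1 : IntegrableOn ξ K := intOn_real hKtop subset_rfl hKm hξm (fun x _ => hb x)
  have i2 : IntegrableOn (fun x => ξ (x - v)) K :=
    intOn_real hKtop subset_rfl hKm (hξm.comp (measurable_id.sub_const v)) (fun x _ => hb _)
  have i0 : IntegrableOn (fun _ : Eu d => (1 : ℝ)) K :=
    integrableOn_const hKtop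
  have e := int_shift (K := K) (Ξ := ξ) (f := fun _ => 1) (u := v) hsupp
  simp only [mul_one] at e
  unfold pdens
  have i21 : IntegrableOn (fun x => ξ (x - v) - ξ x) K := i2.sub i1
  have i3 : IntegrableOn (fun x => s * (ξ (x - v) - ξ x)) K := i21.const_mul s
  rw [integral_add i0 i3, integral_const_mul, integral_sub i2 i1, e, sub_self,
    mul_zero, add_zero]
  simp [Measure.real]

/-- The `L²` size of the perturbation. -/
lemma pdens_sq {K : Set (Eu d)} (hKm : MeasurableSet K) (hKtop : volume K ≠ ⊤) {ξ : Eu d → ℝ}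
    (hξm : Measurable ξ) {C : ℝ} (hξ0 : ∀ x, 0 ≤ ξ x) (hξC : ∀ x, ξ x ≤ C) {v : Eu d}
    (hsupp : ∀ x, ξ x ≠ 0 → x ∈ K ∧ x + v ∈ K) (s : ℝ) :
    ∫ x in K, (pdens ξ v s x - 1) ^ 2 ≤ 4 * s ^ 2 * ∫ x in K, ξ x ^ 2 := by
  have hb : ∀ x, |ξ x| ≤ C := fun x => by rw [abs_of_nonneg (hξ0 x)]; exact hξC x
  have hC0 : 0 ≤ C := (hξ0 0).trans (hξC 0)
  have hξ'm : Measurable fun x => ξ (x - v) := hξm.comp (measurable_id.sub_const v)
  have i1 : IntegrableOn (fun x => ξ x ^ 2) K :=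
    intOn_real hKtop subset_rfl hKm (hξm.pow_const 2) (B := C ^ 2) (fun x _ => by
      rw [abs_pow]
      exact pow_le_pow_left₀ (abs_nonneg _) (hb x) 2)
  have i2 : IntegrableOn (fun x => ξ (x - v) ^ 2) K :=
    intOn_real hKtop subset_rfl hKm (hξ'm.pow_const 2) (B := C ^ 2) (fun x _ => by
      rw [abs_pow]
      exact pow_le_pow_left₀ (abs_nonneg _) (hb _) 2)
  have i3 : IntegrableOn (fun x => (pdens ξ v s x - 1) ^ 2) K :=
    intOn_real hKtop subset_rfl hKm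
      (((measurable_pdens hξm v s).sub measurable_const).pow_const 2)
      (B := s ^ 2 * (2 * C) ^ 2) (fun x _ => by
        unfold pdens
        rw [abs_of_nonneg (sq_nonneg _)]
        have e : (1 + s * (ξ (x - v) - ξ x) - 1) ^ 2 = s ^ 2 * (ξ (x - v) - ξ x) ^ 2 := by ring
        rw [e]
        apply mul_le_mul_of_nonneg_left _ (sq_nonneg s)
        have h1 : |ξ (x - v) - ξ x| ≤ 2 * C := by
          rw [abs_le]
          constructor <;> linarith [hξ0 x, hξ0 (x - v), hξC x, hξC (x - v)]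
        rw [← sq_abs]
        exact pow_le_pow_left₀ (abs_nonneg _) h1 2)
  have e := int_shift (K := K) (Ξ := ξ) (f := fun x => ξ (x - v)) (u := v) hsupp
  simp only [add_sub_cancel_right] at e
  have e2 : ∫ x in K, ξ (x - v) ^ 2 = ∫ x in K, ξ x ^ 2 := by
    simp only [sq]
    exact e
  have e3 : 4 * s ^ 2 * ∫ x in K, ξ x ^ 2
      = ∫ x in K, (2 * s ^ 2 * ξ (x - v) ^ 2 + 2 * s ^ 2 * ξ x ^ 2) := by
    rw [integral_add (i2.const_mul _) (i1.const_mul _), integral_const_mul, integral_const_mul, e2]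
    ring
  rw [e3]
  have i4 : IntegrableOn (fun x => 2 * s ^ 2 * ξ (x - v) ^ 2 + 2 * s ^ 2 * ξ x ^ 2) K :=
    (i2.const_mul _).add (i1.const_mul _)
  apply setIntegral_mono_on i3 i4 hKm
  intro x _
  unfold pdens
  have e4 : (1 + s * (ξ (x - v) - ξ x) - 1) ^ 2 = s ^ 2 * (ξ (x - v) - ξ x) ^ 2 := by ring
  rw [e4]
  have h5 : (ξ (x - v) - ξ x) ^ 2 ≤ 2 * ξ (x - v) ^ 2 + 2 * ξ x ^ 2 := by
    nlinarith [sq_nonneg (ξ (x - v) + ξ x)]
  have h6 := mul_le_mul_of_nonneg_left h5 (sq_nonneg s)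
  linarith

/-- The data of the sum of translates. -/
noncomputable def tsum' (ξ : Eu d → ℝ) (u : Eu d) (n : ℕ) (x : Eu d) : ℝ :=
  ∑ i ∈ Finset.range n, ξ (x - (i : ℝ) • u)

lemma tsum'_telescope (ξ : Eu d → ℝ) (u : Eu d) (n : ℕ) (x : Eu d) :
    tsum' ξ u n (x - u) - tsum' ξ u n x = ξ (x - (n : ℝ) • u) - ξ x := by
  unfold tsum'
  rw [← Finset.sum_sub_distrib]
  have e : ∀ i : ℕ, ξ (x - u - (i : ℝ) • u) = ξ (x - ((i + 1 : ℕ) : ℝ) • u) := by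
    intro i
    congr 1
    push_cast
    rw [add_smul, one_smul]
    abel
  simp only [e]
  have := Finset.sum_range_sub (fun i : ℕ => ξ (x - (i : ℝ) • u)) n
  rw [this]
  simp

lemma tsum'_support {K : Set (Eu d)} (hK : Convex ℝ K) {ξ : Eu d → ℝ} {v : Eu d}
    (hsupp : ∀ x, ξ x ≠ 0 → x ∈ K ∧ x + v ∈ K) {n : ℕ} (hn : 0 < n) (x : Eu d)
    (hx : tsum' ξ ((1 / (n : ℝ)) • v) n x ≠ 0) :
    x ∈ K ∧ x + (1 / (n : ℝ)) • v ∈ K := by
  have hnpos : (0 : ℝ) < n := by exact_mod_cast hn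
  unfold tsum' at hx
  obtain ⟨i, hi, hne⟩ := Finset.exists_ne_zero_of_sum_ne_zero hx
  have hi' : i < n := Finset.mem_range.1 hi
  have hin : ((i : ℝ) + 1) ≤ n := by exact_mod_cast hi'
  obtain ⟨h1, h2⟩ := hsupp _ hne
  set z := x - (i : ℝ) • (1 / (n : ℝ)) • v with hz
  have e1 : x = z + ((i : ℝ) / n) • v := by
    rw [hz, smul_smul, sub_add, mul_one_div, sub_self, sub_zero]
  have e2 : x + (1 / (n : ℝ)) • v = z + (((i : ℝ) + 1) / n) • v := by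
    rw [e1, add_assoc, ← add_smul]
    congr 2
    ring
  constructor
  · rw [e1]
    apply seg_mem hK h1 h2 (by positivity)
    rw [div_le_one hnpos]
    linarith
  · rw [e2]
    apply seg_mem hK h1 h2 (by positivity)
    rw [div_le_one hnpos]
    exact hin

/-- The real number computation at the end of the step. -/
lemma step_real {A Pint B Q c Xi V1₁ Vg₁ V1₀ Vg₀ E s : ℝ} (hs : 0 < s) (h1 : A ≤ Pint + c * Xi)
    (h2 : V1₁ + s * Pint ≤ Vg₁) (h3 : (Vg₁ - V1₁) - (Vg₀ - V1₀) ≤ E) (h4 : Vg₀ ≤ V1₀ + s * B)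
    (h5 : E ≤ s * Q) : A ≤ B + Q + c * Xi := by
  have h6 : s * Pint ≤ s * (B + Q) := by
    rw [mul_add]
    linarith
  have h7 := le_of_mul_le_mul_left h6 hs
  linarith

/-- The perturbation of the dual value at fixed weights. -/
lemma dual_pert_eq {K : Set (Eu d)} {R : ℝ} (hR : 0 ≤ R) (hKR : ∀ x ∈ K, ‖x‖ ≤ R) (hKtop : volume K ≠ ⊤)
    (hKm : MeasurableSet K) {y : I → Eu d} (h m : I → ℝ) {ξ : Eu d → ℝ} (hξm : Measurable ξ)
    {C : ℝ} (hξ0 : ∀ x, 0 ≤ ξ x) (hξC : ∀ x, ξ x ≤ C) {v : Eu d}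
    (hsupp : ∀ x, ξ x ≠ 0 → x ∈ K ∧ x + v ∈ K) (s : ℝ) :
    dualVal K (pdens ξ v s) y h m = dualVal K (fun _ => 1) y h m
      + s * ∫ x in K, ξ x * (lagPhi y h (x + v) - lagPhi y h x) := by
  set M := ∑ l, ‖y l‖ with hM
  have hy' : ∀ k, ‖y k‖ ≤ M := norm_le_sum_norm y
  have hM0 : 0 ≤ M := Finset.sum_nonneg (fun _ _ => norm_nonneg _)
  have hΦc := continuous_lagPhi y h
  have hb : ∀ x, |ξ x| ≤ C := fun x => by rw [abs_of_nonneg (hξ0 x)]; exact hξC x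
  have hC0 : 0 ≤ C := (hξ0 0).trans (hξC 0)
  have bΦ : ∀ x ∈ K, |lagPhi y h x| ≤ R * M + ‖h‖ := fun x hx => abs_lagPhi_le hy' h (hKR x hx)
  have bΦ' : ∀ x ∈ K, |lagPhi y h (x + v)| ≤ (R + ‖v‖) * M + ‖h‖ := fun x hx =>
    abs_lagPhi_le hy' h (x := x + v) ((norm_add_le _ _).trans (by linarith [hKR x hx]))
  have iΦ : IntegrableOn (lagPhi y h) K := intOn_real hKtop subset_rfl hKm hΦc.measurable bΦ
  have iξΦ : IntegrableOn (fun x => ξ x * lagPhi y h x) K := by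
    refine intOn_real hKtop subset_rfl hKm (hξm.mul hΦc.measurable) (B := C * (R * M + ‖h‖))
      (fun x hx => ?_)
    rw [abs_mul]
    exact mul_le_mul (hb x) (bΦ x hx) (abs_nonneg _) hC0
  have iξ'Φ : IntegrableOn (fun x => ξ (x - v) * lagPhi y h x) K := by
    refine intOn_real hKtop subset_rfl hKm ((hξm.comp (measurable_id.sub_const v)).mul hΦc.measurable)
      (B := C * (R * M + ‖h‖)) (fun x hx => ?_)
    rw [abs_mul]
    exact mul_le_mul (hb _) (bΦ x hx) (abs_nonneg _) hC0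
  have iξΦ' : IntegrableOn (fun x => ξ x * lagPhi y h (x + v)) K := by
    refine intOn_real hKtop subset_rfl hKm
      (hξm.mul (hΦc.measurable.comp (measurable_id.add_const v)))
      (B := C * ((R + ‖v‖) * M + ‖h‖)) (fun x hx => ?_)
    rw [abs_mul]
    exact mul_le_mul (hb x) (bΦ' x hx) (abs_nonneg _) hC0
  have e1 := int_perturb (g := pdens ξ v s) (s := s) hKm hsupp iΦ iξΦ iξ'Φ (fun x _ => rfl)
  unfold dualVal
  rw [e1]
  simp only [one_mul, mul_sub]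
  rw [integral_sub iξΦ' iξΦ]
  ring

/-- The chain of translates. -/
lemma chain_part {K : Set (Eu d)} {R : ℝ} (hR : 0 ≤ R) (hKR : ∀ x ∈ K, ‖x‖ ≤ R) (hKtop : volume K ≠ ⊤)
    (hKm : MeasurableSet K) (hKconv : Convex ℝ K) (y : I → Eu d) (h : I → ℝ)
    {ξ : Eu d → ℝ} (hξm : Measurable ξ) {C : ℝ} (hξ0 : ∀ x, 0 ≤ ξ x) (hξC : ∀ x, ξ x ≤ C) {v : Eu d}
    (hsupp : ∀ x, ξ x ≠ 0 → x ∈ K ∧ x + v ∈ K) {n : ℕ} (hn : 0 < n) :
    ∫ x in K, ξ x * (lagPhi y h (x + v) - lagPhi y h x)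
      ≤ (∫ x in K, tsum' ξ ((1 / (n : ℝ)) • v) n x * inner ℝ (lagT y h x) ((1 / (n : ℝ)) • v))
        + (2 * (∑ l, ‖y l‖) * ‖v‖ / n) * ∫ x in K, ξ x := by
  have hnpos : (0 : ℝ) < n := by exact_mod_cast hn
  have hC0 : 0 ≤ C := (hξ0 0).trans (hξC 0)
  have hb : ∀ x, |ξ x| ≤ C := fun x => by rw [abs_of_nonneg (hξ0 x)]; exact hξC x
  obtain ⟨M, hM⟩ : ∃ M, M = ∑ l, ‖y l‖ := ⟨_, rfl⟩
  rw [← hM]
  have hy' : ∀ k, ‖y k‖ ≤ M := by rw [hM]; exact norm_le_sum_norm y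
  have hM0 : 0 ≤ M := by rw [hM]; exact Finset.sum_nonneg (fun _ _ => norm_nonneg _)
  obtain ⟨u, hu⟩ : ∃ u : Eu d, u = (1 / (n : ℝ)) • v := ⟨_, rfl⟩
  rw [← hu]
  have hnu : (n : ℝ) • u = v := by
    rw [hu, smul_smul, mul_one_div, div_self hnpos.ne', one_smul]
  have hnormu : ‖u‖ = ‖v‖ / n := by
    rw [hu, norm_smul, Real.norm_eq_abs, abs_of_pos (by positivity)]
    ring
  obtain ⟨f, hf⟩ : ∃ f : Eu d → ℝ, f = fun x => inner ℝ (lagT y h x) u := ⟨_, rfl⟩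
  have hTm := measurable_lagT y h
  have hfm : Measurable f := by rw [hf]; exact hTm.inner measurable_const
  have hfb : ∀ x, |f x| ≤ M * ‖u‖ := fun x => by
    rw [hf]
    exact (abs_real_inner_le_norm _ _).trans
      (mul_le_mul_of_nonneg_right (norm_lagT_le hy' h x) (norm_nonneg _))
  have hsupp_i : ∀ i ∈ Finset.range n, ∀ x, ξ x ≠ 0 → x ∈ K ∧ x + (i : ℝ) • u ∈ K := by
    intro i hi x hx
    obtain ⟨h1, h2⟩ := hsupp x hx
    refine ⟨h1, ?_⟩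
    have hi' : (i : ℝ) ≤ n := by exact_mod_cast (Finset.mem_range.1 hi).le
    have e : (i : ℝ) • u = ((i : ℝ) / n) • v := by
      rw [hu, smul_smul, mul_one_div]
    rw [e]
    exact seg_mem hKconv h1 h2 (by positivity) ((div_le_one hnpos).2 hi')
  have hi1 : ∀ i ∈ Finset.range n, IntegrableOn (fun x => ξ (x - (i : ℝ) • u) * f x) K := by
    intro i _
    refine intOn_real hKtop subset_rfl hKm ((hξm.comp (measurable_id.sub_const _)).mul hfm)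
      (B := C * (M * ‖u‖)) (fun x _ => ?_)
    rw [abs_mul]
    exact mul_le_mul (hb _) (hfb x) (abs_nonneg _) hC0
  have hi2 : ∀ i ∈ Finset.range n, IntegrableOn (fun x => ξ x * f (x + (i : ℝ) • u)) K := by
    intro i _
    refine intOn_real hKtop subset_rfl hKm (hξm.mul (hfm.comp (measurable_id.add_const _)))
      (B := C * (M * ‖u‖)) (fun x _ => ?_)
    rw [abs_mul]
    exact mul_le_mul (hb _) (hfb _) (abs_nonneg _) hC0
  have hshift := sum_shift hsupp_i hi1 hi2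
  have e0 : ∫ x in K, tsum' ξ u n x * inner ℝ (lagT y h x) u
      = ∫ x in K, (∑ i ∈ Finset.range n, ξ (x - (i : ℝ) • u)) * f x := by
    rw [hf]; rfl
  rw [e0, hshift]
  obtain ⟨ψ, hψ⟩ : ∃ ψ, ψ = lagPhi y h := ⟨_, rfl⟩
  rw [← hψ]
  have hψc : Continuous ψ := by rw [hψ]; exact continuous_lagPhi y h
  obtain ⟨Pf, hPf⟩ : ∃ Pf : Eu d → ℝ, Pf = fun x => ∑ i ∈ Finset.range n, f (x + (i : ℝ) • u) :=
    ⟨_, rfl⟩
  have e00 : ∫ x in K, ξ x * ∑ i ∈ Finset.range n, f (x + (i : ℝ) • u) = ∫ x in K, ξ x * Pf x := by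
    rw [hPf]
  rw [e00]
  have hPfm : Measurable Pf := by
    rw [hPf]
    exact Finset.measurable_fun_sum _ (fun i _ => hfm.comp (measurable_id.add_const _))
  have hPfb : ∀ x, |Pf x| ≤ n * (M * ‖u‖) := by
    intro x
    rw [hPf]
    refine (Finset.abs_sum_le_sum_abs _ _).trans ?_
    calc ∑ i ∈ Finset.range n, |f (x + (i : ℝ) • u)| ≤ ∑ _i ∈ Finset.range n, M * ‖u‖ :=
          Finset.sum_le_sum (fun i _ => hfb _)
      _ = _ := by simp
  have iξ : IntegrableOn ξ K := intOn_real hKtop subset_rfl hKm hξm (fun x _ => hb x)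
  have iξP : IntegrableOn (fun x => ξ x * Pf x) K := by
    refine intOn_real hKtop subset_rfl hKm (hξm.mul hPfm) (B := C * (n * (M * ‖u‖))) (fun x _ => ?_)
    rw [abs_mul]
    exact mul_le_mul (hb _) (hPfb _) (abs_nonneg _) hC0
  have iξψ : IntegrableOn (fun x => ξ x * (ψ (x + v) - ψ x)) K := by
    have hb1 : ∀ x ∈ K, |ψ (x + v) - ψ x| ≤ ((R + ‖v‖) * M + ‖h‖) + (R * M + ‖h‖) := by
      intro x hx
      have h1 := abs_lagPhi_le hy' h (x := x + v) (R := R + ‖v‖)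
        ((norm_add_le _ _).trans (by linarith [hKR x hx]))
      have h2 := abs_lagPhi_le hy' h (hKR x hx)
      rw [hψ]
      exact (abs_sub _ _).trans (add_le_add h1 h2)
    refine intOn_real hKtop subset_rfl hKm
      (hξm.mul ((hψc.measurable.comp (measurable_id.add_const v)).sub hψc.measurable))
      (B := C * (((R + ‖v‖) * M + ‖h‖) + (R * M + ‖h‖))) (fun x hx => ?_)
    rw [abs_mul]
    exact mul_le_mul (hb _) (hb1 x hx) (abs_nonneg _) hC0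
  have e1 : (∫ x in K, ξ x * Pf x) + (2 * M * ‖v‖ / n) * ∫ x in K, ξ x
      = ∫ x in K, (ξ x * Pf x + (2 * M * ‖v‖ / n) * ξ x) := by
    rw [integral_add iξP (iξ.const_mul _), integral_const_mul]
  rw [e1]
  have i5 : IntegrableOn (fun x => ξ x * Pf x + (2 * M * ‖v‖ / n) * ξ x) K :=
    iξP.add (iξ.const_mul _)
  apply setIntegral_mono_on iξψ i5 hKm
  intro x _
  have h1 := chain_subgrad y h x u n
  rw [hnu] at h1
  have h2 := abs_le.1 (hfb (x + v))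
  have h3 := abs_le.1 (hfb x)
  have h4 : ψ (x + v) - ψ x ≤ Pf x + 2 * M * ‖v‖ / n := by
    have e2 : 2 * M * ‖v‖ / n = 2 * (M * ‖u‖) := by
      rw [hnormu]
      ring
    rw [e2, hψ]
    have h5 : inner ℝ (lagT y h (x + v)) u - inner ℝ (lagT y h x) u ≤ 2 * (M * ‖u‖) := by
      have h6 : f (x + v) = inner ℝ (lagT y h (x + v)) u := by rw [hf]
      have h7 : f x = inner ℝ (lagT y h x) u := by rw [hf]
      rw [← h6, ← h7]
      linarith [h2.2, h3.1]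
    have h8 : Pf x = ∑ i ∈ Finset.range n, inner ℝ (lagT y h (x + (i : ℝ) • u)) u := by
      rw [hPf, hf]
    rw [h8]
    linarith
  have h9 := mul_le_mul_of_nonneg_left h4 (hξ0 x)
  calc ξ x * (ψ (x + v) - ψ x) ≤ ξ x * (Pf x + 2 * M * ‖v‖ / n) := h9
    _ = _ := by ring

/-- The bound of the error term. -/
lemma err_bound {W2 R J X2 s : ℝ} (hW2 : 0 ≤ W2) (hs : 0 ≤ s) (h1 : J ≤ 4 * s ^ 2 * X2) :
    Real.sqrt (W2 * (160 * R ^ 2 * J)) ≤ s * Real.sqrt (W2 * (640 * R ^ 2 * X2)) := by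
  have h2 : 160 * R ^ 2 * J ≤ 160 * R ^ 2 * (4 * s ^ 2 * X2) := by gcongr
  have h3 : W2 * (160 * R ^ 2 * J) ≤ s ^ 2 * (W2 * (640 * R ^ 2 * X2)) := by
    calc W2 * (160 * R ^ 2 * J) ≤ W2 * (160 * R ^ 2 * (4 * s ^ 2 * X2)) := by gcongr
      _ = _ := by ring
  calc Real.sqrt (W2 * (160 * R ^ 2 * J)) ≤ Real.sqrt (s ^ 2 * (W2 * (640 * R ^ 2 * X2))) :=
        Real.sqrt_le_sqrt h3
    _ = Real.sqrt (s ^ 2) * Real.sqrt (W2 * (640 * R ^ 2 * X2)) := Real.sqrt_mul (sq_nonneg s) _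
    _ = _ := by rw [Real.sqrt_sq hs]

/-- The main step with a fixed number of small steps. -/
theorem prop_step {K : Set (Eu d)} {R : ℝ} {y₀ y₁ : I → Eu d} {m : I → ℝ} (P : PD K R y₀ y₁ m)
    {h₀ h₁ : I → ℝ}
    (hh₀ : ∀ k, ∫ x in cell K y₀ h₀ k, (1 : ℝ) = m k)
    (hh₁ : ∀ k, ∫ x in cell K y₁ h₁ k, (1 : ℝ) = m k)
    {ξ : Eu d → ℝ} (hξm : Measurable ξ) {C : ℝ} (hξ0 : ∀ x, 0 ≤ ξ x) (hξC : ∀ x, ξ x ≤ C) {v : Eu d}
    (hsupp : ∀ x, ξ x ≠ 0 → x ∈ K ∧ x + v ∈ K) {n : ℕ} (hn : 0 < n) :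
    ∫ x in K, ξ x * (lagPhi y₁ h₁ (x + v) - lagPhi y₁ h₁ x)
      ≤ (∫ x in K, ξ x * (lagPhi y₀ h₀ (x + v) - lagPhi y₀ h₀ x))
        + Real.sqrt ((∑ k, m k * ‖y₁ k - y₀ k‖ ^ 2) * (640 * R ^ 2 * ∫ x in K, ξ x ^ 2))
        + (2 * (∑ l, ‖y₁ l‖) * ‖v‖ / n) * ∫ x in K, ξ x := by
  have hR := P.hR
  have hKR := P.hKR
  have hKm := P.hKm
  have hKtop := P.hKtop
  have hnpos : (0 : ℝ) < n := by exact_mod_cast hn
  have hn1 : (1 : ℝ) ≤ n := by exact_mod_cast hn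
  have hC0 : 0 ≤ C := (hξ0 0).trans (hξC 0)
  obtain ⟨u, hu⟩ : ∃ u : Eu d, u = (1 / (n : ℝ)) • v := ⟨_, rfl⟩
  have hnu : (n : ℝ) • u = v := by
    rw [hu, smul_smul, mul_one_div, div_self hnpos.ne', one_smul]
  obtain ⟨s, hs⟩ : ∃ s : ℝ, s = 1 / (2 * (n * C + 1)) := ⟨_, rfl⟩
  have hs0 : 0 < s := by rw [hs]; positivity
  obtain ⟨Ξ, hΞ⟩ : ∃ Ξ, Ξ = tsum' ξ u n := ⟨_, rfl⟩
  have hΞm : Measurable Ξ := by
    rw [hΞ]
    unfold tsum'
    exact Finset.measurable_fun_sum _ (fun i _ => hξm.comp (measurable_id.sub_const _))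
  have hΞ0 : ∀ x, 0 ≤ Ξ x := fun x => by
    rw [hΞ]
    exact Finset.sum_nonneg (fun i _ => hξ0 _)
  have hΞC : ∀ x, Ξ x ≤ n * C := by
    intro x
    rw [hΞ]
    calc tsum' ξ u n x ≤ ∑ _i ∈ Finset.range n, C := Finset.sum_le_sum (fun i _ => hξC _)
      _ = n * C := by simp
  have hs1 : ∀ x, s * Ξ x ≤ 1 := by
    intro x
    have h1 : s * Ξ x ≤ s * (n * C) := mul_le_mul_of_nonneg_left (hΞC x) hs0.le
    refine h1.trans ?_
    rw [hs, div_mul_eq_mul_div, one_mul, div_le_one (by positivity)]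
    nlinarith [mul_nonneg hnpos.le hC0]
  have hsC : s * C ≤ 1 / 2 := by
    rw [hs, div_mul_eq_mul_div, one_mul, div_le_iff₀ (by positivity)]
    nlinarith [mul_nonneg hnpos.le hC0]
  obtain ⟨g, hgd⟩ : ∃ g, g = pdens ξ v s := ⟨_, rfl⟩
  have hgm : Measurable g := by rw [hgd]; exact measurable_pdens hξm v s
  have hg1 : ∀ x ∈ K, 1 / 2 ≤ g x := fun x _ => by
    rw [hgd]; exact pdens_ge hξ0 hξC hs0.le hsC v x
  have hg2 : ∀ x ∈ K, g x ≤ 2 := fun x _ => by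
    rw [hgd]; exact pdens_le hξ0 hξC hs0.le hsC v x
  have Dg : Dens K R g := ⟨hKR, hKtop, hKm, hgm, fun x hx => by linarith [hg1 x hx], hg2⟩
  have hgsum : ∑ k, m k = ∫ x in K, g x := by
    rw [P.hsum, hgd]
    exact (pdens_integral hKm hKtop hξm hξ0 hξC hsupp s).symm
  obtain ⟨k₀, hk₀⟩ := exists_balanced hR.le hKR hKtop hKm P.inj₀ hgm Dg.hg0 hg2 P.hm hgsum
  obtain ⟨k₁, hk₁⟩ := exists_balanced hR.le hKR hKtop hKm P.inj₁ hgm Dg.hg0 hg2 P.hm hgsum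
  have hsuppΞ : ∀ x, Ξ x ≠ 0 → x ∈ K ∧ x + u ∈ K := fun x hx => by
    rw [hΞ, hu] at hx
    rw [hu]
    exact tsum'_support P.hKconv hsupp hn x hx
  have hgΞ : ∀ x ∈ K, g x = 1 + s * (Ξ (x - u) - Ξ x) := by
    intro x _
    rw [hΞ, tsum'_telescope, hnu, hgd]
    rfl
  have hlow := dual_perturb_lower hR.le hKR hKtop hKm P.inj₁ hh₁ hΞm hΞ0 hΞC hs1 hs0.le hsuppΞ hgΞ k₁
  have hpath := path_bound hR hKR hKm hKtop P.hKconv P.hinj P.hm P.hsum hgm hg1 hg2 hgsum hh₀ hh₁ hk₀ hk₁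
  have hup1 : dualVal K g y₀ k₀ m ≤ dualVal K g y₀ h₀ m := by
    rw [strong_dual Dg P.inj₀ hk₀]
    exact weak_dual Dg P.inj₀ hk₀ y₀ h₀
  have hup2 : dualVal K g y₀ h₀ m = dualVal K (fun _ => 1) y₀ h₀ m
      + s * ∫ x in K, ξ x * (lagPhi y₀ h₀ (x + v) - lagPhi y₀ h₀ x) := by
    rw [hgd]
    exact dual_pert_eq (y := y₀) hR.le hKR hKtop hKm h₀ m hξm hξ0 hξC hsupp s
  have hW20 : 0 ≤ ∑ k, m k * ‖y₁ k - y₀ k‖ ^ 2 :=
    Finset.sum_nonneg (fun k _ => mul_nonneg (P.hm k).le (sq_nonneg _))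
  have hE := err_bound (R := R) hW20 hs0.le
    (show ∫ x in K, (g x - 1) ^ 2 ≤ 4 * s ^ 2 * ∫ x in K, ξ x ^ 2 by
      rw [hgd]
      exact pdens_sq hKm hKtop hξm hξ0 hξC hsupp s)
  have hchain := chain_part hR.le hKR hKtop hKm P.hKconv y₁ h₁ hξm hξ0 hξC hsupp hn
  rw [← hu, ← hΞ] at hchain
  exact step_real hs0 hchain hlow hpath (by rw [hup2] at hup1; exact hup1) hE

/-- The limit of many small steps. -/
theorem prop_lim {K : Set (Eu d)} {R : ℝ} {y₀ y₁ : I → Eu d} {m : I → ℝ} (P : PD K R y₀ y₁ m)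
    {h₀ h₁ : I → ℝ}
    (hh₀ : ∀ k, ∫ x in cell K y₀ h₀ k, (1 : ℝ) = m k)
    (hh₁ : ∀ k, ∫ x in cell K y₁ h₁ k, (1 : ℝ) = m k)
    {ξ : Eu d → ℝ} (hξm : Measurable ξ) {C : ℝ} (hξ0 : ∀ x, 0 ≤ ξ x) (hξC : ∀ x, ξ x ≤ C) {v : Eu d}
    (hsupp : ∀ x, ξ x ≠ 0 → x ∈ K ∧ x + v ∈ K) :
    ∫ x in K, ξ x * (lagPhi y₁ h₁ (x + v) - lagPhi y₁ h₁ x)
      ≤ (∫ x in K, ξ x * (lagPhi y₀ h₀ (x + v) - lagPhi y₀ h₀ x))
        + Real.sqrt ((∑ k, m k * ‖y₁ k - y₀ k‖ ^ 2) * (640 * R ^ 2 * ∫ x in K, ξ x ^ 2)) := by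
  set A := (∫ x in K, ξ x * (lagPhi y₀ h₀ (x + v) - lagPhi y₀ h₀ x))
    + Real.sqrt ((∑ k, m k * ‖y₁ k - y₀ k‖ ^ 2) * (640 * R ^ 2 * ∫ x in K, ξ x ^ 2)) with hA
  set c := 2 * (∑ l, ‖y₁ l‖) * ‖v‖ with hc
  set X := ∫ x in K, ξ x with hX
  have hlim : Tendsto (fun n : ℕ => A + (c / n) * X) atTop (𝓝 (A + 0 * X)) :=
    tendsto_const_nhds.add ((tendsto_const_div_atTop_nhds_zero_nat c).mul_const X)
  rw [zero_mul, add_zero] at hlim
  apply ge_of_tendsto hlim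
  filter_upwards [eventually_gt_atTop 0] with n hn
  exact prop_step P hh₀ hh₁ hξm hξ0 hξC hsupp hn

lemma abs_incr_le {R : ℝ} (y : I → Eu d) (h : I → ℝ) (v : Eu d) {x : Eu d} (hx : ‖x‖ ≤ R) :
    |lagPhi y h (x + v) - lagPhi y h x|
      ≤ ((R + ‖v‖) * (∑ l, ‖y l‖) + ‖h‖) + (R * (∑ l, ‖y l‖) + ‖h‖) := by
  have hM := norm_le_sum_norm y
  have h1 := abs_lagPhi_le hM h (x := x + v) (R := R + ‖v‖)
    ((norm_add_le _ _).trans (by linarith))
  have h2 := abs_lagPhi_le hM h hx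
  exact (abs_sub _ _).trans (add_le_add h1 h2)

/-- The one-sided `L²` bound of the difference of increments. -/
theorem prop_half {K : Set (Eu d)} {R : ℝ} {y₀ y₁ : I → Eu d} {m : I → ℝ} (P : PD K R y₀ y₁ m)
    {h₀ h₁ : I → ℝ}
    (hh₀ : ∀ k, ∫ x in cell K y₀ h₀ k, (1 : ℝ) = m k)
    (hh₁ : ∀ k, ∫ x in cell K y₁ h₁ k, (1 : ℝ) = m k) (v : Eu d) :
    ∫ x in {x | x ∈ K ∧ x + v ∈ K},
        (max ((lagPhi y₁ h₁ (x + v) - lagPhi y₁ h₁ x) - (lagPhi y₀ h₀ (x + v) - lagPhi y₀ h₀ x)) 0) ^ 2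
      ≤ 640 * R ^ 2 * ∑ k, m k * ‖y₁ k - y₀ k‖ ^ 2 := by
  have hKm := P.hKm
  have hKtop := P.hKtop
  have hKR := P.hKR
  have hR := P.hR
  obtain ⟨Kv, hKvd⟩ : ∃ Kv : Set (Eu d), Kv = {x | x ∈ K ∧ x + v ∈ K} := ⟨_, rfl⟩
  rw [← hKvd]
  have hKvm : MeasurableSet Kv := by
    rw [hKvd]
    exact hKm.inter ((measurable_id.add_const v) hKm)
  have hKvK : Kv ⊆ K := by
    rw [hKvd]
    exact fun x hx => hx.1
  obtain ⟨φ, hφ⟩ : ∃ φ, φ = lagPhi y₀ h₀ := ⟨_, rfl⟩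
  obtain ⟨ψ, hψ⟩ : ∃ ψ, ψ = lagPhi y₁ h₁ := ⟨_, rfl⟩
  have hφc : Continuous φ := by rw [hφ]; exact continuous_lagPhi _ _
  have hψc : Continuous ψ := by rw [hψ]; exact continuous_lagPhi _ _
  obtain ⟨Δ, hΔ⟩ : ∃ Δ : Eu d → ℝ, Δ = fun x => (ψ (x + v) - ψ x) - (φ (x + v) - φ x) := ⟨_, rfl⟩
  have hΔc : Continuous Δ := by
    rw [hΔ]
    fun_prop
  have hKvR : ∀ x ∈ Kv, ‖x‖ ≤ R := fun x hx => hKR x (hKvK hx)
  -- boundedness of the increment
  obtain ⟨B, hB⟩ : ∃ B, ∀ x ∈ Kv, |Δ x| ≤ B := by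
    refine ⟨(((R + ‖v‖) * (∑ l, ‖y₁ l‖) + ‖h₁‖) + (R * (∑ l, ‖y₁ l‖) + ‖h₁‖))
      + (((R + ‖v‖) * (∑ l, ‖y₀ l‖) + ‖h₀‖) + (R * (∑ l, ‖y₀ l‖) + ‖h₀‖)), fun x hx => ?_⟩
    rw [hΔ]
    simp only [hφ, hψ]
    exact (abs_sub _ _).trans (add_le_add (abs_incr_le y₁ h₁ v (hKvR x hx))
      (abs_incr_le y₀ h₀ v (hKvR x hx)))
  have hB0 : 0 ≤ |B| := abs_nonneg _
  obtain ⟨ξ, hξ⟩ : ∃ ξ : Eu d → ℝ, ξ = Kv.indicator (fun x => max (Δ x) 0) := ⟨_, rfl⟩
  have hξm : Measurable ξ := by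
    rw [hξ]
    exact (hΔc.measurable.max measurable_const).indicator hKvm
  have hξ0 : ∀ x, 0 ≤ ξ x := fun x => by
    rw [hξ]
    exact indicator_nonneg (fun _ _ => le_max_right _ _) x
  have hξC : ∀ x, ξ x ≤ |B| := fun x => by
    rw [hξ]
    by_cases hx : x ∈ Kv
    · rw [indicator_of_mem hx]
      exact max_le ((le_abs_self _).trans ((hB x hx).trans (le_abs_self _))) hB0
    · rw [indicator_of_notMem hx]
      exact hB0
  have hsupp : ∀ x, ξ x ≠ 0 → x ∈ K ∧ x + v ∈ K := fun x hx => by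
    have : x ∈ Kv := by
      by_contra h
      apply hx
      rw [hξ, indicator_of_notMem h]
    rw [hKvd] at this
    exact this
  have key := prop_lim P hh₀ hh₁ hξm hξ0 hξC hsupp
  rw [← hφ, ← hψ] at key
  obtain ⟨X2, hX2⟩ : ∃ X2, X2 = ∫ x in K, ξ x ^ 2 := ⟨_, rfl⟩
  have hX20 : 0 ≤ X2 := by
    rw [hX2]
    exact integral_nonneg (fun x => sq_nonneg _)
  have eX : ∫ x in Kv, (max (Δ x) 0) ^ 2 = X2 := by
    have e0 : ∫ x in K, ξ x ^ 2 = ∫ x in Kv, ξ x ^ 2 := by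
      apply setIntegral_eq_of_subset_of_forall_diff_eq_zero hKm hKvK
      intro x hx
      rw [hξ, indicator_of_notMem hx.2]
      simp
    rw [hX2, e0]
    apply setIntegral_congr_fun hKvm
    intro x hx
    simp only
    rw [hξ, indicator_of_mem hx]
  have hbξ : ∀ x, |ξ x| ≤ |B| := fun x => by
    rw [abs_of_nonneg (hξ0 x)]; exact hξC x
  have i1 : IntegrableOn (fun x => ξ x * (ψ (x + v) - ψ x)) K := by
    refine intOn_real hKtop subset_rfl hKm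
      (hξm.mul ((hψc.measurable.comp (measurable_id.add_const v)).sub hψc.measurable))
      (B := |B| * (((R + ‖v‖) * (∑ l, ‖y₁ l‖) + ‖h₁‖) + (R * (∑ l, ‖y₁ l‖) + ‖h₁‖))) (fun x hx => ?_)
    rw [abs_mul, hψ]
    exact mul_le_mul (hbξ x) (abs_incr_le y₁ h₁ v (hKR x hx)) (abs_nonneg _) hB0
  have i2 : IntegrableOn (fun x => ξ x * (φ (x + v) - φ x)) K := by
    refine intOn_real hKtop subset_rfl hKm
      (hξm.mul ((hφc.measurable.comp (measurable_id.add_const v)).sub hφc.measurable))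
      (B := |B| * (((R + ‖v‖) * (∑ l, ‖y₀ l‖) + ‖h₀‖) + (R * (∑ l, ‖y₀ l‖) + ‖h₀‖))) (fun x hx => ?_)
    rw [abs_mul, hφ]
    exact mul_le_mul (hbξ x) (abs_incr_le y₀ h₀ v (hKR x hx)) (abs_nonneg _) hB0
  have e1 : (∫ x in K, ξ x * (ψ (x + v) - ψ x)) - (∫ x in K, ξ x * (φ (x + v) - φ x)) = X2 := by
    rw [← integral_sub i1 i2, hX2]
    apply integral_congr_ae
    filter_upwards with x
    by_cases hx : x ∈ Kv
    · have : ξ x = max (Δ x) 0 := by rw [hξ, indicator_of_mem hx]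
      rw [← mul_sub, this]
      have e2 : (ψ (x + v) - ψ x) - (φ (x + v) - φ x) = Δ x := by rw [hΔ]
      rw [e2]
      rcases le_total (Δ x) 0 with h | h
      · rw [max_eq_right h]; ring
      · rw [max_eq_left h]; ring
    · have : ξ x = 0 := by rw [hξ, indicator_of_notMem hx]
      rw [this]
      ring
  have h2 : X2 ≤ Real.sqrt ((∑ k, m k * ‖y₁ k - y₀ k‖ ^ 2) * (640 * R ^ 2 * X2)) := by
    rw [← hX2] at key
    linarith
  have e5 : ∫ x in Kv, (max ((lagPhi y₁ h₁ (x + v) - lagPhi y₁ h₁ x)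
      - (lagPhi y₀ h₀ (x + v) - lagPhi y₀ h₀ x)) 0) ^ 2 = ∫ x in Kv, (max (Δ x) 0) ^ 2 := by
    rw [hΔ, hφ, hψ]
  rw [e5, eX]
  have hW : 0 ≤ ∑ k, m k * ‖y₁ k - y₀ k‖ ^ 2 :=
    Finset.sum_nonneg (fun k _ => mul_nonneg (P.hm k).le (sq_nonneg _))
  have h3 : X2 ^ 2 ≤ (∑ k, m k * ‖y₁ k - y₀ k‖ ^ 2) * (640 * R ^ 2 * X2) := by
    have h4 := pow_le_pow_left₀ hX20 h2 2
    rwa [Real.sq_sqrt (by positivity)] at h4
  rcases hX20.eq_or_lt with h | h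
  · rw [← h]
    positivity
  · have h5 : X2 * X2 ≤ (640 * R ^ 2 * ∑ k, m k * ‖y₁ k - y₀ k‖ ^ 2) * X2 := by nlinarith
    exact le_of_mul_le_mul_right h5 h

/-- The oscillation bound: the `L²` norm of the increments of the difference of the potentials is
controlled by the transport cost between the two discrete measures. -/
theorem prop_I {K : Set (Eu d)} {R : ℝ} {y₀ y₁ : I → Eu d} {m : I → ℝ} (P : PD K R y₀ y₁ m)
    {h₀ h₁ : I → ℝ}
    (hh₀ : ∀ k, ∫ x in cell K y₀ h₀ k, (1 : ℝ) = m k)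
    (hh₁ : ∀ k, ∫ x in cell K y₁ h₁ k, (1 : ℝ) = m k) (v : Eu d) :
    ∫ x in {x | x ∈ K ∧ x + v ∈ K},
        ((lagPhi y₀ h₀ (x + v) - lagPhi y₁ h₁ (x + v)) - (lagPhi y₀ h₀ x - lagPhi y₁ h₁ x)) ^ 2
      ≤ 1280 * R ^ 2 * ∑ k, m k * ‖y₁ k - y₀ k‖ ^ 2 := by
  have h1 := prop_half P hh₀ hh₁ v
  have h2 := prop_half P.swap hh₁ hh₀ v
  have e : ∑ k, m k * ‖y₀ k - y₁ k‖ ^ 2 = ∑ k, m k * ‖y₁ k - y₀ k‖ ^ 2 := by
    apply Finset.sum_congr rfl
    intro k _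
    rw [norm_sub_rev]
  rw [e] at h2
  obtain ⟨Kv, hKvd⟩ : ∃ Kv : Set (Eu d), Kv = {x | x ∈ K ∧ x + v ∈ K} := ⟨_, rfl⟩
  rw [← hKvd] at h1 h2 ⊢
  have hKvm : MeasurableSet Kv := by
    rw [hKvd]
    exact P.hKm.inter ((measurable_id.add_const v) P.hKm)
  have hKvK : Kv ⊆ K := by
    rw [hKvd]
    exact fun x hx => hx.1
  obtain ⟨Δ, hΔ⟩ : ∃ Δ : Eu d → ℝ, Δ = fun x =>
      (lagPhi y₀ h₀ (x + v) - lagPhi y₀ h₀ x) - (lagPhi y₁ h₁ (x + v) - lagPhi y₁ h₁ x) := ⟨_, rfl⟩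
  have hΔc : Continuous Δ := by
    rw [hΔ]
    have := continuous_lagPhi y₀ h₀
    have := continuous_lagPhi y₁ h₁
    fun_prop
  have hΔb : ∀ x ∈ K, |Δ x| ≤ ((R + ‖v‖) * (∑ l, ‖y₀ l‖) + ‖h₀‖) + (R * (∑ l, ‖y₀ l‖) + ‖h₀‖)
      + (((R + ‖v‖) * (∑ l, ‖y₁ l‖) + ‖h₁‖) + (R * (∑ l, ‖y₁ l‖) + ‖h₁‖)) := by
    intro x hx
    rw [hΔ]
    exact (abs_sub _ _).trans (add_le_add (abs_incr_le y₀ h₀ v (P.hKR x hx))
      (abs_incr_le y₁ h₁ v (P.hKR x hx)))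
  obtain ⟨B, hB⟩ : ∃ B, ∀ x ∈ K, |Δ x| ≤ B := ⟨_, hΔb⟩
  have hmax : ∀ t : ℝ, |t| ≤ B → |(max t 0) ^ 2| ≤ B ^ 2 := by
    intro t ht
    rw [abs_pow]
    apply pow_le_pow_left₀ (abs_nonneg _)
    rw [abs_le]
    have h0 := abs_le.1 ht
    have h00 : 0 ≤ B := (abs_nonneg _).trans ht
    constructor
    · exact le_trans (by linarith) (le_max_right _ _)
    · exact max_le h0.2 h00
  have iP : IntegrableOn (fun x => (max (Δ x) 0) ^ 2) Kv := by
    refine intOn_real P.hKtop hKvK hKvm ((hΔc.measurable.max measurable_const).pow_const 2)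
      (B := B ^ 2) (fun x hx => hmax _ (hB x hx))
  have iN : IntegrableOn (fun x => (max (-Δ x) 0) ^ 2) Kv := by
    refine intOn_real P.hKtop hKvK hKvm
      ((hΔc.measurable.neg.max measurable_const).pow_const 2)
      (B := B ^ 2) (fun x hx => hmax _ (by rw [abs_neg]; exact hB x hx))
  have e1 : ∀ x, ((lagPhi y₀ h₀ (x + v) - lagPhi y₁ h₁ (x + v)) - (lagPhi y₀ h₀ x - lagPhi y₁ h₁ x)) ^ 2
      = (max (Δ x) 0) ^ 2 + (max (-Δ x) 0) ^ 2 := by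
    intro x
    have e2 : (lagPhi y₀ h₀ (x + v) - lagPhi y₁ h₁ (x + v)) - (lagPhi y₀ h₀ x - lagPhi y₁ h₁ x)
        = Δ x := by
      rw [hΔ]
      ring
    rw [e2]
    rcases le_total (Δ x) 0 with h | h
    · rw [max_eq_right h, max_eq_left (by linarith)]
      ring
    · rw [max_eq_left h, max_eq_right (by linarith)]
      ring
  simp only [e1]
  rw [integral_add iP iN]
  have e3 : ∀ x, (lagPhi y₁ h₁ (x + v) - lagPhi y₁ h₁ x) - (lagPhi y₀ h₀ (x + v) - lagPhi y₀ h₀ x)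
      = -Δ x := by
    intro x
    rw [hΔ]
    ring
  have e4 : ∀ x, (lagPhi y₀ h₀ (x + v) - lagPhi y₀ h₀ x) - (lagPhi y₁ h₁ (x + v) - lagPhi y₁ h₁ x)
      = Δ x := by
    intro x
    rw [hΔ]
  simp only [e3] at h1
  simp only [e4] at h2
  linarith

end Vale.Agent.Lib.P074
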