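import Vale.Agent.Lib.P074.Disc

/-!
Quantization of measures by finite nets and a generic perturbation of sites.
-/

open MeasureTheory ENNReal NNReal Set Metric Filter Topology

namespace Vale.Agent.Lib.P074

variable {d : ℕ}

/-- Nearest point quantizers. -/
lemma exists_quantizer {M ε : ℝ} (hM : 0 ≤ M) (hε : 0 < ε) :
    ∃ (J : Type) (_ : Fintype J) (_ : Nonempty J) (a : J → Eu d) (q : Eu d → J),
      (∀ k, MeasurableSet (q ⁻¹' {k})) ∧ (∀ j, ‖a j‖ ≤ M) ∧ ∀ z, ‖z‖ ≤ M → ‖z - a (q z)‖ ≤ ε := by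
  obtain ⟨t, hts, htf, hcov⟩ := (isCompact_closedBall (0 : Eu d) M).finite_cover_balls hε
  have hne : t.Nonempty := by
    by_contra h
    rw [not_nonempty_iff_eq_empty] at h
    rw [h] at hcov
    simp only [mem_empty_iff_false, iUnion_of_empty, iUnion_empty, subset_empty_iff] at hcov
    have : (0 : Eu d) ∈ closedBall (0 : Eu d) M := mem_closedBall_self hM
    rw [hcov] at this
    exact this
  have : Fintype t := htf.fintype
  have : Nonempty t := hne.to_subtype
  refine ⟨t, inferInstance, inferInstance, Subtype.val, sel Subtype.val (fun k => ‖(k : Eu d)‖ ^ 2 / 2),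
    fun k => measurableSet_sel _ _ k, fun j => ?_, fun z hz => ?_⟩
  · have := hts j.2
    simpa using this
  · have hzm : z ∈ closedBall (0 : Eu d) M := by simpa using hz
    obtain ⟨l, hl, hzl⟩ := mem_iUnion₂.1 (hcov hzm)
    set k := sel (Subtype.val : t → Eu d) (fun k => ‖(k : Eu d)‖ ^ 2 / 2) z with hk
    have h1 := aff_le_lagPhi (Subtype.val : t → Eu d) (fun k => ‖(k : Eu d)‖ ^ 2 / 2) ⟨l, hl⟩ z
    rw [lagPhi_eq_sel] at h1
    unfold aff at h1
    simp only at h1
    have h2 : ‖z - l‖ < ε := by simpa [dist_eq_norm] using hzl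
    have h3 : ‖z - (k : Eu d)‖ ^ 2 ≤ ‖z - l‖ ^ 2 := by
      rw [norm_sub_sq_real, norm_sub_sq_real]
      rw [← hk] at h1
      linarith
    have h4 : ‖z - l‖ ^ 2 ≤ ε ^ 2 := pow_le_pow_left₀ (norm_nonneg _) h2.le 2
    exact (pow_le_pow_iff_left₀ (norm_nonneg _) hε.le (by norm_num)).1 (h3.trans h4)

/-- A bounded injective family of vectors. -/
lemma exists_inj_family (hd : 1 ≤ d) (P : Type) [Fintype P] [Nonempty P] :
    ∃ g : P → Eu d, Function.Injective g ∧ ∀ p, ‖g p‖ ≤ 1 := by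
  set N := Fintype.card P with hN
  have hNpos : 0 < N := Fintype.card_pos
  set e := Fintype.equivFin P with he
  set w : Eu d := EuclideanSpace.single ⟨0, hd⟩ (1 : ℝ) with hw
  have hwn : ‖w‖ = 1 := by
    rw [hw, PiLp.norm_single]
    simp
  have hNr : (0 : ℝ) < N := by exact_mod_cast hNpos
  refine ⟨fun p => (((e p : ℕ) : ℝ) / N) • w, fun p p' hpp => ?_, fun p => ?_⟩
  · have hw0 : w ≠ 0 := by
      intro h
      rw [h, norm_zero] at hwn
      exact zero_ne_one hwn
    have h1 := smul_left_injective ℝ hw0 hpp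
    have h2 : ((e p : ℕ) : ℝ) = ((e p' : ℕ) : ℝ) := by
      field_simp at h1
      exact h1
    have h3 : (e p : ℕ) = (e p' : ℕ) := by exact_mod_cast h2
    exact e.injective (Fin.ext h3)
  · rw [norm_smul, hwn, mul_one, Real.norm_eq_abs, abs_of_nonneg (by positivity),
      div_le_one hNr]
    exact_mod_cast (e p).2.le

/-- Generic perturbations keep all rational interpolations injective. -/
lemma exists_delta {P : Type} [Fintype P] (A₀ A₁ g : P → Eu d) (hg : Function.Injective g) {ε : ℝ}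
    (hε : 0 < ε) :
    ∃ δ : ℝ, 0 < δ ∧ δ < ε ∧ ∀ r : ℚ, Function.Injective
      (fun k => (A₀ k + δ • g k) + (r : ℝ) • ((A₁ k + δ • g k) - (A₀ k + δ • g k))) := by
  set S : ℚ → P → P → Set ℝ := fun r k l =>
    {δ | k ≠ l ∧ (A₀ k + δ • g k) + (r : ℝ) • ((A₁ k + δ • g k) - (A₀ k + δ • g k))
      = (A₀ l + δ • g l) + (r : ℝ) • ((A₁ l + δ • g l) - (A₀ l + δ • g l))} with hS
  have hsub : ∀ r k l, (S r k l).Subsingleton := by
    intro r k l δ hδ δ' hδ'
    have hne := hδ.1
    have h1 := hδ.2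
    have h2 := hδ'.2
    have e1 : ∀ t : ℝ, (A₀ k + t • g k) + (r : ℝ) • ((A₁ k + t • g k) - (A₀ k + t • g k))
        - ((A₀ l + t • g l) + (r : ℝ) • ((A₁ l + t • g l) - (A₀ l + t • g l)))
        = t • (g k - g l) + ((A₀ k + (r : ℝ) • (A₁ k - A₀ k)) - (A₀ l + (r : ℝ) • (A₁ l - A₀ l))) := by
      intro t
      have e2 : ∀ j, (A₁ j + t • g j) - (A₀ j + t • g j) = A₁ j - A₀ j := fun j => by abel
      rw [e2, e2, smul_sub t (g k) (g l)]
      abel
    have h3 := e1 δ
    have h4 := e1 δ'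
    rw [h1, sub_self] at h3
    rw [h2, sub_self] at h4
    have h5 : (δ - δ') • (g k - g l) = 0 := by
      rw [sub_smul]
      have h6 := h3.symm.trans h4
      have h7 := add_right_cancel h6
      rw [h7, sub_self]
    have h8 : g k - g l ≠ 0 := sub_ne_zero.2 (fun e => hne (hg e))
    have h9 := (smul_eq_zero.1 h5).resolve_right h8
    linarith
  set B : Set ℝ := ⋃ r, ⋃ k, ⋃ l, S r k l with hB
  have hBc : B.Countable := by
    apply countable_iUnion
    intro r
    apply countable_iUnion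
    intro k
    apply countable_iUnion
    intro l
    exact (hsub r k l).countable
  have hdense := hBc.dense_compl ℝ
  obtain ⟨δ, hδ1, hδ2⟩ := hdense.exists_mem_open (isOpen_Ioo (a := (0 : ℝ)) (b := ε))
    ⟨ε / 2, by constructor <;> linarith⟩
  refine ⟨δ, hδ2.1, hδ2.2, fun r k l hkl => ?_⟩
  by_contra hne
  apply hδ1
  exact mem_iUnion.2 ⟨r, mem_iUnion.2 ⟨k, mem_iUnion.2 ⟨l, hne, hkl⟩⟩⟩

end Vale.Agent.Lib.P074
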