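import Vale.Agent.Lib.P074.Path

/-!
Measurable selections of the Laguerre cells, and translations.
-/

open MeasureTheory ENNReal NNReal Set Metric Filter Topology

namespace Vale.Agent.Lib.P074

variable {d : ℕ} {I : Type*} [Fintype I] [Nonempty I]

/-- A selection by a fixed enumeration. -/
lemma exists_sel (y : I → Eu d) (h : I → ℝ) :
    ∃ s : Eu d → I, (∀ k, MeasurableSet (s ⁻¹' {k})) ∧ ∀ x, lagPhi y h x = aff y h (s x) x := by
  classical
  set e := Fintype.equivFin I with he
  set A : I → Set (Eu d) := fun k => {x | lagPhi y h x = aff y h k x} with hA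
  have hAm : ∀ k, MeasurableSet (A k) := fun k =>
    measurableSet_eq_fun (continuous_lagPhi y h).measurable (continuous_aff y h k).measurable
  have hex : ∀ x, ∃ k, x ∈ A k ∧ ∀ l, x ∈ A l → e k ≤ e l := by
    intro x
    obtain ⟨k₀, hk₀⟩ := exists_lagPhi_eq y h x
    have hne : (Finset.univ.filter (fun k => x ∈ A k)).Nonempty :=
      ⟨k₀, by simpa [hA] using hk₀⟩
    obtain ⟨k, hk, hmin⟩ := Finset.exists_min_image _ (fun k => e k) hne
    refine ⟨k, (Finset.mem_filter.1 hk).2, fun l hl => hmin l ?_⟩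
    exact Finset.mem_filter.2 ⟨Finset.mem_univ _, hl⟩
  choose s hs1 hs2 using hex
  refine ⟨s, fun k => ?_, hs1⟩
  have : s ⁻¹' {k} = A k ∩ ⋂ l, (A l)ᶜ ∪ {x | e k ≤ e l} := by
    ext x
    simp only [mem_preimage, mem_singleton_iff, mem_inter_iff, mem_iInter, mem_union, mem_compl_iff,
      mem_setOf_eq]
    constructor
    · rintro rfl
      refine ⟨hs1 x, fun l => ?_⟩
      by_cases hl : x ∈ A l
      · exact Or.inr (hs2 x l hl)
      · exact Or.inl hl
    · rintro ⟨h1, h2⟩
      have h3 := hs2 x k h1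
      have h4 := h2 (s x)
      rcases h4 with h4 | h4
      · exact absurd (hs1 x) h4
      · exact e.injective (le_antisymm h3 h4)
  rw [this]
  refine (hAm k).inter (MeasurableSet.iInter fun l => (hAm l).compl.union ?_)
  by_cases hkl : e k ≤ e l
  · simp [hkl]
  · simp [hkl]

/-- The selection. -/
noncomputable def sel (y : I → Eu d) (h : I → ℝ) : Eu d → I := Classical.choose (exists_sel y h)

lemma measurableSet_sel (y : I → Eu d) (h : I → ℝ) (k : I) : MeasurableSet (sel y h ⁻¹' {k}) :=
  (Classical.choose_spec (exists_sel y h)).1 k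

lemma lagPhi_eq_sel (y : I → Eu d) (h : I → ℝ) (x : Eu d) :
    lagPhi y h x = aff y h (sel y h x) x :=
  (Classical.choose_spec (exists_sel y h)).2 x

/-- Functions through the selection are measurable. -/
lemma measurable_comp_sel {β : Type*} [MeasurableSpace β] (y : I → Eu d) (h : I → ℝ) {F : I → Eu d → β}
    (hF : ∀ k, Measurable (F k)) : Measurable (fun x => F (sel y h x) x) := by
  intro A hA
  have : (fun x => F (sel y h x) x) ⁻¹' A = ⋃ k, (sel y h ⁻¹' {k}) ∩ (F k ⁻¹' A) := by
    ext x
    simp only [mem_preimage, mem_iUnion, mem_inter_iff, mem_singleton_iff]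
    constructor
    · intro hx
      exact ⟨sel y h x, rfl, hx⟩
    · rintro ⟨k, rfl, hx⟩
      exact hx
  rw [this]
  exact MeasurableSet.iUnion (fun k => (measurableSet_sel y h k).inter (hF k hA))

/-- The map associated to a tessellation. -/
noncomputable def lagT (y : I → Eu d) (h : I → ℝ) (x : Eu d) : Eu d := y (sel y h x)

lemma measurable_lagT (y : I → Eu d) (h : I → ℝ) : Measurable (lagT y h) :=
  measurable_comp_sel y h (F := fun k _ => y k) (fun _ => measurable_const)

lemma norm_lagT_le {M : ℝ} {y : I → Eu d} (hy : ∀ k, ‖y k‖ ≤ M) (h : I → ℝ) (x : Eu d) :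
    ‖lagT y h x‖ ≤ M := hy _

/-- The subgradient inequality. -/
lemma lagPhi_subgrad (y : I → Eu d) (h : I → ℝ) (z w : Eu d) :
    lagPhi y h z + inner ℝ (lagT y h z) (w - z) ≤ lagPhi y h w := by
  have h1 := aff_le_lagPhi y h (sel y h z) w
  refine le_trans (le_of_eq ?_) h1
  rw [lagPhi_eq_sel]
  unfold aff lagT
  rw [inner_sub_right, real_inner_comm (y (sel y h z)) z, real_inner_comm (y (sel y h z)) w]
  ring

lemma mem_cell_sel {K : Set (Eu d)} (y : I → Eu d) (h : I → ℝ) {x : Eu d} (hx : x ∈ K) :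
    x ∈ cell K y h (sel y h x) := by
  refine ⟨hx, fun l => ?_⟩
  rw [← lagPhi_eq_sel]
  exact aff_le_lagPhi y h l x

/-- Almost everywhere on a cell, the selection is that cell. -/
lemma ae_sel_eq {K : Set (Eu d)} (hKm : MeasurableSet K) {y : I → Eu d} (hy : Function.Injective y)
    (h : I → ℝ) (k : I) : ∀ᵐ x ∂(volume.restrict (cell K y h k)), sel y h x = k := by
  have hN : volume (⋃ l : {l // l ≠ k}, cell K y h k ∩ cell K y h l) = 0 := by
    apply measure_iUnion_null
    intro l
    exact aedisjoint_cell hy h (Ne.symm l.2)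
  rw [ae_restrict_iff' (measurableSet_cell hKm y h k)]
  filter_upwards [measure_eq_zero_iff_ae_notMem.1 hN] with x hx hxc
  by_contra hne
  exact hx (mem_iUnion.2 ⟨⟨sel y h x, hne⟩, hxc, mem_cell_sel y h hxc.1⟩)

/-- Integrals through the selection. -/
lemma integral_sel {K : Set (Eu d)} (hKm : MeasurableSet K) {y : I → Eu d}
    (hy : Function.Injective y) (h : I → ℝ) {F : I → Eu d → ℝ}
    (hF : IntegrableOn (fun x => F (sel y h x) x) K) :
    ∫ x in K, F (sel y h x) x = ∑ k, ∫ x in cell K y h k, F k x := by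
  rw [← sum_cells hKm hy h hF]
  apply Finset.sum_congr rfl
  intro k _
  apply integral_congr_ae
  filter_upwards [ae_sel_eq hKm hy h k] with x hx
  rw [hx]

/-- A translation of the variable in an integral over `K`. -/
lemma int_shift {K : Set (Eu d)} {Ξ f : Eu d → ℝ} {u : Eu d} (hsupp : ∀ x, Ξ x ≠ 0 → x ∈ K ∧ x + u ∈ K) :
    ∫ x in K, Ξ (x - u) * f x = ∫ x in K, Ξ x * f (x + u) := by
  have e1 : ∫ x in K, Ξ (x - u) * f x = ∫ x, Ξ (x - u) * f x := by
    apply setIntegral_eq_integral_of_forall_compl_eq_zero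
    intro x hx
    by_cases h0 : Ξ (x - u) = 0
    · rw [h0, zero_mul]
    · have := (hsupp _ h0).2
      rw [sub_add_cancel] at this
      exact absurd this hx
  have e2 : ∫ x in K, Ξ x * f (x + u) = ∫ x, Ξ x * f (x + u) := by
    apply setIntegral_eq_integral_of_forall_compl_eq_zero
    intro x hx
    by_cases h0 : Ξ x = 0
    · rw [h0, zero_mul]
    · exact absurd (hsupp _ h0).1 hx
  rw [e1, e2]
  have := integral_add_right_eq_self (μ := (volume : Measure (Eu d))) (fun x => Ξ (x - u) * f x) u
  simp only [add_sub_cancel_right] at this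
  exact this.symm

end Vale.Agent.Lib.P074
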