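import Vale.Agent.Lib.P074.Mass

open MeasureTheory ENNReal NNReal Set

namespace Vale.Agent.Lib.P074

variable {d : ℕ}

lemma measurable_coord (i : Fin d) : Measurable (fun x : Eu d => x i) :=
  (measurable_pi_apply i).comp (PiLp.volume_preserving_ofLp (Fin d)).measurable

/-- The quadratic cost comparison certificate: if `g` is a weight with
`‖x - T x‖² + g y ≤ ‖x - y‖² + g (T x)` for almost all `x` and all `y` in a set carrying `μ`,
and `g` has finite integral against `μ`, then `T` is optimal. -/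
lemma isOTMap_of_cert {ρ μ : Measure (Eu d)} {T : Eu d → Eu d} (hT : Measurable T)
    (hmap : ρ.map T = μ) {g : Eu d → ℝ≥0∞} (hg : Measurable g)
    (hgf : ∫⁻ y, g y ∂μ ≠ ⊤) {Z : Set (Eu d)} (hZ : MeasurableSet Z) (hμ : μ Zᶜ = 0)
    (hk : ∀ᵐ x ∂ρ, ∀ y ∈ Z, ‖x - T x‖ₑ ^ 2 + g y ≤ ‖x - y‖ₑ ^ 2 + g (T x)) :
    IsOTMap ρ μ T := by
  refine ⟨hT, hmap, fun S hS hSmap => ?_⟩
  have hSZ : ∀ᵐ x ∂ρ, S x ∈ Z := by
    have : ρ (S ⁻¹' Zᶜ) = 0 := by
      rw [← Measure.map_apply hS hZ.compl, hSmap, hμ]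
    filter_upwards [measure_eq_zero_iff_ae_notMem.1 this] with x hx
    by_contra h
    exact hx h
  have hint_S : ∫⁻ x, g (S x) ∂ρ = ∫⁻ y, g y ∂μ := by
    rw [← hSmap, lintegral_map hg hS]
  have hint_T : ∫⁻ x, g (T x) ∂ρ = ∫⁻ y, g y ∂μ := by
    rw [← hmap, lintegral_map hg hT]
  have key : ∫⁻ x, (‖x - T x‖ₑ ^ 2 + g (S x)) ∂ρ ≤ ∫⁻ x, (‖x - S x‖ₑ ^ 2 + g (T x)) ∂ρ := by
    apply lintegral_mono_ae
    filter_upwards [hk, hSZ] with x hx hx'
    exact hx (S x) hx'
  have e1 : ∫⁻ x, (‖x - T x‖ₑ ^ 2 + g (S x)) ∂ρ = ∫⁻ x, ‖x - T x‖ₑ ^ 2 ∂ρ + ∫⁻ x, g (S x) ∂ρ :=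
    lintegral_add_right _ (hg.comp hS)
  have e2 : ∫⁻ x, (‖x - S x‖ₑ ^ 2 + g (T x)) ∂ρ = ∫⁻ x, ‖x - S x‖ₑ ^ 2 ∂ρ + ∫⁻ x, g (T x) ∂ρ :=
    lintegral_add_right _ (hg.comp hT)
  rw [e1, e2, hint_S, hint_T] at key
  exact (ENNReal.add_le_add_iff_right hgf).1 key

/-! ### The slab example -/

section Slab

variable (i0 i1 : Fin d)

/-- The transport map with parameters `w` (width of the slab) and `t` (tilt). -/
noncomputable def slabMap (w t : ℝ) (x : Eu d) : Eu d :=
  if x i0 < -(w / 2) - t * x i1 then -EuclideanSpace.single i0 (1 : ℝ)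
  else if w / 2 + t * x i1 < x i0 then EuclideanSpace.single i0 (1 : ℝ)
  else t • EuclideanSpace.single i1 (1 : ℝ)

lemma measurable_slabMap (w t : ℝ) : Measurable (slabMap i0 i1 w t) := by
  have h0 := measurable_coord i0
  have h1 := measurable_coord i1
  unfold slabMap
  refine Measurable.ite ?_ measurable_const (Measurable.ite ?_ measurable_const measurable_const)
  · exact measurableSet_lt h0 (by fun_prop)
  · exact measurableSet_lt (by fun_prop) h0

/-- The left and right regions in the plane of the coordinates `i0`, `i1`. -/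
def leftR (w t : ℝ) : Set (ℝ × ℝ) := {p | p.1 < -(w / 2) - t * p.2}

/-- The right region. -/
def rightR (w t : ℝ) : Set (ℝ × ℝ) := {p | w / 2 + t * p.2 < p.1}

lemma measurableSet_leftR (w t : ℝ) : MeasurableSet (leftR w t) := by
  apply measurableSet_lt <;> fun_prop

lemma measurableSet_rightR (w t : ℝ) : MeasurableSet (rightR w t) := by
  apply measurableSet_lt <;> fun_prop

variable {w t : ℝ}

lemma slab_bounds (hw0 : 0 < w) (hw : w ≤ 1 / 2) (ht0 : 0 ≤ t) (ht : t ≤ w) :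
    ∀ y ∈ Icc (-1/2 : ℝ) (1/2), -1/2 ≤ w / 2 + t * y ∧ w / 2 + t * y ≤ 1/2 := by
  intro y hy
  have h1 : t * y ≤ t * (1/2) := mul_le_mul_of_nonneg_left hy.2 ht0
  have h2 : t * (-1/2) ≤ t * y := mul_le_mul_of_nonneg_left hy.1 ht0
  constructor <;> nlinarith

lemma slab_disjoint (hw0 : 0 < w) (hw : w ≤ 1 / 2) (ht0 : 0 ≤ t) (ht : t ≤ w) :
    (U.prod U) (leftR w t ∩ rightR w t) = 0 := by
  have hU : ∀ᵐ p ∂(U.prod U), p.2 ∈ Icc (-1/2 : ℝ) (1/2) := by
    have : ∀ᵐ y ∂U, y ∈ Icc (-1/2 : ℝ) (1/2) := ae_restrict_mem measurableSet_Icc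
    exact Measure.quasiMeasurePreserving_snd.ae this
  apply measure_mono_null (t := {p : ℝ × ℝ | p.2 ∉ Icc (-1/2 : ℝ) (1/2)})
  · rintro p ⟨h1, h2⟩ hp
    have := (slab_bounds hw0 hw ht0 ht p.2 hp)
    have h1' : p.1 < -(w / 2) - t * p.2 := h1
    have h2' : w / 2 + t * p.2 < p.1 := h2
    have h3 : t * p.2 ≥ t * (-1/2) := mul_le_mul_of_nonneg_left hp.1 ht0
    nlinarith
  · exact hU

/-- The coordinate map to the plane. -/
def coords (x : Eu d) : ℝ × ℝ := (x i0, x i1)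

lemma measurable_coords : Measurable (coords (d := d) i0 i1) :=
  (measurable_coord i0).prodMk (measurable_coord i1)

variable {i0 i1}

lemma unif_coords (hij : i0 ≠ i1) {s : Set (ℝ × ℝ)} (hs : MeasurableSet s) :
    unif (cube d) (coords i0 i1 ⁻¹' s) = (U.prod U) s := by
  rw [← map_two_coords d hij, Measure.map_apply _ hs]
  · rfl
  · exact measurable_coords i0 i1

/-- The pushforward of the uniform measure under the slab map. -/
noncomputable def slabMeasure (i0 i1 : Fin d) (w t : ℝ) : Measure (Eu d) :=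
  ENNReal.ofReal ((1 - w) / 2) • Measure.dirac (-EuclideanSpace.single i0 (1 : ℝ))
    + ENNReal.ofReal ((1 - w) / 2) • Measure.dirac (EuclideanSpace.single i0 (1 : ℝ))
    + ENNReal.ofReal w • Measure.dirac (t • EuclideanSpace.single i1 (1 : ℝ))

lemma map_slabMap (hij : i0 ≠ i1) (hw0 : 0 < w) (hw : w ≤ 1 / 2) (ht0 : 0 ≤ t) (ht : t ≤ w) :
    (unif (cube d)).map (slabMap i0 i1 w t) = slabMeasure i0 i1 w t := by
  set ρ := unif (cube d) with hρ
  set R1 := coords i0 i1 ⁻¹' leftR w t with hR1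
  set R2 := coords i0 i1 ⁻¹' rightR w t \ R1 with hR2
  have hc := measurable_coords (d := d) i0 i1
  have hm1 : MeasurableSet R1 := hc (measurableSet_leftR w t)
  have hm2 : MeasurableSet R2 := (hc (measurableSet_rightR w t)).diff hm1
  have hbd := slab_bounds hw0 hw ht0 ht
  have hL : ρ R1 = ENNReal.ofReal ((1 - w) / 2) := by
    rw [hρ, hR1, unif_coords hij (measurableSet_leftR w t)]
    have := mass_left (a := w / 2) (t := t) hbd
    rw [show (1 - w) / 2 = 1 / 2 - w / 2 by ring, ← this]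
    rfl
  have hR : ρ R2 = ENNReal.ofReal ((1 - w) / 2) := by
    rw [hR2, measure_sdiff_null']
    · rw [hρ, unif_coords hij (measurableSet_rightR w t)]
      have := mass_right (a := w / 2) (t := t) hbd
      rw [show (1 - w) / 2 = 1 / 2 - w / 2 by ring, ← this]
      rfl
    · rw [hρ, hR1, ← Set.preimage_inter, unif_coords hij
        ((measurableSet_rightR w t).inter (measurableSet_leftR w t)), Set.inter_comm]
      exact slab_disjoint hw0 hw ht0 ht
  have hd : Disjoint R1 R2 := Set.disjoint_sdiff_right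
  have hC : ρ (R1 ∪ R2)ᶜ = ENNReal.ofReal w := by
    rw [prob_compl_eq_one_sub (hm1.union hm2), measure_union hd hm2, hL, hR,
      ← ENNReal.ofReal_add (by linarith) (by linarith), ← ENNReal.ofReal_one,
      ← ENNReal.ofReal_sub _ (by linarith)]
    congr 1; ring
  rw [map_three ρ (measurable_slabMap i0 i1 w t) hm1 hm2 hd
    (-EuclideanSpace.single i0 (1 : ℝ)) (EuclideanSpace.single i0 (1 : ℝ))
    (t • EuclideanSpace.single i1 (1 : ℝ)), hL, hR, hC]
  · rfl
  · intro x hx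
    have hx' : x i0 < -(w / 2) - t * x i1 := hx
    simp [slabMap, hx']
  · intro x hx
    have h1 : ¬ x i0 < -(w / 2) - t * x i1 := hx.2
    have h2 : w / 2 + t * x i1 < x i0 := hx.1
    simp [slabMap, h1, h2]
  · intro x hx
    simp only [mem_compl_iff, mem_union, not_or] at hx
    have h1 : ¬ x i0 < -(w / 2) - t * x i1 := hx.1
    have h2 : ¬ w / 2 + t * x i1 < x i0 := fun h => hx.2 ⟨h, hx.1⟩
    simp [slabMap, h1, h2]

/-- Norm computations for the three atoms. -/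
lemma normsq_sub_single (x : Eu d) (i : Fin d) (a : ℝ) :
    ‖x - a • EuclideanSpace.single i (1 : ℝ)‖ ^ 2 = ‖x‖ ^ 2 - 2 * a * x i + a ^ 2 := by
  rw [norm_sub_sq_real, norm_smul, mul_pow, PiLp.norm_single, inner_smul_right,
    EuclideanSpace.inner_single_right]
  simp
  ring

lemma normsq_sub_neg (x : Eu d) (i : Fin d) :
    ‖x - -EuclideanSpace.single i (1 : ℝ)‖ ^ 2 = ‖x‖ ^ 2 + 2 * x i + 1 := by
  have := normsq_sub_single x i (-1)
  rw [neg_smul, one_smul] at this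
  rw [this]; ring

lemma normsq_sub_pos (x : Eu d) (i : Fin d) :
    ‖x - EuclideanSpace.single i (1 : ℝ)‖ ^ 2 = ‖x‖ ^ 2 - 2 * x i + 1 := by
  have := normsq_sub_single x i 1
  rw [one_smul] at this
  rw [this]; ring

/-- The dual weight. -/
noncomputable def dualWeight (i1 : Fin d) (w t : ℝ) (y : Eu d) : ℝ :=
  if y = t • EuclideanSpace.single i1 (1 : ℝ) then t ^ 2 else 1 - w

lemma single_ne_smul (hij : i0 ≠ i1) (a t : ℝ) (ha : a ≠ 0) :
    a • EuclideanSpace.single i0 (1 : ℝ) ≠ t • EuclideanSpace.single i1 (1 : ℝ) := by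
  intro h
  have := congrArg (fun v : Eu d => v i0) h
  simp [hij, ha] at this

lemma dualWeight_neg (hij : i0 ≠ i1) :
    dualWeight i1 w t (-EuclideanSpace.single i0 (1 : ℝ)) = 1 - w := by
  have := single_ne_smul hij (-1) t (by norm_num)
  rw [neg_smul, one_smul] at this
  simp [dualWeight, this]

lemma dualWeight_pos (hij : i0 ≠ i1) :
    dualWeight i1 w t (EuclideanSpace.single i0 (1 : ℝ)) = 1 - w := by
  have := single_ne_smul hij 1 t (by norm_num)
  rw [one_smul] at this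
  simp [dualWeight, this]

lemma dualWeight_mid : dualWeight i1 w t (t • EuclideanSpace.single i1 (1 : ℝ)) = t ^ 2 := by
  simp [dualWeight]

/-- The pointwise dual inequality. -/
lemma dual_ineq (hij : i0 ≠ i1) (ht0 : 0 ≤ t) (ht : t ≤ w)
    {x : Eu d} (hx : x ∈ cube d) {y : Eu d}
    (hy : y = -EuclideanSpace.single i0 (1 : ℝ) ∨ y = EuclideanSpace.single i0 (1 : ℝ) ∨
      y = t • EuclideanSpace.single i1 (1 : ℝ)) :
    ‖x - slabMap i0 i1 w t x‖ ^ 2 + dualWeight i1 w t y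
      ≤ ‖x - y‖ ^ 2 + dualWeight i1 w t (slabMap i0 i1 w t x) := by
  have hb : 0 ≤ w / 2 + t * x i1 := by
    have h1 := hx i1
    have h2 : t * (-1/2) ≤ t * x i1 := mul_le_mul_of_nonneg_left h1.1 ht0
    nlinarith
  have hyval : ‖x - y‖ ^ 2 - dualWeight i1 w t y = ‖x‖ ^ 2 + 2 * x i0 + w ∨
      ‖x - y‖ ^ 2 - dualWeight i1 w t y = ‖x‖ ^ 2 - 2 * x i0 + w ∨
      ‖x - y‖ ^ 2 - dualWeight i1 w t y = ‖x‖ ^ 2 - 2 * t * x i1 := by
    rcases hy with rfl | rfl | rfl
    · left; rw [normsq_sub_neg, dualWeight_neg hij]; ring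
    · right; left; rw [normsq_sub_pos, dualWeight_pos hij]; ring
    · right; right; rw [normsq_sub_single, dualWeight_mid]; ring
  by_cases h1 : x i0 < -(w / 2) - t * x i1
  · have e : slabMap i0 i1 w t x = -EuclideanSpace.single i0 (1 : ℝ) := by simp [slabMap, h1]
    rw [e, dualWeight_neg hij, normsq_sub_neg]
    rcases hyval with h | h | h <;> nlinarith
  · by_cases h2 : w / 2 + t * x i1 < x i0
    · have e : slabMap i0 i1 w t x = EuclideanSpace.single i0 (1 : ℝ) := by simp [slabMap, h1, h2]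
      rw [e, dualWeight_pos hij, normsq_sub_pos]
      rcases hyval with h | h | h <;> nlinarith
    · have e : slabMap i0 i1 w t x = t • EuclideanSpace.single i1 (1 : ℝ) := by
        simp [slabMap, h1, h2]
      rw [e, dualWeight_mid, normsq_sub_single]
      rcases hyval with h | h | h <;> nlinarith

lemma ofReal_add_le {a b c e : ℝ} (ha : 0 ≤ a) (hb : 0 ≤ b) (hc : 0 ≤ c) (he : 0 ≤ e)
    (h : a + b ≤ c + e) :
    ENNReal.ofReal a + ENNReal.ofReal b ≤ ENNReal.ofReal c + ENNReal.ofReal e := by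
  rw [← ENNReal.ofReal_add ha hb, ← ENNReal.ofReal_add hc he]
  exact ENNReal.ofReal_le_ofReal h

lemma enorm_sq (v : Eu d) : ‖v‖ₑ ^ 2 = ENNReal.ofReal (‖v‖ ^ 2) := by
  rw [ENNReal.ofReal_pow (norm_nonneg v), ofReal_norm]

lemma measurable_dualWeight (i1 : Fin d) (w t : ℝ) : Measurable (dualWeight i1 w t) := by
  unfold dualWeight
  exact Measurable.ite (measurableSet_eq) measurable_const measurable_const

lemma dualWeight_nonneg (hw : w ≤ 1 / 2) (y : Eu d) : 0 ≤ dualWeight i1 w t y := by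
  unfold dualWeight
  split_ifs
  · positivity
  · linarith

/-- The slab map is an optimal transport map. -/
lemma isOTMap_slab (hij : i0 ≠ i1) (hw0 : 0 < w) (hw : w ≤ 1 / 2) (ht0 : 0 ≤ t) (ht : t ≤ w) :
    IsOTMap (unif (cube d)) (slabMeasure i0 i1 w t) (slabMap i0 i1 w t) := by
  have hmeas := map_slabMap (d := d) hij hw0 hw ht0 ht
  have hprob : IsProbabilityMeasure (slabMeasure i0 i1 w t) := by
    rw [← hmeas]
    exact Measure.isProbabilityMeasure_map (measurable_slabMap i0 i1 w t).aemeasurable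
  set Z : Set (Eu d) := {y | y = -EuclideanSpace.single i0 (1 : ℝ) ∨
    y = EuclideanSpace.single i0 (1 : ℝ) ∨ y = t • EuclideanSpace.single i1 (1 : ℝ)} with hZdef
  have hZ : MeasurableSet Z := by
    have : Z = {-EuclideanSpace.single i0 (1 : ℝ), EuclideanSpace.single i0 (1 : ℝ),
        t • EuclideanSpace.single i1 (1 : ℝ)} := by
      ext y; simp [hZdef]
    rw [this]
    exact (Set.toFinite _).measurableSet
  have hμZ : slabMeasure i0 i1 w t Zᶜ = 0 := by
    have hA : (-EuclideanSpace.single i0 (1 : ℝ) : Eu d) ∈ Z := Or.inl rfl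
    have hB : (EuclideanSpace.single i0 (1 : ℝ) : Eu d) ∈ Z := Or.inr (Or.inl rfl)
    have hC : (t • EuclideanSpace.single i1 (1 : ℝ) : Eu d) ∈ Z := Or.inr (Or.inr rfl)
    simp [slabMeasure, Measure.dirac_apply' _ hZ.compl, hA, hB, hC]
  refine isOTMap_of_cert (g := fun y => ENNReal.ofReal (dualWeight i1 w t y))
    (measurable_slabMap i0 i1 w t) hmeas
    (ENNReal.measurable_ofReal.comp (measurable_dualWeight i1 w t)) ?_ hZ hμZ ?_
  · apply ne_of_lt
    have hle : ∀ y, ENNReal.ofReal (dualWeight i1 w t y) ≤ ENNReal.ofReal (t ^ 2 + 1) := by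
      intro y
      apply ENNReal.ofReal_le_ofReal
      unfold dualWeight
      split_ifs <;> nlinarith [sq_nonneg t]
    calc ∫⁻ y, ENNReal.ofReal (dualWeight i1 w t y) ∂(slabMeasure i0 i1 w t)
        ≤ ∫⁻ _, ENNReal.ofReal (t ^ 2 + 1) ∂(slabMeasure i0 i1 w t) := lintegral_mono hle
      _ = ENNReal.ofReal (t ^ 2 + 1) := by simp
      _ < ⊤ := ENNReal.ofReal_lt_top
  · have hcube : ∀ᵐ x ∂(unif (cube d)), x ∈ cube d := by
      rw [unif_cube]
      exact ae_restrict_mem (measurableSet_cube d)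
    filter_upwards [hcube] with x hx y hy
    simp only [enorm_sq]
    exact ofReal_add_le (by positivity) (dualWeight_nonneg hw y) (by positivity)
      (dualWeight_nonneg hw _) (dual_ineq hij ht0 ht hx hy)

/-- The cost of moving only the middle atom. -/
lemma W2sq_slab_le (i0 i1 : Fin d) (w t : ℝ) :
    W2sq (slabMeasure i0 i1 w 0) (slabMeasure i0 i1 w t) ≤ ENNReal.ofReal (w * t ^ 2) := by
  set A : Eu d := -EuclideanSpace.single i0 (1 : ℝ) with hA
  set B : Eu d := EuclideanSpace.single i0 (1 : ℝ) with hB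
  set C0 : Eu d := (0 : ℝ) • EuclideanSpace.single i1 (1 : ℝ) with hC0
  set Ct : Eu d := t • EuclideanSpace.single i1 (1 : ℝ) with hCt
  set m := ENNReal.ofReal ((1 - w) / 2) with hm
  set π : Measure (Eu d × Eu d) := m • Measure.dirac (A, A) + m • Measure.dirac (B, B)
    + ENNReal.ofReal w • Measure.dirac (C0, Ct) with hπ
  have hcoup : IsCoupling π (slabMeasure i0 i1 w 0) (slabMeasure i0 i1 w t) := by
    constructor
    · rw [hπ, Measure.map_add _ _ measurable_fst, Measure.map_add _ _ measurable_fst,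
        Measure.map_smul, Measure.map_smul, Measure.map_smul,
        Measure.map_dirac' measurable_fst, Measure.map_dirac' measurable_fst,
        Measure.map_dirac' measurable_fst]
      rfl
    · rw [hπ, Measure.map_add _ _ measurable_snd, Measure.map_add _ _ measurable_snd,
        Measure.map_smul, Measure.map_smul, Measure.map_smul,
        Measure.map_dirac' measurable_snd, Measure.map_dirac' measurable_snd,
        Measure.map_dirac' measurable_snd]
      rfl
  have hcost : ∫⁻ p, ‖p.1 - p.2‖ₑ ^ 2 ∂π = ENNReal.ofReal (w * t ^ 2) := by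
    have hmeas : Measurable (fun p : Eu d × Eu d => ‖p.1 - p.2‖ₑ ^ 2) := by fun_prop
    rw [hπ, lintegral_add_measure, lintegral_add_measure, lintegral_smul_measure,
      lintegral_smul_measure, lintegral_smul_measure, lintegral_dirac' _ hmeas,
      lintegral_dirac' _ hmeas, lintegral_dirac' _ hmeas]
    simp only [sub_self, enorm_zero]
    have : ‖C0 - Ct‖ₑ ^ 2 = ENNReal.ofReal (t ^ 2) := by
      rw [enorm_sq, hC0, hCt, zero_smul, zero_sub, norm_neg, norm_smul, PiLp.norm_single]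
      simp
    rw [this]
    simp only [ne_eq, OfNat.ofNat_ne_zero, not_false_eq_true, zero_pow, smul_eq_mul, mul_zero,
      zero_add]
    by_cases hw : 0 ≤ w
    · rw [ENNReal.ofReal_mul hw]
    · have hw' : w ≤ 0 := by linarith
      rw [ENNReal.ofReal_of_nonpos hw', ENNReal.ofReal_of_nonpos (mul_nonpos_of_nonpos_of_nonneg hw' (sq_nonneg t)), zero_mul]
  rw [← hcost]
  exact iInf₂_le π hcoup

lemma mem_box_values (hij : i0 ≠ i1) (hw0 : 0 < w) (ht0 : 0 < t) {x : Eu d}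
    (hx : coords i0 i1 x ∈ Ioo (w / 2) (w / 2 + t / 4) ×ˢ Icc (1 / 4 : ℝ) (1 / 2)) :
    ‖slabMap i0 i1 w 0 x - slabMap i0 i1 w t x‖ₑ ^ 2 ≥ 1 := by
  have hx0 : w / 2 < x i0 := hx.1.1
  have hx0' : x i0 < w / 2 + t / 4 := hx.1.2
  have hx1 : 1 / 4 ≤ x i1 := hx.2.1
  have hp : t * (1 / 4) ≤ t * x i1 := mul_le_mul_of_nonneg_left hx1 ht0.le
  have e1 : slabMap i0 i1 w 0 x = EuclideanSpace.single i0 (1 : ℝ) := by
    have h1 : ¬ x i0 < -(w / 2) - 0 * x i1 := by
      simp only [zero_mul, sub_zero, not_lt]; linarith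
    have h2 : w / 2 + 0 * x i1 < x i0 := by simpa using hx0
    rw [slabMap, if_neg h1, if_pos h2]
  have e2 : slabMap i0 i1 w t x = t • EuclideanSpace.single i1 (1 : ℝ) := by
    have h1 : ¬ x i0 < -(w / 2) - t * x i1 := by
      rw [not_lt]; nlinarith
    have h2 : ¬ w / 2 + t * x i1 < x i0 := by
      rw [not_lt]; linarith
    simp [slabMap, h1, h2]
  rw [e1, e2, enorm_sq, ge_iff_le, ← ENNReal.ofReal_one]
  apply ENNReal.ofReal_le_ofReal
  rw [normsq_sub_single]
  have : (EuclideanSpace.single i0 (1 : ℝ) : Eu d) i1 = 0 := by simp [hij]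
  rw [this, PiLp.norm_single]
  simp
  positivity

/-- The maps differ by at least one on a set of mass `t / 16`. -/
lemma L2sq_slab_ge (hij : i0 ≠ i1) (hw0 : 0 < w) (hw : w ≤ 1 / 2) (ht0 : 0 < t) (ht : t ≤ w) :
    ENNReal.ofReal (t / 16) ≤ L2sq (unif (cube d)) (slabMap i0 i1 w 0) (slabMap i0 i1 w t) := by
  have hmS : MeasurableSet (Ioo (w / 2) (w / 2 + t / 4) ×ˢ Icc (1 / 4 : ℝ) (1 / 2)) :=
    measurableSet_Ioo.prod measurableSet_Icc
  set S := coords (d := d) i0 i1 ⁻¹' (Ioo (w / 2) (w / 2 + t / 4) ×ˢ Icc (1 / 4 : ℝ) (1 / 2)) with hS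
  have hmS' : MeasurableSet S := measurable_coords i0 i1 hmS
  have hmass : unif (cube d) S = ENNReal.ofReal (t / 16) := by
    rw [hS, unif_coords hij hmS, mass_rect (by linarith) (by linarith) (by norm_num) (by norm_num),
      ← ENNReal.ofReal_mul (by linarith)]
    congr 1; ring
  rw [← hmass, L2sq]
  calc unif (cube d) S = ∫⁻ _ in S, 1 ∂(unif (cube d)) := by simp
    _ ≤ ∫⁻ x in S, ‖slabMap i0 i1 w 0 x - slabMap i0 i1 w t x‖ₑ ^ 2 ∂(unif (cube d)) := by
        apply setLIntegral_mono' hmS'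
        intro x hx
        exact mem_box_values hij hw0 ht0 hx
    _ ≤ _ := setLIntegral_le_lintegral _ _

lemma slabMap_mem_ball (i0 i1 : Fin d) {w t : ℝ} (ht0 : 0 ≤ t) (ht : t ≤ 1) (x : Eu d) :
    slabMap i0 i1 w t x ∈ Metric.closedBall (0 : Eu d) 2 := by
  have hn : ∀ i : Fin d, ‖(EuclideanSpace.single i (1 : ℝ) : Eu d)‖ = 1 := by
    intro i
    rw [PiLp.norm_single]; simp
  rw [mem_closedBall_zero_iff]
  unfold slabMap
  split_ifs
  · rw [norm_neg, hn]; norm_num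
  · rw [hn]; norm_num
  · rw [norm_smul, hn, Real.norm_eq_abs, abs_of_nonneg ht0]; linarith

end Slab

/-- The family of examples: explicit bounds for every slab width. -/
theorem slab_bounds_main (hd : 2 ≤ d) {w : ℝ} (hw0 : 0 < w) (hw : w ≤ 1 / 2) :
    ∃ μ ν : Measure (Eu d), ∃ T S : Eu d → Eu d,
      IsProbabilityMeasure μ ∧ IsProbabilityMeasure ν ∧
      μ (Metric.closedBall (0 : Eu d) 2)ᶜ = 0 ∧ ν (Metric.closedBall (0 : Eu d) 2)ᶜ = 0 ∧
      IsOTMap (unif (cube d)) μ T ∧ IsOTMap (unif (cube d)) ν S ∧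
      ENNReal.ofReal (w / 16) ≤ L2sq (unif (cube d)) T S ∧
      W2sq μ ν ≤ ENNReal.ofReal (w ^ 3) := by
  let i0 : Fin d := ⟨0, by omega⟩
  let i1 : Fin d := ⟨1, by omega⟩
  have hij : i0 ≠ i1 := by
    intro h
    have := congrArg Fin.val h
    simp [i0, i1] at this
  have ball : ∀ t : ℝ, 0 ≤ t → t ≤ w →
      slabMeasure i0 i1 w t (Metric.closedBall (0 : Eu d) 2)ᶜ = 0 := by
    intro t h0 h1
    rw [← map_slabMap (d := d) hij hw0 hw h0 h1, Measure.map_apply (measurable_slabMap i0 i1 w t)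
      Metric.isClosed_closedBall.measurableSet.compl]
    have : slabMap i0 i1 w t ⁻¹' (Metric.closedBall (0 : Eu d) 2)ᶜ = ∅ := by
      ext x
      simp only [mem_preimage, mem_compl_iff, mem_empty_iff_false, iff_false, not_not]
      exact slabMap_mem_ball i0 i1 h0 (by linarith) x
    rw [this, measure_empty]
  have prob : ∀ t : ℝ, 0 ≤ t → t ≤ w → IsProbabilityMeasure (slabMeasure i0 i1 w t) := by
    intro t h0 h1
    rw [← map_slabMap (d := d) hij hw0 hw h0 h1]
    exact Measure.isProbabilityMeasure_map (measurable_slabMap i0 i1 w t).aemeasurable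
  refine ⟨slabMeasure i0 i1 w 0, slabMeasure i0 i1 w w, slabMap i0 i1 w 0, slabMap i0 i1 w w,
    prob 0 le_rfl hw0.le, prob w hw0.le le_rfl, ball 0 le_rfl hw0.le, ball w hw0.le le_rfl,
    isOTMap_slab hij hw0 hw le_rfl hw0.le, isOTMap_slab hij hw0 hw hw0.le le_rfl,
    L2sq_slab_ge hij hw0 hw hw0 le_rfl, ?_⟩
  have := W2sq_slab_le (d := d) i0 i1 w w
  rwa [show w * w ^ 2 = w ^ 3 by ring] at this

/-- Exponents above one third are not admissible. -/
theorem not_admissible (hd : 2 ≤ d) {α : ℝ} (hα : 1 / 3 < α) : ¬ Admissible d α := by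
  intro hadm
  obtain ⟨C, hC⟩ := hadm (cube d) (isCompact_cube d) (convex_cube d) (interior_cube_nonempty d)
    (Metric.closedBall (0 : Eu d) 2) (isCompact_closedBall _ _) ⟨0, by simp⟩
  set β : ℝ := 3 * α / 2 - 1 / 2 with hβ
  have hβ0 : 0 < β := by rw [hβ]; linarith
  have hαpos : 0 < α := by linarith
  set ε : ℝ := 1 / (8 * ((C : ℝ) + 1)) with hε
  have hCnn : (0 : ℝ) ≤ (C : ℝ) := C.2
  have hε0 : 0 < ε := by rw [hε]; positivity
  set w : ℝ := min (1 / 2) (ε ^ (1 / β)) with hwdef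
  have hw0 : 0 < w := lt_min (by norm_num) (Real.rpow_pos_of_pos hε0 _)
  have hw : w ≤ 1 / 2 := min_le_left _ _
  have hwβ : w ^ β ≤ ε := by
    calc w ^ β ≤ (ε ^ (1 / β)) ^ β := Real.rpow_le_rpow hw0.le (min_le_right _ _) hβ0.le
      _ = ε := by rw [← Real.rpow_mul hε0.le, one_div, inv_mul_cancel₀ hβ0.ne', Real.rpow_one]
  obtain ⟨μ, ν, T, S, hμ, hν, hμY, hνY, hT, hS, hL, hW⟩ := slab_bounds_main hd hw0 hw
  have key := hC μ ν hμ hν hμY hνY T S hT hS
  have h1 : ENNReal.ofReal ((w / 16) ^ (1 / 2 : ℝ)) ≤ (L2sq (unif (cube d)) T S) ^ (1 / 2 : ℝ) := by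
    rw [← ENNReal.ofReal_rpow_of_pos (by positivity)]
    exact ENNReal.rpow_le_rpow hL (by norm_num)
  have h2 : (W2sq μ ν) ^ (α / 2) ≤ ENNReal.ofReal ((w ^ 3) ^ (α / 2)) := by
    rw [← ENNReal.ofReal_rpow_of_pos (by positivity)]
    exact ENNReal.rpow_le_rpow hW (by positivity)
  have h3 : ENNReal.ofReal ((w / 16) ^ (1 / 2 : ℝ))
      ≤ ENNReal.ofReal ((C : ℝ) * (w ^ 3) ^ (α / 2)) := by
    rw [ENNReal.ofReal_mul hCnn, ENNReal.ofReal_coe_nnreal]
    exact h1.trans (key.trans (by gcongr))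
  have h4 : (w / 16) ^ (1 / 2 : ℝ) ≤ (C : ℝ) * (w ^ 3) ^ (α / 2) :=
    (ENNReal.ofReal_le_ofReal_iff (by positivity)).1 h3
  -- now real arithmetic
  have e1 : (w / 16) ^ (1 / 2 : ℝ) = w ^ (1 / 2 : ℝ) * (1 / 4) := by
    rw [div_eq_mul_inv, Real.mul_rpow hw0.le (by norm_num)]
    congr 1
    rw [show ((16 : ℝ)⁻¹) = (1 / 4) ^ (2 : ℝ) by norm_num, ← Real.rpow_mul (by norm_num)]
    norm_num
  have e2 : (w ^ 3) ^ (α / 2) = w ^ (1 / 2 : ℝ) * w ^ β := by
    rw [← Real.rpow_natCast, ← Real.rpow_mul hw0.le, ← Real.rpow_add hw0]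
    congr 1
    rw [hβ]; push_cast; ring
  rw [e1, e2] at h4
  have hpos : 0 < w ^ (1 / 2 : ℝ) := Real.rpow_pos_of_pos hw0 _
  have h5 : 1 / 4 ≤ (C : ℝ) * w ^ β := by
    have : w ^ (1 / 2 : ℝ) * (1 / 4) ≤ w ^ (1 / 2 : ℝ) * ((C : ℝ) * w ^ β) := by
      calc _ ≤ _ := h4
        _ = _ := by ring
    exact le_of_mul_le_mul_left this hpos
  have h6 : (C : ℝ) * w ^ β ≤ (C : ℝ) * ε := mul_le_mul_of_nonneg_left hwβ hCnn
  have h7 : (C : ℝ) * ε < 1 / 4 := by
    rw [hε, mul_one_div, div_lt_iff₀ (by positivity)]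
    nlinarith
  linarith

end Vale.Agent.Lib.P074
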