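import Vale.Agent.Lib.P074.Defs

/-!
Piecewise translations between disjoint balls, and the integrated cycle inequality for an
optimal transport map from a uniform source.
-/

open MeasureTheory ENNReal NNReal Set Metric

namespace Vale.Agent.Lib.P074

set_option linter.unusedSectionVars false

variable {d : ℕ} {ι : Type*} [Fintype ι] [DecidableEq ι]

/-- The piecewise translation sending the ball around `x i` to the ball around `x (σ i)`. -/
noncomputable def pw (x : ι → Eu d) (σ : Equiv.Perm ι) (r : ℝ) (z : Eu d) : Eu d :=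
  z + ∑ i, (closedBall (x i) r).indicator (fun _ => x (σ i) - x i) z

variable {x : ι → Eu d} {σ : Equiv.Perm ι} {r : ℝ}

lemma measurable_pw (x : ι → Eu d) (σ : Equiv.Perm ι) (r : ℝ) : Measurable (pw x σ r) := by
  unfold pw
  refine measurable_id.add ?_
  apply Finset.measurable_sum
  intro i _
  exact measurable_const.indicator measurableSet_closedBall

lemma pw_of_mem (hdisj : Pairwise fun i j => Disjoint (closedBall (x i) r) (closedBall (x j) r))
    {z : Eu d} {i : ι} (hz : z ∈ closedBall (x i) r) : pw x σ r z = z + (x (σ i) - x i) := by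
  unfold pw
  congr 1
  rw [Finset.sum_eq_single i]
  · simp [hz]
  · intro j _ hj
    have : z ∉ closedBall (x j) r := fun h =>
      Set.disjoint_left.1 (hdisj hj) h hz
    simp [this]
  · simp

lemma pw_of_not_mem {z : Eu d} (hz : ∀ i, z ∉ closedBall (x i) r) : pw x σ r z = z := by
  unfold pw
  simp [hz]

lemma mem_ball_shift (x : ι → Eu d) (σ : Equiv.Perm ι) (r : ℝ) (z : Eu d) (i : ι) :
    z + (x (σ i) - x i) ∈ closedBall (x (σ i)) r ↔ z ∈ closedBall (x i) r := by
  simp only [mem_closedBall, dist_eq_norm]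
  have : z + (x (σ i) - x i) - x (σ i) = z - x i := by abel
  rw [this]

lemma pw_pw (hdisj : Pairwise fun i j => Disjoint (closedBall (x i) r) (closedBall (x j) r))
    (z : Eu d) : pw x σ⁻¹ r (pw x σ r z) = z := by
  by_cases h : ∃ i, z ∈ closedBall (x i) r
  · obtain ⟨i, hi⟩ := h
    rw [pw_of_mem hdisj hi]
    have h2 : z + (x (σ i) - x i) ∈ closedBall (x (σ i)) r := (mem_ball_shift x σ r z i).2 hi
    rw [pw_of_mem hdisj h2]
    simp
    abel
  · push Not at h
    rw [pw_of_not_mem h, pw_of_not_mem h]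

lemma norm_pw_sub_le (x : ι → Eu d) (σ : Equiv.Perm ι) (r : ℝ) (z : Eu d) :
    ‖pw x σ r z - z‖ ≤ ∑ i, ‖x (σ i) - x i‖ := by
  unfold pw
  rw [add_sub_cancel_left]
  refine (norm_sum_le _ _).trans (Finset.sum_le_sum fun i _ => ?_)
  by_cases h : z ∈ closedBall (x i) r
  · simp [h]
  · simp [h]

/-- Decomposition of Lebesgue measure of a set along finitely many disjoint balls inside `K`. -/
lemma measure_decomp {K : Set (Eu d)}
    (hsub : ∀ i, closedBall (x i) r ⊆ K)
    (hdisj : Pairwise fun i j => Disjoint (closedBall (x i) r) (closedBall (x j) r))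
    {C : Set (Eu d)} (hC : MeasurableSet C) :
    volume (C ∩ K) = volume (C ∩ (K \ ⋃ i, closedBall (x i) r))
      + ∑ i, volume (C ∩ closedBall (x i) r) := by
  have hU : MeasurableSet (⋃ i, closedBall (x i) r) :=
    MeasurableSet.iUnion fun i => measurableSet_closedBall
  have h1 : C ∩ K = (C ∩ (K \ ⋃ i, closedBall (x i) r)) ∪ ⋃ i, (C ∩ closedBall (x i) r) := by
    ext z
    simp only [mem_inter_iff, mem_sdiff, mem_union, mem_iUnion]
    constructor
    · rintro ⟨hz, hzK⟩
      by_cases h : ∃ i, z ∈ closedBall (x i) r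
      · obtain ⟨i, hi⟩ := h
        exact Or.inr ⟨i, hz, hi⟩
      · exact Or.inl ⟨hz, hzK, h⟩
    · rintro (⟨hz, hzK, -⟩ | ⟨i, hz, hi⟩)
      · exact ⟨hz, hzK⟩
      · exact ⟨hz, hsub i hi⟩
  rw [h1, measure_union]
  · congr 1
    rw [measure_iUnion]
    · rw [tsum_fintype]
    · intro i j hij
      exact (hdisj hij).mono inter_subset_right inter_subset_right
    · intro i
      exact hC.inter measurableSet_closedBall
  · rw [Set.disjoint_left]
    rintro z ⟨-, -, h⟩ hz
    obtain ⟨i, -, hi⟩ := mem_iUnion.1 hz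
    exact h (mem_iUnion.2 ⟨i, hi⟩)
  · exact MeasurableSet.iUnion fun i => hC.inter measurableSet_closedBall

/-- The piecewise translation preserves Lebesgue measure on `K`. -/
lemma map_pw {K : Set (Eu d)}
    (hsub : ∀ i, closedBall (x i) r ⊆ K)
    (hdisj : Pairwise fun i j => Disjoint (closedBall (x i) r) (closedBall (x j) r)) :
    (volume.restrict K).map (pw x σ r) = volume.restrict K := by
  ext A hA
  rw [Measure.map_apply (measurable_pw x σ r) hA, Measure.restrict_apply (measurable_pw x σ r hA),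
    Measure.restrict_apply hA, measure_decomp hsub hdisj (measurable_pw x σ r hA),
    measure_decomp hsub hdisj hA]
  congr 1
  · congr 1
    ext z
    simp only [mem_inter_iff, mem_preimage, mem_sdiff, mem_iUnion]
    constructor
    · rintro ⟨h1, h2, h3⟩
      push Not at h3
      rw [pw_of_not_mem h3] at h1
      exact ⟨h1, h2, by simpa using h3⟩
    · rintro ⟨h1, h2, h3⟩
      have h3' := h3
      push Not at h3'
      rw [← pw_of_not_mem (σ := σ) h3'] at h1
      exact ⟨h1, h2, h3⟩
  · have key : ∀ i, volume (pw x σ r ⁻¹' A ∩ closedBall (x i) r)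
        = volume (A ∩ closedBall (x (σ i)) r) := by
      intro i
      have : pw x σ r ⁻¹' A ∩ closedBall (x i) r
          = (fun z => z + (x (σ i) - x i)) ⁻¹' (A ∩ closedBall (x (σ i)) r) := by
        ext z
        simp only [mem_inter_iff, mem_preimage]
        constructor
        · rintro ⟨h1, h2⟩
          rw [pw_of_mem hdisj h2] at h1
          exact ⟨h1, (mem_ball_shift x σ r z i).2 h2⟩
        · rintro ⟨h1, h2⟩
          have h2' := (mem_ball_shift x σ r z i).1 h2
          rw [← pw_of_mem hdisj h2'] at h1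
          exact ⟨h1, h2'⟩
      rw [this, measure_preimage_add_right]
    rw [Finset.sum_congr rfl (fun i _ => key i)]
    exact Equiv.sum_comp σ (fun i => volume (A ∩ closedBall (x i) r))

lemma enorm_sq' (v : Eu d) : ‖v‖ₑ ^ 2 = ENNReal.ofReal (‖v‖ ^ 2) := by
  rw [ENNReal.ofReal_pow (norm_nonneg v), ofReal_norm]

/-- Basic facts on the uniform measure. -/
lemma unif_eq {K : Set (Eu d)} : unif K = (volume K)⁻¹ • volume.restrict K := rfl

/-- The integrated cycle inequality for an optimal map, in terms of integrals over the balls. -/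
theorem cycle_integral {K : Set (Eu d)} (hKc : IsCompact K) (hK0 : volume K ≠ 0)
    {μ : Measure (Eu d)} {T : Eu d → Eu d} (hopt : IsOTMap (unif K) μ T) {M : ℝ}
    (hM : ∀ z, ‖T z‖ ≤ M)
    (hsub : ∀ i, closedBall (x i) r ⊆ K)
    (hdisj : Pairwise fun i j => Disjoint (closedBall (x i) r) (closedBall (x j) r)) :
    ∑ i, inner ℝ (x (σ i) - x i) (∫ z in closedBall (x i) r, T z) ≤ 0 := by
  have hKm : MeasurableSet K := hKc.measurableSet
  have hKtop : volume K ≠ ⊤ := hKc.measure_lt_top.ne
  set ν : Measure (Eu d) := volume.restrict K with hν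
  have : IsFiniteMeasure ν := ⟨by simpa [hν] using hKc.measure_lt_top⟩
  obtain ⟨hTm, hTmap, hTopt⟩ := hopt
  set Ψ := pw x σ r with hΨ
  set Φ := pw x σ⁻¹ r with hΦ
  have hΨm : Measurable Ψ := measurable_pw _ _ _
  have hΦm : Measurable Φ := measurable_pw _ _ _
  have hΨν : ν.map Ψ = ν := map_pw hsub hdisj
  have hΦν : ν.map Φ = ν := map_pw hsub hdisj
  have hΨΦ : ∀ z, Ψ (Φ z) = z := by
    intro z
    have := pw_pw (x := x) (σ := σ⁻¹) (r := r) hdisj z
    simpa [hΨ, hΦ] using this
  -- the competitor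
  have hSmap : (unif K).map (T ∘ Φ) = μ := by
    rw [← Measure.map_map hTm hΦm, unif_eq, Measure.map_smul, hΦν, ← unif_eq, hTmap]
  have h1 := hTopt (T ∘ Φ) (hTm.comp hΦm) hSmap
  -- remove the normalization
  have hV0 : (volume K)⁻¹ ≠ 0 := ENNReal.inv_ne_zero.2 hKtop
  have hVtop : (volume K)⁻¹ ≠ ⊤ := ENNReal.inv_ne_top.2 hK0
  simp only [unif_eq, lintegral_smul_measure, smul_eq_mul] at h1
  have h2 : ∫⁻ z, ‖z - T z‖ₑ ^ 2 ∂ν ≤ ∫⁻ z, ‖z - (T ∘ Φ) z‖ₑ ^ 2 ∂ν :=
    (ENNReal.mul_le_mul_iff_right hV0 hVtop).1 h1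
  -- change variables on the right
  have h3 : ∫⁻ z, ‖z - (T ∘ Φ) z‖ₑ ^ 2 ∂ν = ∫⁻ w, ‖Ψ w - T w‖ₑ ^ 2 ∂ν := by
    conv_rhs => rw [← hΦν]
    rw [lintegral_map (by fun_prop) hΦm]
    apply lintegral_congr
    intro z
    simp only [Function.comp, hΨΦ]
  rw [h3] at h2
  -- boundedness
  obtain ⟨R, hR⟩ := hKc.isBounded.exists_norm_le
  set Dd : ℝ := ∑ i, ‖x (σ i) - x i‖ with hDd
  have hDd' : ∀ z, ‖Ψ z - z‖ ≤ Dd := norm_pw_sub_le x σ r
  have hae : ∀ᵐ z ∂ν, z ∈ K := ae_restrict_mem hKm
  have hΨb : ∀ᵐ z ∂ν, ‖Ψ z‖ ≤ R + Dd := by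
    filter_upwards [hae] with z hz
    have h4 := hDd' z
    have h5 := hR z hz
    calc ‖Ψ z‖ = ‖(Ψ z - z) + z‖ := by rw [sub_add_cancel]
      _ ≤ ‖Ψ z - z‖ + ‖z‖ := norm_add_le _ _
      _ ≤ _ := by linarith
  have hM0 : 0 ≤ M := (norm_nonneg _).trans (hM 0)
  have hR0 : ∀ᵐ z ∂ν, ‖z‖ ≤ R := by
    filter_upwards [hae] with z hz using hR z hz
  have int1 : Integrable (fun z => ‖z - T z‖ ^ 2) ν := by
    refine Integrable.of_bound (by fun_prop) ((R + M) ^ 2) ?_
    filter_upwards [hR0] with z hz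
    rw [Real.norm_eq_abs, abs_of_nonneg (by positivity)]
    have : ‖z - T z‖ ≤ R + M := (norm_sub_le _ _).trans (by linarith [hM z])
    gcongr
  have int2 : Integrable (fun z => ‖Ψ z - T z‖ ^ 2) ν := by
    refine Integrable.of_bound (by fun_prop) ((R + Dd + M) ^ 2) ?_
    filter_upwards [hΨb] with z hz
    rw [Real.norm_eq_abs, abs_of_nonneg (by positivity)]
    have : ‖Ψ z - T z‖ ≤ R + Dd + M := (norm_sub_le _ _).trans (by linarith [hM z])
    gcongr
  have h6 : ∫ z, ‖z - T z‖ ^ 2 ∂ν ≤ ∫ z, ‖Ψ z - T z‖ ^ 2 ∂ν := by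
    have e1 := ofReal_integral_eq_lintegral_ofReal int1 (Filter.Eventually.of_forall fun z => by positivity)
    have e2 := ofReal_integral_eq_lintegral_ofReal int2 (Filter.Eventually.of_forall fun z => by positivity)
    simp only [enorm_sq'] at h2
    rw [← e1, ← e2] at h2
    exact (ENNReal.ofReal_le_ofReal_iff (integral_nonneg fun z => by positivity)).1 h2
  -- the norm squares of `Ψ z` and `z` have the same integral
  have int3 : Integrable (fun z : Eu d => ‖z‖ ^ 2) ν := by
    refine Integrable.of_bound (by fun_prop) (R ^ 2) ?_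
    filter_upwards [hae] with z hz
    rw [Real.norm_eq_abs, abs_of_nonneg (by positivity)]
    have := hR z hz
    gcongr
  have h7 : ∫ z, ‖Ψ z‖ ^ 2 ∂ν = ∫ z, ‖z‖ ^ 2 ∂ν := by
    conv_rhs => rw [← hΨν]
    rw [integral_map hΨm.aemeasurable (by fun_prop)]
  have int4 : Integrable (fun z => ‖Ψ z‖ ^ 2) ν := by
    refine Integrable.of_bound (by fun_prop) ((R + Dd) ^ 2) ?_
    filter_upwards [hΨb] with z hz
    rw [Real.norm_eq_abs, abs_of_nonneg (by positivity)]
    gcongr
  -- displacement term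
  have hd : ∀ z, Ψ z - z = ∑ i, (closedBall (x i) r).indicator (fun _ => x (σ i) - x i) z := by
    intro z
    simp [hΨ, pw]
  have int5 : ∀ i, Integrable (fun z => inner ℝ ((closedBall (x i) r).indicator
      (fun _ => x (σ i) - x i) z) (T z)) ν := by
    intro i
    refine Integrable.of_bound ?_ (‖x (σ i) - x i‖ * M) ?_
    · apply Measurable.aestronglyMeasurable
      exact (measurable_const.indicator measurableSet_closedBall).inner hTm
    · refine Filter.Eventually.of_forall fun z => ?_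
      rw [Real.norm_eq_abs]
      refine (abs_real_inner_le_norm _ _).trans ?_
      by_cases h : z ∈ closedBall (x i) r
      · simp only [h, indicator_of_mem]
        gcongr
        exact hM z
      · simp only [h, not_false_eq_true, indicator_of_notMem, norm_zero, zero_mul]
        positivity
  have h8 : ∫ z, inner ℝ (Ψ z - z) (T z) ∂ν
      = ∑ i, inner ℝ (x (σ i) - x i) (∫ z in closedBall (x i) r, T z) := by
    have e : ∀ z, inner ℝ (Ψ z - z) (T z) = ∑ i, inner ℝ ((closedBall (x i) r).indicator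
        (fun _ => x (σ i) - x i) z) (T z) := by
      intro z
      rw [hd z, sum_inner]
    simp only [e]
    rw [integral_finsetSum _ (fun i _ => int5 i)]
    apply Finset.sum_congr rfl
    intro i _
    have hTint : IntegrableOn T (closedBall (x i) r) volume := by
      have : IsFiniteMeasure (volume.restrict (closedBall (x i) r)) :=
        ⟨by simpa using (isCompact_closedBall (x i) r).measure_lt_top⟩
      exact Integrable.of_bound hTm.aestronglyMeasurable M (Filter.Eventually.of_forall hM)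
    rw [← integral_inner hTint]
    have e2 : ∀ z, inner ℝ ((closedBall (x i) r).indicator (fun _ => x (σ i) - x i) z) (T z)
        = (closedBall (x i) r).indicator (fun z => inner ℝ (x (σ i) - x i) (T z)) z := by
      intro z
      by_cases h : z ∈ closedBall (x i) r
      · simp [h]
      · simp [h]
    simp only [e2]
    rw [integral_indicator measurableSet_closedBall, hν, Measure.restrict_restrict measurableSet_closedBall,
      inter_eq_left.2 (hsub i)]
  have int6 : Integrable (fun z => inner ℝ (Ψ z - z) (T z)) ν := by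
    refine Integrable.of_bound (by fun_prop) (Dd * M) ?_
    refine Filter.Eventually.of_forall fun z => ?_
    rw [Real.norm_eq_abs]
    refine (abs_real_inner_le_norm _ _).trans ?_
    gcongr
    · exact hDd' z
    · exact hM z
  -- the algebra
  have h9 : ∀ z, ‖Ψ z - T z‖ ^ 2 = ‖z - T z‖ ^ 2 + ‖Ψ z‖ ^ 2 - ‖z‖ ^ 2
      - 2 * inner ℝ (Ψ z - z) (T z) := by
    intro z
    rw [norm_sub_sq_real, norm_sub_sq_real, inner_sub_left]
    ring
  have h10 : ∫ z, ‖Ψ z - T z‖ ^ 2 ∂ν = ∫ z, ‖z - T z‖ ^ 2 ∂ν + ∫ z, ‖Ψ z‖ ^ 2 ∂ν - ∫ z, ‖z‖ ^ 2 ∂ν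
      - 2 * ∫ z, inner ℝ (Ψ z - z) (T z) ∂ν := by
    simp only [h9]
    have A : Integrable (fun z => ‖z - T z‖ ^ 2 + ‖Ψ z‖ ^ 2) ν := int1.add int4
    have B : Integrable (fun z => ‖z - T z‖ ^ 2 + ‖Ψ z‖ ^ 2 - ‖z‖ ^ 2) ν := A.sub int3
    have C : Integrable (fun z => 2 * inner ℝ (Ψ z - z) (T z)) ν := int6.const_mul 2
    rw [integral_sub B C, integral_sub A int3, integral_add int1 int4, integral_const_mul]
  rw [← h8]
  rw [h10, h7] at h6
  linarith

end Vale.Agent.Lib.P074
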